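import Vale.Agent.Lib.P074.Defs

/-!
# P074: boxes in `ℝ^d` and their volumes
-/

open MeasureTheory Set Metric
open scoped InnerProductSpace ENNReal

namespace Vale.Agent.Lib.P074

variable {d : ℕ}

/-- the closed box `∏ [a k, b k]` -/
def box (a b : Fin d → ℝ) : Set (E d) := {x | ∀ k, a k ≤ x k ∧ x k ≤ b k}

theorem box_eq_preimage (a b : Fin d → ℝ) :
    box a b = (WithLp.ofLp : E d → (Fin d → ℝ)) ⁻¹' (Icc a b) := by
  ext x
  simp only [box, mem_ofPred_eq, mem_preimage, mem_Icc, Pi.le_def]
  exact forall_and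

theorem volume_box (a b : Fin d → ℝ) :
    volume (box a b) = ∏ k, ENNReal.ofReal (b k - a k) := by
  rw [box_eq_preimage, (PiLp.volume_preserving_ofLp (Fin d)).measure_preimage
    measurableSet_Icc.nullMeasurableSet, Real.volume_Icc_pi]

theorem measurableSet_box (a b : Fin d → ℝ) : MeasurableSet (box a b) := by
  rw [box_eq_preimage]
  exact (PiLp.volume_preserving_ofLp (Fin d)).measurable measurableSet_Icc

theorem volume_box_toReal (a b : Fin d → ℝ) (h : ∀ k, a k ≤ b k) :
    (volume (box a b)).toReal = ∏ k, (b k - a k) := by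
  rw [volume_box, ENNReal.toReal_prod]
  apply Finset.prod_congr rfl
  intro k _
  exact ENNReal.toReal_ofReal (sub_nonneg.2 (h k))

end Vale.Agent.Lib.P074
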