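import Vale.Agent.Lib.P074.Optimal
import Vale.Agent.Lib.P074.Box

/-!
# P074: the three-atom example (a thin Laguerre cell between two big ones)

`K = [-1,1]^d`, `ψ_σ(x) = max(|x_i|/2, σ s x_j + s)` for `σ = ±1`.  The gradient map `S_σ` takes the
value `σ s e_j` on the thin cell `|x_i| < 2 s (1 + σ x_j)` and `± e_i/2` elsewhere.
-/

open MeasureTheory Set Metric
open scoped InnerProductSpace ENNReal

namespace Vale.Agent.Lib.P074

variable {d : ℕ}

/-- the cube `[-1,1]^d` -/
def cube (d : ℕ) : Set (E d) := box (fun _ => -1) (fun _ => 1)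

/-- the potential `ψ_σ` -/
noncomputable def potC (i j : Fin d) (σ s : ℝ) (x : E d) : ℝ := max (|x i| / 2) (σ * s * x j + s)

open Classical in
/-- the map `S_σ` (a subgradient of `ψ_σ`) -/
noncomputable def mp (i j : Fin d) (σ s : ℝ) (x : E d) : E d :=
  if |x i| / 2 < σ * s * x j + s then EuclideanSpace.single j (σ * s)
  else if 0 ≤ x i then EuclideanSpace.single i (1 / 2) else EuclideanSpace.single i (-1 / 2)

theorem measurable_coord (k : Fin d) : Measurable fun x : E d => x k := by
  fun_prop

theorem mp_measurable (i j : Fin d) (σ s : ℝ) : Measurable (mp i j σ s) := by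
  unfold mp
  refine Measurable.ite ?_ measurable_const (Measurable.ite ?_ measurable_const measurable_const)
  · exact measurableSet_lt (((measurable_coord i).abs).div_const 2)
      (((measurable_coord j).const_mul (σ * s)).add_const s)
  · exact measurableSet_le measurable_const (measurable_coord i)

theorem mp_norm_le (i j : Fin d) (σ s : ℝ) (hσ : |σ| = 1) (hs : |s| ≤ 1) (x : E d) :
    ‖mp i j σ s x‖ ≤ 1 := by
  unfold mp
  split_ifs
  · rw [PiLp.norm_single, Real.norm_eq_abs, abs_mul, hσ, one_mul]; exact hs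
  · rw [PiLp.norm_single]; norm_num
  · rw [PiLp.norm_single]; norm_num

theorem mp_subgradient (i j : Fin d) (σ s : ℝ) (x y : E d) :
    potC i j σ s x + ⟪mp i j σ s x, y - x⟫_ℝ ≤ potC i j σ s y := by
  unfold mp potC
  split_ifs with h1 h2
  · rw [max_eq_right h1.le, EuclideanSpace.inner_single_left]
    simp only [conj_trivial, PiLp.sub_apply]
    refine le_trans (le_of_eq ?_) (le_max_right _ _)
    ring
  · rw [max_eq_left (not_lt.1 h1), EuclideanSpace.inner_single_left]
    simp only [conj_trivial, PiLp.sub_apply]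
    rw [abs_of_nonneg h2]
    refine le_trans ?_ (le_max_left _ _)
    have := le_abs_self (y i)
    linarith
  · rw [max_eq_left (not_lt.1 h1), EuclideanSpace.inner_single_left]
    simp only [conj_trivial, PiLp.sub_apply]
    rw [abs_of_neg (not_le.1 h2)]
    refine le_trans ?_ (le_max_left _ _)
    have := neg_abs_le (y i)
    linarith


/-! ### the cube -/

theorem abs_coord_le_norm (x : E d) (k : Fin d) : |x k| ≤ ‖x‖ := by
  have := PiLp.norm_apply_le x k
  simpa using this

theorem mem_cube {x : E d} : x ∈ cube d ↔ ∀ k, |x k| ≤ 1 := by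
  simp only [cube, box, mem_ofPred_eq, abs_le]

theorem cube_isCompact : IsCompact (cube d) := by
  have h : cube d = (EuclideanSpace.equiv (Fin d) ℝ).toHomeomorph ⁻¹'
      (Icc (fun _ => -1) (fun _ => 1)) := by
    rw [cube, box_eq_preimage]; rfl
  rw [h, Homeomorph.isCompact_preimage]
  exact isCompact_Icc

theorem cube_convex : Convex ℝ (cube d) := by
  intro x hx y hy a b ha hb hab
  rw [mem_cube] at hx hy ⊢
  intro k
  have h1 := abs_le.1 (hx k)
  have h2 := abs_le.1 (hy k)
  simp only [PiLp.add_apply, PiLp.smul_apply, smul_eq_mul]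
  rw [abs_le]
  constructor <;> nlinarith

theorem cube_interior_nonempty : (interior (cube d)).Nonempty := by
  refine ⟨0, mem_interior.2 ⟨ball 0 1, ?_, isOpen_ball, mem_ball_self one_pos⟩⟩
  intro x hx
  rw [mem_cube]
  intro k
  exact (abs_coord_le_norm x k).trans (mem_ball_zero_iff.1 hx).le

theorem cube_measurableSet : MeasurableSet (cube d) := measurableSet_box _ _

theorem volume_cube_toReal : (volume (cube d)).toReal = ∏ _k : Fin d, (2 : ℝ) := by
  rw [cube, volume_box_toReal _ _ (fun _ => by norm_num)]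
  norm_num

theorem volume_cube_ne_zero : volume (cube d) ≠ 0 := by
  intro h
  have := volume_cube_toReal (d := d)
  rw [h] at this
  simp only [ENNReal.toReal_zero, Finset.prod_const] at this
  exact absurd this.symm (by positivity)

theorem volume_cube_ne_top : volume (cube d) ≠ ∞ := cube_isCompact.measure_lt_top.ne

/-- the uniform measure of a sub-box of the cube -/
theorem unif_real_box (a b : Fin d → ℝ) (hsub : box a b ⊆ cube d) (h : ∀ k, a k ≤ b k) :
    (unif (cube d)).real (box a b) = ∏ k, ((b k - a k) / 2) := by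
  unfold unif Measure.real
  rw [Measure.smul_apply, Measure.restrict_apply (measurableSet_box a b),
    inter_eq_self_of_subset_left hsub, smul_eq_mul, ENNReal.toReal_mul, ENNReal.toReal_inv,
    volume_cube_toReal, volume_box_toReal a b h, Finset.prod_div_distrib]
  field_simp


/-! ### the mirror -/

/-- the mirror `x_j ↦ -x_j` -/
noncomputable def mirror (j : Fin d) : E d ≃ₗᵢ[ℝ] E d :=
  LinearIsometryEquiv.piLpCongrRight 2
    (fun k => if k = j then LinearIsometryEquiv.neg ℝ else LinearIsometryEquiv.refl ℝ ℝ)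

theorem mirror_apply (j : Fin d) (x : E d) (k : Fin d) :
    mirror j x k = if k = j then - x k else x k := by
  unfold mirror
  rw [LinearIsometryEquiv.piLpCongrRight_apply]
  simp only
  split_ifs <;> simp

theorem mirror_single_self (j : Fin d) (a : ℝ) :
    mirror j (EuclideanSpace.single j a) = EuclideanSpace.single j (-a) := by
  ext k
  rw [mirror_apply]
  by_cases h : k = j
  · subst h; simp
  · simp [h]

theorem mirror_single_of_ne {i j : Fin d} (hij : i ≠ j) (a : ℝ) :
    mirror j (EuclideanSpace.single i a) = EuclideanSpace.single i a := by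
  ext k
  rw [mirror_apply]
  by_cases h : k = j
  · subst h; simp [hij.symm]
  · simp [h]

theorem mirror_preimage_cube (j : Fin d) : mirror j ⁻¹' cube d = cube d := by
  ext x
  rw [mem_preimage, mem_cube, mem_cube]
  refine forall_congr' fun k => ?_
  rw [mirror_apply]
  split_ifs <;> simp

theorem unif_cube_map_mirror (j : Fin d) :
    (unif (cube d)).map (mirror j) = unif (cube d) := by
  have h1 : MeasurePreserving (mirror j) (volume : Measure (E d)) volume :=
    (mirror j).measurePreserving
  have h2 := h1.restrict_preimage cube_measurableSet (s := cube d)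
  rw [mirror_preimage_cube] at h2
  unfold unif
  rw [Measure.map_smul, h2.map_eq]

theorem mp_mirror {i j : Fin d} (hij : i ≠ j) (σ s : ℝ) (x : E d) :
    mp i j (-σ) s (mirror j x) = mirror j (mp i j σ s x) := by
  unfold mp
  have h1 : mirror j x i = x i := by rw [mirror_apply, if_neg hij]
  have h2 : mirror j x j = - x j := by rw [mirror_apply, if_pos rfl]
  rw [h1, h2]
  have h3 : -σ * s * -x j + s = σ * s * x j + s := by ring
  rw [h3]
  split_ifs
  · rw [mirror_single_self]; congr 1; ring
  · rw [mirror_single_of_ne hij]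
  · rw [mirror_single_of_ne hij]

/-- the mirror coupling -/
theorem mirror_coupling {i j : Fin d} (hij : i ≠ j) (σ s : ℝ) :
    IsCoupling ((unif (cube d)).map fun x => (mp i j σ s x, mirror j (mp i j σ s x)))
      ((unif (cube d)).map (mp i j σ s)) ((unif (cube d)).map (mp i j (-σ) s)) := by
  have hm := mp_measurable i j σ s
  have hmir : Measurable (mirror j) := (mirror j).continuous.measurable
  have hpair : Measurable fun x => (mp i j σ s x, mirror j (mp i j σ s x)) :=
    hm.prodMk (hmir.comp hm)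
  constructor
  · rw [Measure.map_map measurable_fst hpair]
    rfl
  · rw [Measure.map_map measurable_snd hpair]
    have h1 : (Prod.snd ∘ fun x => (mp i j σ s x, mirror j (mp i j σ s x)))
        = mp i j (-σ) s ∘ mirror j := by
      ext1 x
      simp only [Function.comp]
      rw [mp_mirror hij]
    rw [h1, ← Measure.map_map (mp_measurable i j (-σ) s) hmir, unif_cube_map_mirror]


/-! ### the transport cost of the mirror coupling -/

/-- the slab `|x_i| ≤ 4 s` of the cube -/
def slab (i : Fin d) (s : ℝ) : Set (E d) :=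
  box (fun k => if k = i then -(4 * s) else -1) (fun k => if k = i then 4 * s else 1)

theorem slab_subset_cube (i : Fin d) (s : ℝ) (hs : s ≤ 1 / 4) : slab i s ⊆ cube d := by
  intro x hx k
  have := hx k
  by_cases h : k = i
  · simp only [h, if_true] at this ⊢
    constructor <;> linarith [this.1, this.2]
  · simpa only [h, if_false] using this

theorem unif_real_slab (i : Fin d) (s : ℝ) (hs0 : 0 < s) (hs : s ≤ 1 / 4) :
    (unif (cube d)).real (slab i s) = 4 * s := by
  unfold slab
  rw [unif_real_box _ _ (slab_subset_cube i s hs)]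
  · have : ∀ k : Fin d, ((if k = i then 4 * s else 1) - (if k = i then -(4 * s) else -1)) / 2
        = if k = i then 4 * s else 1 := by
      intro k
      split_ifs <;> ring
    simp only [this]
    rw [Finset.prod_ite_eq' Finset.univ i (fun _ => 4 * s)]
    simp
  · intro k
    split_ifs <;> linarith

theorem norm_sub_mirror_le {i j : Fin d} (hij : i ≠ j) (s : ℝ) (hs0 : 0 < s) (p : ℝ) (hp : 0 < p)
    (x : E d) (hx : x ∈ cube d) :
    ‖mp i j 1 s x - mirror j (mp i j 1 s x)‖ ^ p ≤ (slab i s).indicator (fun _ => (2 * s) ^ p) x := by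
  have hnn : 0 ≤ (slab i s).indicator (fun _ => (2 * s) ^ p) x :=
    indicator_nonneg (fun _ _ => by positivity) x
  unfold mp
  split_ifs with h1 h2
  · have hx' := mem_cube.1 hx
    have hmem : x ∈ slab i s := by
      intro k
      by_cases h : k = i
      · subst h
        simp only [if_true]
        have h3 := abs_le.1 (hx' j)
        have h4 : |x k| < 4 * s := by nlinarith [h3.2]
        exact ⟨(abs_lt.1 h4).1.le, (abs_lt.1 h4).2.le⟩
      · simp only [h, if_false]
        exact abs_le.1 (hx' k)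
    rw [indicator_of_mem hmem, mirror_single_self]
    have h5 : EuclideanSpace.single j (1 * s) - EuclideanSpace.single j (-(1 * s))
        = EuclideanSpace.single j (2 * s) := by
      ext k
      by_cases h : k = j
      · subst h; simp; ring
      · simp [h]
    rw [h5, PiLp.norm_single, Real.norm_eq_abs, abs_of_pos (by positivity)]
  · rw [mirror_single_of_ne hij, sub_self, norm_zero, Real.zero_rpow hp.ne']
    exact hnn
  · rw [mirror_single_of_ne hij, sub_self, norm_zero, Real.zero_rpow hp.ne']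
    exact hnn

theorem ae_mem_cube : ∀ᵐ x ∂(unif (cube d)), x ∈ cube d := by
  rw [ae_unif_iff _ volume_cube_ne_top]
  exact ae_restrict_mem cube_measurableSet

instance : IsProbabilityMeasure (unif (cube d)) :=
  isProbabilityMeasure_unif _ volume_cube_ne_top volume_cube_ne_zero

theorem cost_le {i j : Fin d} (hij : i ≠ j) (s : ℝ) (hs0 : 0 < s) (hs : s ≤ 1 / 4) (p : ℝ)
    (hp : 0 < p) :
    ∫ z, ‖z.1 - z.2‖ ^ p ∂((unif (cube d)).map
      fun x => (mp i j 1 s x, mirror j (mp i j 1 s x))) ≤ (2 * s) ^ p * (4 * s) := by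
  have hm := mp_measurable i j 1 s
  have hmir : Measurable (mirror j) := (mirror j).continuous.measurable
  have hpair : Measurable fun x => (mp i j 1 s x, mirror j (mp i j 1 s x)) :=
    hm.prodMk (hmir.comp hm)
  have hg : Measurable fun z : E d × E d => ‖z.1 - z.2‖ ^ p :=
    ((measurable_fst.sub measurable_snd).norm).pow_const p
  rw [integral_map hpair.aemeasurable hg.aestronglyMeasurable]
  have hi : Integrable ((slab i s).indicator (fun _ => (2 * s) ^ p)) (unif (cube d)) :=
    (integrable_const _).indicator (measurableSet_box _ _)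
  calc ∫ x, ‖mp i j 1 s x - mirror j (mp i j 1 s x)‖ ^ p ∂(unif (cube d))
      ≤ ∫ x, (slab i s).indicator (fun _ => (2 * s) ^ p) x ∂(unif (cube d)) := by
        refine integral_mono_of_nonneg ?_ hi ?_
        · exact Filter.Eventually.of_forall fun x => by positivity
        · filter_upwards [ae_mem_cube] with x hx using norm_sub_mirror_le hij s hs0 p hp x hx
    _ = (2 * s) ^ p * (4 * s) := by
        have hms : MeasurableSet (slab i s) := measurableSet_box _ _
        rw [integral_indicator_const _ hms, unif_real_slab i s hs0 hs, smul_eq_mul, mul_comm]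

theorem W_le {i j : Fin d} (hij : i ≠ j) (s : ℝ) (hs0 : 0 < s) (hs : s ≤ 1 / 4) (p : ℝ)
    (hp : 0 < p) :
    W p ((unif (cube d)).map (mp i j 1 s)) ((unif (cube d)).map (mp i j (-1) s))
      ≤ ((2 * s) ^ p * (4 * s)) ^ (1 / p) := by
  unfold W
  have hbdd : BddBelow (range fun π : {π : Measure (E d × E d) // IsCoupling π
      ((unif (cube d)).map (mp i j 1 s)) ((unif (cube d)).map (mp i j (-1) s))} =>
      (∫ z, ‖z.1 - z.2‖ ^ p ∂π.1) ^ (1 / p)) := by
    refine ⟨0, ?_⟩
    rintro _ ⟨π, rfl⟩
    exact Real.rpow_nonneg (integral_nonneg fun z => by positivity) _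
  refine (ciInf_le hbdd ⟨_, mirror_coupling hij 1 s⟩).trans ?_
  exact Real.rpow_le_rpow (integral_nonneg fun z => by positivity) (cost_le hij s hs0 hs p hp)
    (by positivity)


/-! ### the lower bound for the `L²` distance -/

/-- the box `3s/2 ≤ x_i ≤ 5s/2`, `1/2 ≤ x_j ≤ 1` of the cube -/
def sbox (i j : Fin d) (s : ℝ) : Set (E d) :=
  box (fun k => if k = i then 3 / 2 * s else if k = j then 1 / 2 else -1)
    (fun k => if k = i then 5 / 2 * s else 1)

theorem sbox_subset_cube (i j : Fin d) (s : ℝ) (hs0 : 0 < s) (hs : s ≤ 1 / 4) :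
    sbox i j s ⊆ cube d := by
  intro x hx k
  have := hx k
  by_cases h : k = i
  · simp only [h, if_true] at this ⊢
    constructor <;> linarith [this.1, this.2]
  · by_cases h' : k = j
    · beta_reduce at this ⊢
      rw [if_neg h, if_pos h', if_neg h] at this
      constructor <;> linarith [this.1, this.2]
    · simpa only [h, h', if_false] using this

theorem unif_real_sbox {i j : Fin d} (hij : i ≠ j) (s : ℝ) (hs0 : 0 < s) (hs : s ≤ 1 / 4) :
    (unif (cube d)).real (sbox i j s) = s / 8 := by
  unfold sbox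
  rw [unif_real_box _ _ (sbox_subset_cube i j s hs0 hs)]
  · have : ∀ k : Fin d, ((if k = i then 5 / 2 * s else 1)
        - (if k = i then 3 / 2 * s else if k = j then 1 / 2 else -1)) / 2
        = (if k = i then s / 2 else 1) * (if k = j then 1 / 4 else 1) := by
      intro k
      by_cases h : k = i
      · have h' : k ≠ j := fun h' => hij (h.symm.trans h')
        simp only [h, if_true, hij, if_false]; ring
      · by_cases h' : k = j
        · rw [if_neg h, if_neg h, if_pos h', if_neg h, if_pos h']; norm_num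
        · simp only [h, h', if_false]; norm_num
    simp only [this]
    rw [Finset.prod_mul_distrib, Finset.prod_ite_eq' Finset.univ i (fun _ => s / 2),
      Finset.prod_ite_eq' Finset.univ j (fun _ => (1 / 4 : ℝ))]
    simp
    ring
  · intro k
    split_ifs <;> linarith

theorem quarter_le_of_mem_sbox {i j : Fin d} (hij : i ≠ j) (s : ℝ) (hs0 : 0 < s)
    (x : E d) (hx : x ∈ sbox i j s) :
    1 / 4 ≤ ‖mp i j 1 s x - mp i j (-1) s x‖ ^ 2 := by
  have hi := hx i
  have hj := hx j
  have hji : ¬ (j = i) := fun e => hij e.symm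
  simp only [if_true, hji, if_false] at hi hj
  have hxi : 0 ≤ x i := by nlinarith [hi.1]
  have h1 : |x i| / 2 < 1 * s * x j + s := by
    rw [abs_of_nonneg hxi]; nlinarith [hi.2, hj.1]
  have h2 : ¬ (|x i| / 2 < -1 * s * x j + s) := by
    rw [abs_of_nonneg hxi, not_lt]; nlinarith [hi.1, hj.1]
  unfold mp
  rw [if_pos h1, if_neg h2, if_pos hxi]
  have h3 := abs_coord_le_norm
    (EuclideanSpace.single j (1 * s) - EuclideanSpace.single i (1 / 2 : ℝ)) i
  simp only [PiLp.sub_apply, PiLp.single_apply, hij, if_false, if_true, zero_sub,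
    abs_neg] at h3
  rw [abs_of_pos (by norm_num : (0:ℝ) < 1 / 2)] at h3
  nlinarith

theorem L2_ge {i j : Fin d} (hij : i ≠ j) (s : ℝ) (hs0 : 0 < s) (hs : s ≤ 1 / 4) :
    Real.sqrt (s / 32) ≤ L2dist (unif (cube d)) (mp i j 1 s) (mp i j (-1) s) := by
  unfold L2dist
  apply Real.sqrt_le_sqrt
  have hms : MeasurableSet (sbox i j s) := measurableSet_box _ _
  have hs1 : |s| ≤ 1 := by rw [abs_of_pos hs0]; linarith
  have hi : Integrable (fun x => ‖mp i j 1 s x - mp i j (-1) s x‖ ^ 2) (unif (cube d)) := by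
    refine Integrable.of_bound
      ((((mp_measurable i j 1 s).sub (mp_measurable i j (-1) s)).norm).pow_const 2).aestronglyMeasurable
      4 (Filter.Eventually.of_forall fun x => ?_)
    have h1 := mp_norm_le i j 1 s (by norm_num) hs1 x
    have h2 := mp_norm_le i j (-1) s (by norm_num) hs1 x
    have h3 := norm_sub_le (mp i j 1 s x) (mp i j (-1) s x)
    rw [Real.norm_eq_abs, abs_of_nonneg (by positivity)]
    have h4 : ‖mp i j 1 s x - mp i j (-1) s x‖ ≤ 2 := by linarith
    nlinarith [norm_nonneg (mp i j 1 s x - mp i j (-1) s x)]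
  calc s / 32 = ∫ x, (sbox i j s).indicator (fun _ => (1 / 4 : ℝ)) x ∂(unif (cube d)) := by
        rw [integral_indicator_const _ hms, unif_real_sbox hij s hs0 hs, smul_eq_mul]; ring
    _ ≤ ∫ x, ‖mp i j 1 s x - mp i j (-1) s x‖ ^ 2 ∂(unif (cube d)) := by
        refine integral_mono ((integrable_const _).indicator hms) hi fun x => ?_
        by_cases hx : x ∈ sbox i j s
        · rw [indicator_of_mem hx]; exact quarter_le_of_mem_sbox hij s hs0 x hx
        · rw [indicator_of_notMem hx]; positivity


/-! ### the maps are optimal, and the conclusion -/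

theorem mp_isOTMap (i j : Fin d) (σ s : ℝ) (hσ : |σ| = 1) (hs : |s| ≤ 1) :
    IsOTMap (unif (cube d)) ((unif (cube d)).map (mp i j σ s)) (mp i j σ s) := by
  obtain ⟨r0, hr0⟩ := (cube_isCompact (d := d)).isBounded.subset_closedBall (0 : E d)
  exact isOTMap_of_subgradient (cube d) cube_measurableSet volume_cube_ne_zero (max r0 0)
    (le_max_right _ _) (hr0.trans (closedBall_subset_closedBall (le_max_left _ _))) 1
    (mp i j σ s) (mp_measurable i j σ s) (potC i j σ s) (mp_norm_le i j σ s hσ hs)
    (mp_subgradient i j σ s)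

theorem map_mp_compl_ball (i j : Fin d) (σ s : ℝ) (hσ : |σ| = 1) (hs : |s| ≤ 1) :
    ((unif (cube d)).map (mp i j σ s)) (closedBall (0 : E d) 1)ᶜ = 0 := by
  rw [Measure.map_apply (mp_measurable i j σ s) isClosed_closedBall.measurableSet.compl]
  have : mp i j σ s ⁻¹' (closedBall (0 : E d) 1)ᶜ = ∅ := by
    ext x
    simp only [mem_preimage, mem_compl_iff, mem_closedBall_zero_iff, mem_empty_iff_false,
      iff_false, not_not]
    exact mp_norm_le i j σ s hσ hs x
  rw [this, measure_empty]

theorem W_nonneg (p : ℝ) (μ ν : Measure (E d)) : 0 ≤ W p μ ν := by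
  unfold W
  exact Real.iInf_nonneg fun π => Real.rpow_nonneg (integral_nonneg fun z => by positivity) _

/-- the quantitative form of the example: if `L² ≤ C W_p^α` holds for all optimal maps to targets in
the unit ball, then `s / 32 ≤ C² ((2s)^p 4s)^{2α/p}` for all `0 < s ≤ 1/4`. -/
theorem example_ineq {i j : Fin d} (hij : i ≠ j) (p : ℝ) (hp : 0 < p) (α : ℝ) (hα : 0 < α) (C : ℝ)
    (hC : ∀ μ ν : Measure (E d), IsProbabilityMeasure μ → IsProbabilityMeasure ν →
        μ (closedBall (0 : E d) 1)ᶜ = 0 → ν (closedBall (0 : E d) 1)ᶜ = 0 →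
        ∀ T S : E d → E d, IsOTMap (unif (cube d)) μ T → IsOTMap (unif (cube d)) ν S →
          L2dist (unif (cube d)) T S ≤ C * W p μ ν ^ α)
    (s : ℝ) (hs0 : 0 < s) (hs : s ≤ 1 / 4) :
    s / 32 ≤ (|C| * (((2 * s) ^ p * (4 * s)) ^ (1 / p)) ^ α) ^ 2 := by
  have hs1 : |s| ≤ 1 := by rw [abs_of_pos hs0]; linarith
  have h1 := hC _ _
    (Measure.isProbabilityMeasure_map (mp_measurable i j 1 s).aemeasurable)
    (Measure.isProbabilityMeasure_map (mp_measurable i j (-1) s).aemeasurable)
    (map_mp_compl_ball i j 1 s (by norm_num) hs1) (map_mp_compl_ball i j (-1) s (by norm_num) hs1)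
    _ _ (mp_isOTMap i j 1 s (by norm_num) hs1) (mp_isOTMap i j (-1) s (by norm_num) hs1)
  have h2 := L2_ge hij s hs0 hs
  have h3 := W_le hij s hs0 hs p hp
  have h4 := W_nonneg p ((unif (cube d)).map (mp i j 1 s)) ((unif (cube d)).map (mp i j (-1) s))
  have h5 : W p ((unif (cube d)).map (mp i j 1 s)) ((unif (cube d)).map (mp i j (-1) s)) ^ α
      ≤ (((2 * s) ^ p * (4 * s)) ^ (1 / p)) ^ α := Real.rpow_le_rpow h4 h3 hα.le
  have h6 : 0 ≤ W p ((unif (cube d)).map (mp i j 1 s)) ((unif (cube d)).map (mp i j (-1) s)) ^ α :=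
    Real.rpow_nonneg h4 _
  have h7 : Real.sqrt (s / 32) ≤ |C| * (((2 * s) ^ p * (4 * s)) ^ (1 / p)) ^ α := by
    calc Real.sqrt (s / 32) ≤ C * _ := h2.trans h1
      _ ≤ |C| * _ := mul_le_mul_of_nonneg_right (le_abs_self C) h6
      _ ≤ _ := mul_le_mul_of_nonneg_left h5 (abs_nonneg C)
  have h8 : Real.sqrt (s / 32) ^ 2 = s / 32 := Real.sq_sqrt (by positivity)
  rw [← h8]
  exact pow_le_pow_left₀ (Real.sqrt_nonneg _) h7 2

/-- an elementary contradiction: `s ≤ D s^{1+γ}` cannot hold for all small `s > 0`. -/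
theorem no_small_power (D γ : ℝ) (hD : 0 ≤ D) (hγ : 0 < γ)
    (h : ∀ s : ℝ, 0 < s → s ≤ 1 / 4 → s / 32 ≤ D * (s * s ^ γ)) : False := by
  set ε : ℝ := 1 / (64 * (D + 1)) with hε
  have hεpos : 0 < ε := by positivity
  set s : ℝ := min (1 / 4) (ε ^ (1 / γ)) with hs
  have hs0 : 0 < s := lt_min (by norm_num) (Real.rpow_pos_of_pos hεpos _)
  have h1 : s ^ γ ≤ ε := by
    calc s ^ γ ≤ (ε ^ (1 / γ)) ^ γ := Real.rpow_le_rpow hs0.le (min_le_right _ _) hγ.le
      _ = ε := by rw [← Real.rpow_mul hεpos.le, one_div_mul_cancel hγ.ne', Real.rpow_one]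
  have h2 := h s hs0 (min_le_left _ _)
  have h3 : D * ε ≤ 1 / 64 := by
    rw [hε, mul_one_div, div_le_iff₀ (by positivity)]
    nlinarith
  have h4 : D * (s * s ^ γ) ≤ s * (1 / 64) := by
    calc D * (s * s ^ γ) = s * (D * s ^ γ) := by ring
      _ ≤ s * (D * ε) := by gcongr
      _ ≤ s * (1 / 64) := by gcongr
  nlinarith

/-- **Exponents above `1/3` are not admissible** (in every dimension `d ≥ 2`). -/
theorem not_admissible (d : ℕ) (hd : 2 ≤ d) (α : ℝ) (hα : 1 / 3 < α) : ¬ Admissible d α := by
  intro hA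
  have hij : (⟨0, by omega⟩ : Fin d) ≠ ⟨1, by omega⟩ := by
    intro h; simp [Fin.ext_iff] at h
  obtain ⟨C, hC⟩ := hA (cube d) cube_isCompact cube_convex cube_interior_nonempty
    (closedBall 0 1) (isCompact_closedBall 0 1) ⟨0, by simp⟩
  have hα0 : 0 < α := by linarith
  refine no_small_power ((|C| * 4 ^ α) ^ 2) (3 * α - 1) (by positivity) (by linarith) ?_
  intro s hs0 hs
  have h1 := example_ineq hij 2 (by norm_num) α hα0 C hC s hs0 hs
  have h2 : ((2 * s) ^ (2 : ℝ) * (4 * s)) ^ (1 / (2 : ℝ)) = 4 * s ^ (3 / 2 : ℝ) := by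
    have e1 : (2 * s) ^ (2 : ℝ) * (4 * s) = (4 * s ^ (3 / 2 : ℝ)) ^ (2 : ℝ) := by
      have e0 : (s ^ (3 / 2 : ℝ)) ^ (2 : ℝ) = s ^ 3 := by
        rw [← Real.rpow_mul hs0.le]
        have : (3 / 2 * 2 : ℝ) = (3 : ℕ) := by norm_num
        rw [this, Real.rpow_natCast]
      rw [Real.mul_rpow (by norm_num : (0:ℝ) ≤ 4) (by positivity : (0:ℝ) ≤ s ^ (3 / 2 : ℝ)), e0,
        Real.rpow_two, Real.rpow_two]
      ring
    rw [e1, ← Real.rpow_mul (by positivity)]
    norm_num
  rw [h2, Real.mul_rpow (by norm_num) (by positivity), ← Real.rpow_mul hs0.le] at h1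
  have h3 : (|C| * (4 ^ α * s ^ (3 / 2 * α))) ^ 2 = (|C| * 4 ^ α) ^ 2 * (s * s ^ (3 * α - 1)) := by
    have e2 : s * s ^ (3 * α - 1) = (s ^ (3 / 2 * α)) ^ 2 := by
      rw [← Real.rpow_natCast, ← Real.rpow_mul hs0.le]
      nth_rewrite 1 [← Real.rpow_one s]
      rw [← Real.rpow_add hs0]
      congr 1
      push_cast
      ring
    rw [e2]; ring
  rw [h3] at h1
  exact h1


/-- **With `W_1` in place of `W_2`, exponents above `1/4` fail** already for the cube and targets in
the unit ball. -/
theorem not_W1_exponent (d : ℕ) (hd : 2 ≤ d) (α : ℝ) (hα : 1 / 4 < α) :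
    ¬ ∃ C : ℝ, ∀ μ ν : Measure (E d), IsProbabilityMeasure μ → IsProbabilityMeasure ν →
        μ (closedBall (0 : E d) 1)ᶜ = 0 → ν (closedBall (0 : E d) 1)ᶜ = 0 →
        ∀ T S : E d → E d, IsOTMap (unif (cube d)) μ T → IsOTMap (unif (cube d)) ν S →
          L2dist (unif (cube d)) T S ≤ C * W 1 μ ν ^ α := by
  rintro ⟨C, hC⟩
  have hij : (⟨0, by omega⟩ : Fin d) ≠ ⟨1, by omega⟩ := by
    intro h; simp [Fin.ext_iff] at h
  have hα0 : 0 < α := by linarith
  refine no_small_power ((|C| * 8 ^ α) ^ 2) (4 * α - 1) (by positivity) (by linarith) ?_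
  intro s hs0 hs
  have h1 := example_ineq hij 1 (by norm_num) α hα0 C hC s hs0 hs
  have h2 : ((2 * s) ^ (1 : ℝ) * (4 * s)) ^ (1 / (1 : ℝ)) = 8 * s ^ (2 : ℝ) := by
    rw [Real.rpow_one, div_one, Real.rpow_one, Real.rpow_two]
    ring
  rw [h2, Real.mul_rpow (by norm_num) (by positivity), ← Real.rpow_mul hs0.le] at h1
  have h3 : (|C| * (8 ^ α * s ^ (2 * α))) ^ 2 = (|C| * 8 ^ α) ^ 2 * (s * s ^ (4 * α - 1)) := by
    have e2 : s * s ^ (4 * α - 1) = (s ^ (2 * α)) ^ 2 := by
      rw [← Real.rpow_natCast, ← Real.rpow_mul hs0.le]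
      nth_rewrite 1 [← Real.rpow_one s]
      rw [← Real.rpow_add hs0]
      congr 1
      push_cast
      ring
    rw [e2]; ring
  rw [h3] at h1
  exact h1

end Vale.Agent.Lib.P074
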