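import Vale.Agent.Lib.P074.Defs

/-!
# P074, Part B, step cyc: from the swap inequality to cyclical monotonicity on a full-measure set
-/

open MeasureTheory Set Metric Filter Topology
open scoped InnerProductSpace ENNReal

namespace Vale.Agent.Lib.P074

variable {d : ℕ}

/-- The truncated map. -/
noncomputable def trunc (K : Set (E d)) (R : ℝ) (T : E d → E d) : E d → E d :=
  fun x => by classical exact if x ∈ K ∧ ‖T x‖ ≤ R then T x else 0

theorem trunc_measurable (K : Set (E d)) (hK : MeasurableSet K) (R : ℝ) (T : E d → E d)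
    (hT : Measurable T) : Measurable (trunc K R T) := by
  classical
  unfold trunc
  refine Measurable.ite ?_ hT measurable_const
  exact hK.inter (measurableSet_le hT.norm measurable_const)

theorem trunc_norm_le (K : Set (E d)) (R : ℝ) (T : E d → E d) (x : E d) :
    ‖trunc K R T x‖ ≤ |R| := by
  classical
  unfold trunc
  split_ifs with h
  · exact h.2.trans (le_abs_self R)
  · simp

theorem trunc_locallyIntegrable (K : Set (E d)) (hK : MeasurableSet K) (R : ℝ) (T : E d → E d)
    (hT : Measurable T) : LocallyIntegrable (trunc K R T) volume := by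
  refine (locallyIntegrable_const (μ := (volume : Measure (E d))) |R|).mono
    (trunc_measurable K hK R T hT).aestronglyMeasurable ?_
  filter_upwards with x
  simpa using trunc_norm_le K R T x

/-- The Lebesgue-point property that we use. -/
def LebPt (f : E d → E d) (x : E d) : Prop :=
  ∀ (N : ℕ) (w : ℝ → E d) (δ : ℝ → ℝ), Tendsto δ (𝓝[>] 0) (𝓝[>] 0) →
    (∀ᶠ r in 𝓝[>] (0:ℝ), x ∈ closedBall (w r) ((N:ℝ) * δ r)) →
    Tendsto (fun r => ⨍ y in closedBall (w r) (δ r), f y) (𝓝[>] 0) (𝓝 (f x))

theorem ae_lebPt (f : E d → E d) (hf : LocallyIntegrable f volume) :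
    ∀ᵐ x ∂(volume : Measure (E d)), LebPt f x := by
  have h : ∀ N : ℕ, _ := fun N : ℕ =>
    IsUnifLocDoublingMeasure.ae_tendsto_average (μ := (volume : Measure (E d))) hf (N : ℝ)
  rw [← ae_all_iff] at h
  filter_upwards [h] with x hx N w δ h1 h2
  exact hx N w δ h1 h2


/-- The conclusion of the swap lemma, as a property of `K` and `T`. -/
def SwapProp (K : Set (E d)) (T : E d → E d) : Prop :=
  ∀ (n : ℕ) (c : Fin n → E d) (δ : ℝ), (∀ i, closedBall (c i) δ ⊆ K) →
    (Pairwise fun i j => Disjoint (closedBall (c i) δ) (closedBall (c j) δ)) →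
    ∀ σ : Equiv.Perm (Fin n),
      0 ≤ ∑ i, ⟪c (σ i) - c i, ∫ y in closedBall (c (σ i)) δ, T y⟫_ℝ

/-- limit form of the swap inequality, at Lebesgue points in the interior. -/
theorem swap_limit (K : Set (E d)) (hK : MeasurableSet K) (R : ℝ) (T : E d → E d)
    (hTb : ∀ᵐ x ∂(volume.restrict K), ‖T x‖ ≤ R) (hswap : SwapProp K T)
    (e : E d) (he : ‖e‖ = 1)
    (m : ℕ) (x : Fin m → E d) (hxi : ∀ i, x i ∈ interior K)
    (hxL : ∀ i, LebPt (trunc K R T) (x i)) (σ : Equiv.Perm (Fin m)) :
    0 ≤ ∑ i, ⟪x (σ i) - x i, trunc K R T (x (σ i))⟫_ℝ := by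
  set T1 := trunc K R T with hT1
  -- centres
  set c : ℝ → Fin m → E d := fun r i => x i + (r * (i : ℕ)) • e with hc
  have hdist : ∀ r i, 0 < r → dist (x i) (c r i) = r * (i:ℕ) := by
    intro r i hr
    simp only [hc, dist_eq_norm]
    rw [sub_add_cancel_left, norm_neg, norm_smul, he, mul_one, Real.norm_eq_abs, abs_of_nonneg]
    positivity
  have hpos : ∀ᶠ r in 𝓝[>] (0:ℝ), 0 < r := eventually_mem_nhdsWithin
  have hsmall : ∀ ε : ℝ, 0 < ε → ∀ᶠ r in 𝓝[>] (0:ℝ), r < ε := fun ε hε =>
    eventually_nhdsWithin_of_eventually_nhds (eventually_lt_nhds hε)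
  have him : ∀ i : Fin m, ((i:ℕ):ℝ) ≤ m := fun i => by exact_mod_cast i.2.le
  -- (a) balls inside K
  have hA : ∀ᶠ r in 𝓝[>] (0:ℝ), ∀ i, closedBall (c r i) (r / 3) ⊆ K := by
    rw [eventually_all]
    intro i
    obtain ⟨ε, hε, hεK⟩ := Metric.mem_nhds_iff.1 (mem_interior_iff_mem_nhds.1 (hxi i))
    filter_upwards [hpos, hsmall (ε / (m + 1)) (by positivity)] with r hr hr2
    intro y hy
    apply hεK
    rw [mem_ball]
    have h1 : dist y (c r i) ≤ r / 3 := hy
    have h2 : dist (c r i) (x i) = r * (i:ℕ) := by rw [dist_comm]; exact hdist r i hr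
    have h3 : r * (m + 1) < ε := by
      rwa [lt_div_iff₀ (by positivity)] at hr2
    have h4 : r * (i:ℕ) ≤ r * m := mul_le_mul_of_nonneg_left (him i) hr.le
    calc dist y (x i) ≤ dist y (c r i) + dist (c r i) (x i) := dist_triangle _ _ _
      _ ≤ r / 3 + r * m := by rw [h2]; linarith
      _ < ε := by nlinarith
  -- (b) pairwise disjoint
  have hB : ∀ᶠ r in 𝓝[>] (0:ℝ),
      Pairwise fun i j => Disjoint (closedBall (c r i) (r / 3)) (closedBall (c r j) (r / 3)) := by
    have : ∀ᶠ r in 𝓝[>] (0:ℝ), ∀ i j : Fin m, i ≠ j →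
        Disjoint (closedBall (c r i) (r / 3)) (closedBall (c r j) (r / 3)) := by
      rw [eventually_all]
      intro i
      rw [eventually_all]
      intro j
      by_cases hij : i = j
      · exact Eventually.of_forall fun r h => absurd hij h
      by_cases hx : x i = x j
      · filter_upwards [hpos] with r hr _
        apply closedBall_disjoint_closedBall
        have h1 : dist (c r i) (c r j) = r * |((i:ℕ):ℝ) - (j:ℕ)| := by
          simp only [hc, dist_eq_norm, hx]
          rw [add_sub_add_left_eq_sub, ← sub_smul, norm_smul, he, mul_one, ← mul_sub,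
            Real.norm_eq_abs, abs_mul, abs_of_pos hr]
        have h2 : (1:ℝ) ≤ |((i:ℕ):ℝ) - (j:ℕ)| := by
          have hne : ((i:ℕ):ℤ) - (j:ℕ) ≠ 0 := by
            intro h
            apply hij
            apply Fin.ext
            omega
          have := Int.one_le_abs hne
          have h3 : ((1:ℤ):ℝ) ≤ ((|((i:ℕ):ℤ) - (j:ℕ)| : ℤ) : ℝ) := by exact_mod_cast this
          simpa using h3
        rw [h1]
        nlinarith
      · have hpos' : 0 < dist (x i) (x j) := dist_pos.2 hx
        filter_upwards [hpos, hsmall (dist (x i) (x j) / (2 * m + 1)) (by positivity)]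
          with r hr hr2 _
        apply closedBall_disjoint_closedBall
        have h3 : r * (2 * m + 1) < dist (x i) (x j) := by
          rwa [lt_div_iff₀ (by positivity)] at hr2
        have h4 : dist (x i) (x j) ≤ dist (x i) (c r i) + dist (c r i) (c r j) + dist (c r j) (x j) :=
          dist_triangle4 _ _ _ _
        rw [hdist r i hr, dist_comm (c r j), hdist r j hr] at h4
        have h5 : r * (i:ℕ) ≤ r * m := mul_le_mul_of_nonneg_left (him i) hr.le
        have h6 : r * (j:ℕ) ≤ r * m := mul_le_mul_of_nonneg_left (him j) hr.le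
        nlinarith
    filter_upwards [this] with r hr i j hij using hr i j hij
  -- (c) convergence of the averages
  have hδ : Tendsto (fun r : ℝ => r / 3) (𝓝[>] 0) (𝓝[>] 0) := by
    apply tendsto_nhdsWithin_of_tendsto_nhds_of_eventually_within
    · have : Tendsto (fun r : ℝ => r / 3) (𝓝 0) (𝓝 (0 / 3)) :=
        (continuous_id.div_const 3).tendsto 0
      rw [zero_div] at this
      exact this.mono_left nhdsWithin_le_nhds
    · filter_upwards [hpos] with r hr
      exact div_pos hr (by norm_num)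
  have hC : ∀ i, Tendsto (fun r => ⨍ y in closedBall (c r i) (r / 3), T1 y) (𝓝[>] 0)
      (𝓝 (T1 (x i))) := by
    intro i
    apply hxL i (3 * m) (fun r => c r i) (fun r => r / 3) hδ
    filter_upwards [hpos] with r hr
    rw [mem_closedBall, hdist r i hr]
    have h5 : r * (i:ℕ) ≤ r * m := mul_le_mul_of_nonneg_left (him i) hr.le
    push_cast
    linarith
  have hcx : ∀ i, Tendsto (fun r => c r i) (𝓝[>] 0) (𝓝 (x i)) := by
    intro i
    have h1 : Continuous fun r : ℝ => x i + (r * (i : ℕ)) • e := by fun_prop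
    have h2 := h1.tendsto 0
    simp only [zero_mul, zero_smul, add_zero] at h2
    exact h2.mono_left nhdsWithin_le_nhds
  have hlim : Tendsto (fun r => ∑ i, ⟪c r (σ i) - c r i,
      ⨍ y in closedBall (c r (σ i)) (r / 3), T1 y⟫_ℝ) (𝓝[>] 0)
      (𝓝 (∑ i, ⟪x (σ i) - x i, T1 (x (σ i))⟫_ℝ)) := by
    apply tendsto_finsetSum
    intro i _
    exact ((hcx (σ i)).sub (hcx i)).inner (hC (σ i))
  -- T = T1 a.e. on K
  have hTT1 : ∀ᵐ y ∂(volume.restrict K), T y = T1 y := by
    filter_upwards [hTb, ae_restrict_mem hK] with y hy hyK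
    simp only [hT1, trunc]
    rw [if_pos ⟨hyK, hy⟩]
  refine ge_of_tendsto hlim ?_
  filter_upwards [hpos, hA, hB] with r hr hAr hBr
  have hs := hswap m (c r) (r / 3) hAr hBr σ
  have hv : ∀ i, (volume : Measure (E d)).real (closedBall (c r i) (r / 3))
      = (volume : Measure (E d)).real (closedBall (0 : E d) (r / 3)) := by
    intro i
    simp only [Measure.real, Measure.addHaar_closedBall_center]
  have hv0 : 0 ≤ ((volume : Measure (E d)).real (closedBall (0 : E d) (r / 3)))⁻¹ := by
    positivity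
  have heq : ∑ i, ⟪c r (σ i) - c r i, ⨍ y in closedBall (c r (σ i)) (r / 3), T1 y⟫_ℝ
      = ((volume : Measure (E d)).real (closedBall (0 : E d) (r / 3)))⁻¹ *
        ∑ i, ⟪c r (σ i) - c r i, ∫ y in closedBall (c r (σ i)) (r / 3), T y⟫_ℝ := by
    rw [Finset.mul_sum]
    apply Finset.sum_congr rfl
    intro i _
    rw [setAverage_eq, hv, inner_smul_right]
    congr 2
    apply integral_congr_ae
    have := ae_restrict_of_ae_restrict_of_subset (hAr (σ i)) hTT1
    filter_upwards [this] with y hy using hy.symm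
  rw [heq]
  exact mul_nonneg hv0 hs


/-- B-cyc.  There is a full-measure set of points of `K` on which `T` is cyclically monotone. -/
theorem exists_cyclically_monotone_of_swap (K : Set (E d)) (hK : IsCompact K) (hKc : Convex ℝ K)
    (R : ℝ) (T : E d → E d) (hT : Measurable T)
    (hTb : ∀ᵐ x ∂(volume.restrict K), ‖T x‖ ≤ R) (hswap : SwapProp K T) :
    ∃ L : Set (E d), (∀ᵐ x ∂(volume.restrict K), x ∈ L) ∧ (∀ x ∈ L, ‖T x‖ ≤ R) ∧
      ∀ (n : ℕ) (x : ℕ → E d), (∀ j, x j ∈ L) →
        ∑ j ∈ Finset.range n, ⟪T (x j), x (j + 1) - x j⟫_ℝ + ⟪T (x n), x 0 - x n⟫_ℝ ≤ 0 := by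
  have hKm : MeasurableSet K := hK.isClosed.measurableSet
  refine ⟨{x | x ∈ interior K ∧ ‖T x‖ ≤ R ∧ LebPt (trunc K R T) x}, ?_, fun x hx => hx.2.1, ?_⟩
  · have h1 : ∀ᵐ x ∂(volume.restrict K), x ∈ interior K := by
      have h0 : (volume : Measure (E d)) (frontier K) = 0 := hKc.addHaar_frontier volume
      have h2 : ∀ᵐ x ∂(volume : Measure (E d)), x ∉ frontier K := measure_eq_zero_iff_ae_notMem.1 h0
      filter_upwards [ae_restrict_of_ae h2, ae_restrict_mem hKm] with x hx hxK
      by_contra hcon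
      exact hx ⟨subset_closure hxK, hcon⟩
    have h3 := ae_restrict_of_ae (s := K)
      (ae_lebPt (trunc K R T) (trunc_locallyIntegrable K hKm R T hT))
    filter_upwards [h1, hTb, h3] with x a b c using ⟨a, b, c⟩
  · intro n x hx
    rcases subsingleton_or_nontrivial (E d) with hsub | hnt
    · have h0 : ∀ a : E d, a = 0 := fun a => Subsingleton.elim a 0
      have : ∀ a b : E d, ⟪a, b⟫_ℝ = 0 := fun a b => by rw [h0 a, inner_zero_left]
      simp [this]
    obtain ⟨e, he⟩ := exists_norm_eq (E d) (zero_le_one)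
    have hmain := swap_limit K hKm R T hTb hswap e he (n + 1) (fun i => x i)
      (fun i => (hx i).1) (fun i => (hx i).2.2) (finRotate (n + 1)).symm
    have htr : ∀ j, trunc K R T (x j) = T (x j) := by
      intro j
      simp only [trunc]
      rw [if_pos ⟨interior_subset (hx j).1, (hx j).2.1⟩]
    simp only [htr] at hmain
    have h1 := Equiv.sum_comp (finRotate (n + 1)).symm
      (fun j : Fin (n + 1) => ⟪x j - x (finRotate (n + 1) j), T (x j)⟫_ℝ)
    simp only [Equiv.apply_symm_apply] at h1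
    rw [h1, Fin.sum_univ_castSucc] at hmain
    simp only [finRotate_last, Fin.val_last, Fin.val_zero] at hmain
    have h2 : ∀ j : Fin n, ((finRotate (n + 1) j.castSucc : Fin (n + 1)) : ℕ) = (j : ℕ) + 1 := by
      intro j
      rw [coe_finRotate_of_ne_last (Fin.castSucc_lt_last j).ne]
      simp
    simp only [h2, Fin.val_castSucc] at hmain
    rw [Fin.sum_univ_eq_sum_range (fun j => ⟪x j - x (j + 1), T (x j)⟫_ℝ) n] at hmain
    have h3 : ∑ j ∈ Finset.range n, ⟪T (x j), x (j + 1) - x j⟫_ℝ
        = - ∑ j ∈ Finset.range n, ⟪x j - x (j + 1), T (x j)⟫_ℝ := by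
      rw [← Finset.sum_neg_distrib]
      apply Finset.sum_congr rfl
      intro j _
      rw [real_inner_comm, ← inner_neg_left, neg_sub]
    have h4 : ⟪T (x n), x 0 - x n⟫_ℝ = - ⟪x n - x 0, T (x n)⟫_ℝ := by
      rw [real_inner_comm, ← inner_neg_left, neg_sub]
    rw [h3, h4]
    linarith

end Vale.Agent.Lib.P074
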