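import Mathlib

/-!
# P074 — common definitions

`E d = ℝ^d` with the Euclidean norm, the uniform probability measure on a set `K`,
couplings, the Wasserstein distances `W p`, the `L²(ρ)` distance of two maps, quadratic optimal
transport maps (Monge minimisers) and admissibility of a stability exponent.
-/

open MeasureTheory Set
open scoped InnerProductSpace ENNReal

namespace Vale.Agent.Lib.P074

/-- `ℝ^d` with the Euclidean norm. -/
abbrev E (d : ℕ) := EuclideanSpace ℝ (Fin d)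

/-- The uniform probability measure `|K|⁻¹ 1_K dx` on `K`. -/
noncomputable def unif {d : ℕ} (K : Set (E d)) : Measure (E d) :=
  (volume K)⁻¹ • volume.restrict K

/-- `π` is a coupling of `μ` and `ν`: its two marginals are `μ` and `ν`. -/
def IsCoupling {d : ℕ} (π : Measure (E d × E d)) (μ ν : Measure (E d)) : Prop :=
  π.map Prod.fst = μ ∧ π.map Prod.snd = ν

/-- The Wasserstein distance `W_p(μ,ν) = inf_π (∫ |y - z|^p dπ(y,z))^{1/p}`, the infimum being taken
over all couplings `π` of `μ` and `ν`. -/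
noncomputable def W {d : ℕ} (p : ℝ) (μ ν : Measure (E d)) : ℝ :=
  ⨅ π : {π : Measure (E d × E d) // IsCoupling π μ ν}, (∫ z, ‖z.1 - z.2‖ ^ p ∂π.1) ^ (1 / p)

/-- `‖T - S‖_{L²(ρ)} = (∫ |T - S|² dρ)^{1/2}`. -/
noncomputable def L2dist {d : ℕ} (ρ : Measure (E d)) (T S : E d → E d) : ℝ :=
  Real.sqrt (∫ x, ‖T x - S x‖ ^ 2 ∂ρ)

/-- `T` is a Brenier map for `ρ`: it is Borel and `ρ`-a.e. a subgradient of a convex function
`φ : ℝ^d → ℝ` (at a point of differentiability of `φ` the only subgradient is `∇φ`). -/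
def IsBrenierMap {d : ℕ} (ρ : Measure (E d)) (T : E d → E d) : Prop :=
  Measurable T ∧ ∃ φ : E d → ℝ, ConvexOn ℝ univ φ ∧
    ∀ᵐ x ∂ρ, ∀ y, φ x + ⟪T x, y - x⟫_ℝ ≤ φ y

/-- `T` is a quadratic optimal transport map from `ρ` to `μ`: a Borel map with `T_# ρ = μ` which
minimises `∫ |x - T x|² dρ` among all Borel maps pushing `ρ` to `μ`. -/
def IsOTMap {d : ℕ} (ρ μ : Measure (E d)) (T : E d → E d) : Prop :=
  Measurable T ∧ ρ.map T = μ ∧
    ∀ T' : E d → E d, Measurable T' → ρ.map T' = μ →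
      ∫ x, ‖x - T x‖ ^ 2 ∂ρ ≤ ∫ x, ‖x - T' x‖ ^ 2 ∂ρ

/-- The exponent `α` is admissible in dimension `d` (the definition of the problem file). -/
def Admissible (d : ℕ) (α : ℝ) : Prop :=
  ∀ K : Set (E d), IsCompact K → Convex ℝ K → (interior K).Nonempty →
    ∀ Y : Set (E d), IsCompact Y → Y.Nonempty →
      ∃ C : ℝ, ∀ μ ν : Measure (E d), IsProbabilityMeasure μ → IsProbabilityMeasure ν →
        μ Yᶜ = 0 → ν Yᶜ = 0 →
        ∀ T S : E d → E d, IsOTMap (unif K) μ T → IsOTMap (unif K) ν S →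
          L2dist (unif K) T S ≤ C * W 2 μ ν ^ α

end Vale.Agent.Lib.P074
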