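import Vale.Agent.Lib.P074.Defs

/-!
# P074 : existence of potentials for finitely supported targets

For a probability measure `ρ` with bounded support which does not charge hyperplanes, finitely many
distinct sites `y k` and masses `m k > 0` of total mass one, there are weights `w k` such that the
cells of the piecewise affine convex function `pmax y w = max_k (⟪y k, x⟫ - w k)` have `ρ`-measure
`m k`.  The weights minimise `∫ pmax y w dρ + ∑ m k * w k`.
-/

open MeasureTheory Set Metric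
open scoped InnerProductSpace ENNReal

namespace Vale.Agent.Lib.P074

variable {d : ℕ} {ι : Type*} [Fintype ι] [Nonempty ι]

/-- `max_k (⟪y k, x⟫ - w k)` -/
noncomputable def pmax (y : ι → E d) (w : ι → ℝ) (x : E d) : ℝ :=
  Finset.univ.sup' Finset.univ_nonempty (fun k => ⟪y k, x⟫_ℝ - w k)

/-- closed cell -/
def ccell (y : ι → E d) (w : ι → ℝ) (k : ι) : Set (E d) :=
  {x | ∀ j, ⟪y j, x⟫_ℝ - w j ≤ ⟪y k, x⟫_ℝ - w k}

/-- open cell -/
def ocell (y : ι → E d) (w : ι → ℝ) (k : ι) : Set (E d) :=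
  {x | ∀ j, j ≠ k → ⟪y j, x⟫_ℝ - w j < ⟪y k, x⟫_ℝ - w k}

/-- cell with margin `t` -/
def mcell (y : ι → E d) (w : ι → ℝ) (k : ι) (t : ℝ) : Set (E d) :=
  {x | ∀ j, j ≠ k → ⟪y j, x⟫_ℝ - w j ≤ ⟪y k, x⟫_ℝ - w k - t}

theorem le_pmax (y : ι → E d) (w : ι → ℝ) (x : E d) (k : ι) : ⟪y k, x⟫_ℝ - w k ≤ pmax y w x :=
  Finset.le_sup' (fun k => ⟪y k, x⟫_ℝ - w k) (Finset.mem_univ k)

theorem pmax_le (y : ι → E d) (w : ι → ℝ) (x : E d) (c : ℝ) (h : ∀ k, ⟪y k, x⟫_ℝ - w k ≤ c) :
    pmax y w x ≤ c :=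
  Finset.sup'_le _ _ fun k _ => h k

theorem exists_eq_pmax (y : ι → E d) (w : ι → ℝ) (x : E d) :
    ∃ k, pmax y w x = ⟪y k, x⟫_ℝ - w k := by
  obtain ⟨k, -, hk⟩ := Finset.exists_mem_eq_sup' Finset.univ_nonempty
    (fun k => ⟪y k, x⟫_ℝ - w k)
  exact ⟨k, hk⟩

theorem pmax_eq_of_mem_ccell {y : ι → E d} {w : ι → ℝ} {x : E d} {k : ι} (h : x ∈ ccell y w k) :
    pmax y w x = ⟪y k, x⟫_ℝ - w k :=
  le_antisymm (pmax_le y w x _ h) (le_pmax y w x k)

theorem exists_mem_ccell (y : ι → E d) (w : ι → ℝ) (x : E d) : ∃ k, x ∈ ccell y w k := by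
  obtain ⟨k, hk⟩ := exists_eq_pmax y w x
  exact ⟨k, fun j => hk ▸ le_pmax y w x j⟩

theorem continuous_pmax (y : ι → E d) (w : ι → ℝ) : Continuous (pmax y w) := by
  unfold pmax
  exact Continuous.finset_sup'_apply _ fun k _ => by fun_prop

theorem pmax_subgradient {y : ι → E d} {w : ι → ℝ} {x : E d} {k : ι} (h : x ∈ ccell y w k)
    (z : E d) : pmax y w x + ⟪y k, z - x⟫_ℝ ≤ pmax y w z := by
  rw [pmax_eq_of_mem_ccell h]
  have := le_pmax y w z k
  rw [inner_sub_right]
  linarith

theorem convexOn_pmax (y : ι → E d) (w : ι → ℝ) : ConvexOn ℝ univ (pmax y w) := by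
  refine ⟨convex_univ, fun a _ b _ s t hs ht hst => ?_⟩
  refine pmax_le _ _ _ _ fun k => ?_
  have h1 := le_pmax y w a k
  have h2 := le_pmax y w b k
  rw [inner_add_right, inner_smul_right, inner_smul_right, smul_eq_mul, smul_eq_mul]
  have : w k = s * w k + t * w k := by rw [← add_mul, hst, one_mul]
  nlinarith [mul_le_mul_of_nonneg_left h1 hs, mul_le_mul_of_nonneg_left h2 ht]

theorem measurableSet_ccell (y : ι → E d) (w : ι → ℝ) (k : ι) : MeasurableSet (ccell y w k) := by
  have : ccell y w k = ⋂ j, {x | ⟪y j, x⟫_ℝ - w j ≤ ⟪y k, x⟫_ℝ - w k} := by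
    ext x; simp [ccell]
  rw [this]
  exact MeasurableSet.iInter fun j => measurableSet_le (by fun_prop) (by fun_prop)

theorem measurableSet_ocell (y : ι → E d) (w : ι → ℝ) (k : ι) : MeasurableSet (ocell y w k) := by
  have : ocell y w k = ⋂ j, {x | j ≠ k → ⟪y j, x⟫_ℝ - w j < ⟪y k, x⟫_ℝ - w k} := by
    ext x; simp [ocell]
  rw [this]
  refine MeasurableSet.iInter fun j => ?_
  by_cases hj : j = k
  · simp [hj]
  · simp only [ne_eq, hj, not_false_eq_true, forall_const]
    exact measurableSet_lt (by fun_prop) (by fun_prop)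

theorem measurableSet_mcell (y : ι → E d) (w : ι → ℝ) (k : ι) (t : ℝ) :
    MeasurableSet (mcell y w k t) := by
  have : mcell y w k t = ⋂ j, {x | j ≠ k → ⟪y j, x⟫_ℝ - w j ≤ ⟪y k, x⟫_ℝ - w k - t} := by
    ext x; simp [mcell]
  rw [this]
  refine MeasurableSet.iInter fun j => ?_
  by_cases hj : j = k
  · simp [hj]
  · simp only [ne_eq, hj, not_false_eq_true, forall_const]
    exact measurableSet_le (by fun_prop) (by fun_prop)

theorem ocell_subset_ccell (y : ι → E d) (w : ι → ℝ) (k : ι) : ocell y w k ⊆ ccell y w k := by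
  intro x hx j
  by_cases hj : j = k
  · rw [hj]
  · exact (hx j hj).le

theorem ocell_disjoint (y : ι → E d) (w : ι → ℝ) {k l : ι} (hkl : k ≠ l) :
    Disjoint (ocell y w k) (ocell y w l) := by
  rw [Set.disjoint_left]
  intro x hk hl
  exact lt_asymm (hk l hkl.symm) (hl k hkl)

theorem eq_of_mem_ocell_of_mem_ccell {y : ι → E d} {w : ι → ℝ} {x : E d} {k l : ι}
    (hk : x ∈ ocell y w k) (hl : x ∈ ccell y w l) : l = k := by
  by_contra hne
  exact absurd (hl k) (not_le.2 (hk l hne))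

/-- the open cell is the increasing union of the cells with margin -/
theorem ocell_eq_iUnion (y : ι → E d) (w : ι → ℝ) (k : ι) :
    ocell y w k = ⋃ n : ℕ, mcell y w k (1 / ((n : ℝ) + 1)) := by
  ext x
  simp only [mem_iUnion]
  constructor
  · intro hx
    have h1 : ∀ j, ∃ n : ℕ, j ≠ k →
        1 / ((n : ℝ) + 1) < (⟪y k, x⟫_ℝ - w k) - (⟪y j, x⟫_ℝ - w j) := by
      intro j
      by_cases hj : j = k
      · exact ⟨0, fun h => absurd hj h⟩
      · obtain ⟨n, hn⟩ := exists_nat_one_div_lt (sub_pos.2 (hx j hj))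
        exact ⟨n, fun _ => hn⟩
    choose n hn using h1
    refine ⟨Finset.univ.sup n, fun j hj => ?_⟩
    have h2 : n j ≤ Finset.univ.sup n := Finset.le_sup (Finset.mem_univ j)
    have h3 : 1 / (((Finset.univ.sup n : ℕ) : ℝ) + 1) ≤ 1 / ((n j : ℝ) + 1) := by
      apply one_div_le_one_div_of_le (by positivity)
      have : (n j : ℝ) ≤ ((Finset.univ.sup n : ℕ) : ℝ) := by exact_mod_cast h2
      linarith
    have := hn j hj
    linarith
  · rintro ⟨n, hn⟩ j hj
    have h1 : (0 : ℝ) < 1 / ((n : ℝ) + 1) := by positivity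
    have := hn j hj
    linarith

theorem mcell_mono (y : ι → E d) (w : ι → ℝ) (k : ι) :
    Monotone fun n : ℕ => mcell y w k (1 / ((n : ℝ) + 1)) := by
  intro a b hab x hx j hj
  have h3 : 1 / ((b : ℝ) + 1) ≤ 1 / ((a : ℝ) + 1) := by
    apply one_div_le_one_div_of_le (by positivity)
    have : (a : ℝ) ≤ (b : ℝ) := by exact_mod_cast hab
    linarith
  have := hx j hj
  linarith


/-! ### the functional -/

section functional

variable (ρ : Measure (E d)) [IsProbabilityMeasure ρ] (r : ℝ)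

theorem abs_pmax_sub_le (y : ι → E d) (w w' : ι → ℝ) (x : E d) :
    |pmax y w x - pmax y w' x| ≤ ‖w - w'‖ := by
  have key : ∀ u v : ι → ℝ, pmax y u x - pmax y v x ≤ ‖u - v‖ := by
    intro u v
    rw [sub_le_iff_le_add]
    refine pmax_le _ _ _ _ fun k => ?_
    have h1 := le_pmax y v x k
    have h2 : |(u - v) k| ≤ ‖u - v‖ := by
      rw [← Real.norm_eq_abs]
      exact norm_le_pi_norm (u - v) k
    have h3 := neg_abs_le ((u - v) k)
    simp only [Pi.sub_apply] at h2 h3
    linarith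
  rw [abs_le]
  constructor
  · have := key w' w
    rw [norm_sub_rev] at this
    linarith
  · exact key w w'

theorem abs_pmax_le (y : ι → E d) (w : ι → ℝ) (x : E d) (hx : ‖x‖ ≤ r) :
    |pmax y w x| ≤ (∑ k, ‖y k‖) * r + ‖w‖ := by
  have hr : 0 ≤ r := (norm_nonneg x).trans hx
  have h0 : ∀ k, |⟪y k, x⟫_ℝ| ≤ (∑ k, ‖y k‖) * r := by
    intro k
    calc |⟪y k, x⟫_ℝ| ≤ ‖y k‖ * ‖x‖ := abs_real_inner_le_norm _ _
      _ ≤ (∑ k, ‖y k‖) * r := by
        refine mul_le_mul ?_ hx (norm_nonneg _) (Finset.sum_nonneg fun _ _ => norm_nonneg _)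
        exact Finset.single_le_sum (f := fun k => ‖y k‖) (fun _ _ => norm_nonneg _)
          (Finset.mem_univ k)
  have hw : ∀ k, |w k| ≤ ‖w‖ := fun k => by
    rw [← Real.norm_eq_abs]
    exact norm_le_pi_norm w k
  obtain ⟨k, hk⟩ := exists_eq_pmax y w x
  rw [hk]
  calc |⟪y k, x⟫_ℝ - w k| ≤ |⟪y k, x⟫_ℝ| + |w k| := abs_sub _ _
    _ ≤ _ := add_le_add (h0 k) (hw k)

theorem integrable_pmax (hρ : ρ (closedBall 0 r)ᶜ = 0) (y : ι → E d) (w : ι → ℝ) :
    Integrable (pmax y w) ρ := by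
  refine Integrable.of_bound (continuous_pmax y w).aestronglyMeasurable
    ((∑ k, ‖y k‖) * r + ‖w‖) ?_
  have : ∀ᵐ x ∂ρ, x ∈ closedBall (0 : E d) r := by
    rw [ae_iff]
    exact hρ
  filter_upwards [this] with x hx
  rw [Real.norm_eq_abs]
  exact abs_pmax_le r y w x (mem_closedBall_zero_iff.1 hx)

/-- the Kantorovich functional -/
noncomputable def kant (y : ι → E d) (m : ι → ℝ) (w : ι → ℝ) : ℝ :=
  ∫ x, pmax y w x ∂ρ + ∑ k, m k * w k

theorem continuous_kant (hρ : ρ (closedBall 0 r)ᶜ = 0) (y : ι → E d) (m : ι → ℝ) :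
    Continuous (kant ρ y m) := by
  unfold kant
  refine Continuous.add ?_ (by fun_prop)
  refine LipschitzWith.continuous (K := 1) (LipschitzWith.of_dist_le_mul fun w w' => ?_)
  rw [Real.dist_eq, dist_eq_norm, NNReal.coe_one, one_mul,
    ← integral_sub (integrable_pmax ρ r hρ y w) (integrable_pmax ρ r hρ y w')]
  calc |∫ x, (pmax y w x - pmax y w' x) ∂ρ| ≤ ∫ x, |pmax y w x - pmax y w' x| ∂ρ :=
        abs_integral_le_integral_abs
    _ ≤ ∫ _, ‖w - w'‖ ∂ρ := by
        refine integral_mono ?_ (integrable_const _) fun x => abs_pmax_sub_le y w w' x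
        exact ((integrable_pmax ρ r hρ y w).sub (integrable_pmax ρ r hρ y w')).abs
    _ = ‖w - w'‖ := by simp

theorem pmax_add_const (y : ι → E d) (w : ι → ℝ) (c : ℝ) (x : E d) :
    pmax y (fun k => w k + c) x = pmax y w x - c := by
  apply le_antisymm
  · refine pmax_le _ _ _ _ fun k => ?_
    have := le_pmax y w x k
    linarith
  · rw [sub_le_iff_le_add]
    refine pmax_le _ _ _ _ fun k => ?_
    have := le_pmax y (fun k => w k + c) x k
    linarith

theorem kant_add_const (hρ : ρ (closedBall 0 r)ᶜ = 0) (y : ι → E d) (m : ι → ℝ)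
    (hsum : ∑ k, m k = 1) (w : ι → ℝ) (c : ℝ) :
    kant ρ y m (fun k => w k + c) = kant ρ y m w := by
  unfold kant
  simp only [pmax_add_const]
  rw [integral_sub (integrable_pmax ρ r hρ y w) (integrable_const _)]
  simp only [mul_add, Finset.sum_add_distrib, ← Finset.sum_mul, hsum]
  simp

theorem kant_zero_le (hρ : ρ (closedBall 0 r)ᶜ = 0) (y : ι → E d) (m : ι → ℝ) :
    kant ρ y m 0 ≤ (∑ k, ‖y k‖) * r := by
  unfold kant
  simp only [Pi.zero_apply, mul_zero, Finset.sum_const_zero, add_zero]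
  have : ∀ᵐ x ∂ρ, x ∈ closedBall (0 : E d) r := by
    rw [ae_iff]
    exact hρ
  calc ∫ x, pmax y 0 x ∂ρ ≤ ∫ _, (∑ k, ‖y k‖) * r ∂ρ := by
        refine integral_mono_ae (integrable_pmax ρ r hρ y 0) (integrable_const _) ?_
        filter_upwards [this] with x hx
        have := abs_pmax_le r y 0 x (mem_closedBall_zero_iff.1 hx)
        rw [norm_zero, add_zero] at this
        exact (le_abs_self _).trans this
    _ = _ := by simp

theorem le_kant (hρ : ρ (closedBall 0 r)ᶜ = 0) (y : ι → E d) (m : ι → ℝ)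
    (hm : ∀ k, 0 ≤ m k) (hsum : ∑ k, m k = 1) (w : ι → ℝ) (k0 k1 : ι) (hk0 : ∀ k, w k0 ≤ w k) :
    -((∑ k, ‖y k‖) * r) + m k1 * (w k1 - w k0) ≤ kant ρ y m w := by
  unfold kant
  have hae : ∀ᵐ x ∂ρ, x ∈ closedBall (0 : E d) r := by
    rw [ae_iff]
    exact hρ
  have h1 : -((∑ k, ‖y k‖) * r) - w k0 ≤ ∫ x, pmax y w x ∂ρ := by
    calc -((∑ k, ‖y k‖) * r) - w k0 = ∫ _, (-((∑ k, ‖y k‖) * r) - w k0) ∂ρ := by simp
      _ ≤ _ := by
        refine integral_mono_ae (integrable_const _) (integrable_pmax ρ r hρ y w) ?_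
        filter_upwards [hae] with x hx
        have hx' := mem_closedBall_zero_iff.1 hx
        have hr : 0 ≤ r := (norm_nonneg x).trans hx'
        have h2 : |⟪y k0, x⟫_ℝ| ≤ (∑ k, ‖y k‖) * r := by
          calc |⟪y k0, x⟫_ℝ| ≤ ‖y k0‖ * ‖x‖ := abs_real_inner_le_norm _ _
            _ ≤ (∑ k, ‖y k‖) * r := by
              refine mul_le_mul ?_ hx' (norm_nonneg _)
                (Finset.sum_nonneg fun _ _ => norm_nonneg _)
              exact Finset.single_le_sum (f := fun k => ‖y k‖) (fun _ _ => norm_nonneg _)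
                (Finset.mem_univ k0)
        have h3 := le_pmax y w x k0
        have h4 := neg_abs_le ⟪y k0, x⟫_ℝ
        linarith
  have h2 : m k1 * (w k1 - w k0) ≤ ∑ k, m k * (w k - w k0) :=
    Finset.single_le_sum (f := fun k => m k * (w k - w k0))
      (fun k _ => mul_nonneg (hm k) (sub_nonneg.2 (hk0 k))) (Finset.mem_univ k1)
  have h3 : ∑ k, m k * (w k - w k0) = ∑ k, m k * w k - w k0 := by
    simp only [mul_sub, Finset.sum_sub_distrib, ← Finset.sum_mul, hsum, one_mul]
  linarith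

/-- existence of a global minimiser -/
theorem exists_min_kant (hρ : ρ (closedBall 0 r)ᶜ = 0) (y : ι → E d) (m : ι → ℝ)
    (hm : ∀ k, 0 < m k) (hsum : ∑ k, m k = 1) :
    ∃ w : ι → ℝ, ∀ w', kant ρ y m w ≤ kant ρ y m w' := by
  set M : ℝ := (∑ k, ‖y k‖) * r with hM
  obtain ⟨kmin, hkmin⟩ := Finite.exists_min m
  set δ : ℝ := m kmin with hδ
  have hδ0 : 0 < δ := hm kmin
  set L : ℝ := 2 * |M| / δ + 1 with hL
  have hL0 : 0 ≤ L := by positivity
  have hcomp : IsCompact (Icc (0 : ι → ℝ) (fun _ => L)) := isCompact_Icc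
  have hne : (Icc (0 : ι → ℝ) (fun _ => L)).Nonempty := ⟨0, le_refl _, fun _ => hL0⟩
  obtain ⟨w, hwB, hw⟩ := hcomp.exists_isMinOn hne (continuous_kant ρ r hρ y m).continuousOn
  refine ⟨w, fun w' => ?_⟩
  obtain ⟨k0, hk0⟩ := Finite.exists_min w'
  have hinv : kant ρ y m (fun k => w' k + (-w' k0)) = kant ρ y m w' :=
    kant_add_const ρ r hρ y m hsum w' _
  by_cases hbox : ∀ k, w' k - w' k0 ≤ L
  · rw [← hinv]
    refine hw ⟨fun k => ?_, fun k => ?_⟩
    · have := hk0 k
      simp only [Pi.zero_apply]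
      linarith
    · have := hbox k
      simp only
      linarith
  · push Not at hbox
    obtain ⟨k1, hk1⟩ := hbox
    have h1 := le_kant ρ r hρ y m (fun k => (hm k).le) hsum w' k0 k1 hk0
    have h2 : kant ρ y m w ≤ kant ρ y m 0 := hw ⟨le_refl _, fun _ => hL0⟩
    have h3 := kant_zero_le ρ r hρ y m
    have h4 : δ * L ≤ m k1 * (w' k1 - w' k0) := by
      refine mul_le_mul (hkmin k1) hk1.le hL0 (hm k1).le
    have h5 : δ * L = 2 * |M| + δ := by
      rw [hL]
      field_simp
    have h6 := le_abs_self M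
    linarith


/-- one-sided variation at a minimiser -/
theorem measure_mcell_le [DecidableEq ι] (hρ : ρ (closedBall 0 r)ᶜ = 0) (y : ι → E d) (m : ι → ℝ)
    (w : ι → ℝ) (hw : ∀ w', kant ρ y m w ≤ kant ρ y m w') (k : ι) (t : ℝ) (ht : 0 < t) :
    (ρ (mcell y w k t)).toReal ≤ m k := by
  set w' : ι → ℝ := Function.update w k (w k + t) with hw'
  have hwk : w' k = w k + t := by simp [hw']
  have hwj : ∀ j, j ≠ k → w' j = w j := fun j hj => by simp [hw', hj]
  have hle : ∀ j, w j ≤ w' j := by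
    intro j
    by_cases hj : j = k
    · rw [hj, hwk]; linarith
    · rw [hwj j hj]
  have hpt : ∀ x, pmax y w' x ≤ pmax y w x - (mcell y w k t).indicator (fun _ => t) x := by
    intro x
    by_cases hx : x ∈ mcell y w k t
    · rw [indicator_of_mem hx]
      refine pmax_le _ _ _ _ fun j => ?_
      have h1 := le_pmax y w x k
      by_cases hj : j = k
      · rw [hj, hwk]; linarith
      · rw [hwj j hj]
        have := hx j hj
        linarith
    · rw [indicator_of_notMem hx, sub_zero]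
      refine pmax_le _ _ _ _ fun j => ?_
      have h1 := le_pmax y w x j
      have := hle j
      linarith
  have hind : Integrable ((mcell y w k t).indicator (fun _ => t)) ρ :=
    (integrable_const t).indicator (measurableSet_mcell y w k t)
  have hint : ∫ x, pmax y w' x ∂ρ ≤ ∫ x, pmax y w x ∂ρ - t * (ρ (mcell y w k t)).toReal := by
    calc ∫ x, pmax y w' x ∂ρ
        ≤ ∫ x, (pmax y w x - (mcell y w k t).indicator (fun _ => t) x) ∂ρ :=
          integral_mono (integrable_pmax ρ r hρ y w') ((integrable_pmax ρ r hρ y w).sub hind) hpt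
      _ = ∫ x, pmax y w x ∂ρ - t * (ρ (mcell y w k t)).toReal := by
          rw [integral_sub (integrable_pmax ρ r hρ y w) hind,
            integral_indicator (measurableSet_mcell y w k t), setIntegral_const]
          simp [Measure.real, mul_comm]
  have hsum : ∑ j, m j * w' j = ∑ j, m j * w j + m k * t := by
    have : ∀ j, m j * w' j = m j * w j + (if j = k then m k * t else 0) := by
      intro j
      by_cases hj : j = k
      · rw [hj, hwk]; simp; ring
      · rw [hwj j hj]; simp [hj]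
    simp only [this, Finset.sum_add_distrib, Finset.sum_ite_eq', Finset.mem_univ, if_true]
  have h := hw w'
  unfold kant at h
  rw [hsum] at h
  have h2 : t * (ρ (mcell y w k t)).toReal ≤ t * m k := by linarith
  exact le_of_mul_le_mul_left h2 ht

theorem measure_ocell_le [DecidableEq ι] (hρ : ρ (closedBall 0 r)ᶜ = 0) (y : ι → E d)
    (m : ι → ℝ) (w : ι → ℝ) (hw : ∀ w', kant ρ y m w ≤ kant ρ y m w') (k : ι) :
    ρ (ocell y w k) ≤ ENNReal.ofReal (m k) := by
  rw [ocell_eq_iUnion, (mcell_mono y w k).measure_iUnion]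
  refine iSup_le fun n => ?_
  have h := measure_mcell_le ρ r hρ y m w hw k (1 / ((n : ℝ) + 1)) (by positivity)
  rw [← ENNReal.ofReal_toReal (measure_ne_top ρ _)]
  exact ENNReal.ofReal_le_ofReal h

theorem measure_ccell_eq_ocell
    (hhyp : ∀ (a : E d) (c : ℝ), a ≠ 0 → ρ {x | ⟪a, x⟫_ℝ = c} = 0)
    (y : ι → E d) (hy : Function.Injective y) (w : ι → ℝ) (k : ι) :
    ρ (ccell y w k) = ρ (ocell y w k) := by
  refine le_antisymm ?_ (measure_mono (ocell_subset_ccell y w k))
  have hsub : ccell y w k ⊆ ocell y w k ∪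
      ⋃ j : {j : ι // j ≠ k}, {x | ⟪y j.1 - y k, x⟫_ℝ = w j.1 - w k} := by
    intro x hx
    by_cases h : x ∈ ocell y w k
    · exact Or.inl h
    · right
      simp only [ocell, Set.mem_ofPred_eq, not_forall, not_lt] at h
      obtain ⟨j, hj, hle⟩ := h
      refine mem_iUnion.2 ⟨⟨j, hj⟩, ?_⟩
      have := hx j
      simp only [Set.mem_ofPred_eq, inner_sub_left]
      linarith
  calc ρ (ccell y w k) ≤ ρ (ocell y w k ∪
      ⋃ j : {j : ι // j ≠ k}, {x | ⟪y j.1 - y k, x⟫_ℝ = w j.1 - w k}) := measure_mono hsub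
    _ ≤ ρ (ocell y w k) + ρ (⋃ j : {j : ι // j ≠ k}, {x | ⟪y j.1 - y k, x⟫_ℝ = w j.1 - w k}) :=
        measure_union_le _ _
    _ = ρ (ocell y w k) := by
        rw [measure_iUnion_null fun j => hhyp _ _ (sub_ne_zero.2 fun h => j.2 (hy h)), add_zero]

/-- **Existence of weights.** -/
theorem exists_weights_pos (hρ : ρ (closedBall 0 r)ᶜ = 0)
    (hhyp : ∀ (a : E d) (c : ℝ), a ≠ 0 → ρ {x | ⟪a, x⟫_ℝ = c} = 0)
    (y : ι → E d) (hy : Function.Injective y) (m : ι → ℝ) (hm : ∀ k, 0 < m k)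
    (hsum : ∑ k, m k = 1) :
    ∃ w : ι → ℝ, (∀ k, ρ (ccell y w k) = ENNReal.ofReal (m k)) ∧
      ∀ k, ρ (ocell y w k) = ENNReal.ofReal (m k) := by
  classical
  obtain ⟨w, hw⟩ := exists_min_kant ρ r hρ y m hm hsum
  have h1 : ∀ k, (ρ (ccell y w k)).toReal ≤ m k := by
    intro k
    rw [measure_ccell_eq_ocell ρ hhyp y hy w k]
    have := measure_ocell_le ρ r hρ y m w hw k
    exact ENNReal.toReal_le_of_le_ofReal (hm k).le this
  have h2 : (1 : ℝ) ≤ ∑ k, (ρ (ccell y w k)).toReal := by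
    have hcov : (univ : Set (E d)) ⊆ ⋃ k ∈ (Finset.univ : Finset ι), ccell y w k := by
      intro x _
      obtain ⟨k, hk⟩ := exists_mem_ccell y w x
      exact mem_biUnion (Finset.mem_univ k) hk
    have h3 : ρ univ ≤ ∑ k, ρ (ccell y w k) :=
      (measure_mono hcov).trans (measure_biUnion_finset_le _ _)
    rw [measure_univ] at h3
    rw [← ENNReal.toReal_sum fun k _ => measure_ne_top ρ _]
    have h4 : (∑ k, ρ (ccell y w k)) ≠ ∞ :=
      ENNReal.sum_ne_top.2 fun k _ => measure_ne_top ρ _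
    have := ENNReal.toReal_mono h4 h3
    simpa using this
  have h3 : ∑ k, (ρ (ccell y w k)).toReal = ∑ k, m k := by
    refine le_antisymm (Finset.sum_le_sum fun k _ => h1 k) ?_
    rw [hsum]
    exact h2
  have h4 := (Finset.sum_eq_sum_iff_of_le fun k _ => h1 k).1 h3
  have h5 : ∀ k, ρ (ccell y w k) = ENNReal.ofReal (m k) := by
    intro k
    rw [← h4 k (Finset.mem_univ k), ENNReal.ofReal_toReal (measure_ne_top ρ _)]
  exact ⟨w, h5, fun k => by rw [← measure_ccell_eq_ocell ρ hhyp y hy w k, h5 k]⟩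


open Classical in
/-- selection of a maximising site along a list -/
noncomputable def selMap (y : ι → E d) (w : ι → ℝ) : List ι → E d → E d
  | [], _ => 0
  | k :: l, x => if x ∈ ccell y w k then y k else selMap y w l x

theorem measurable_selMap (y : ι → E d) (w : ι → ℝ) (l : List ι) : Measurable (selMap y w l) := by
  classical
  induction l with
  | nil => exact measurable_const
  | cons k l ih =>
    have : selMap y w (k :: l) = fun x => if x ∈ ccell y w k then y k else selMap y w l x := by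
      funext x
      rw [selMap]
    rw [this]
    exact Measurable.ite (measurableSet_ccell y w k) measurable_const ih

theorem selMap_spec (y : ι → E d) (w : ι → ℝ) (l : List ι) (x : E d)
    (h : ∃ k ∈ l, x ∈ ccell y w k) : ∃ k, x ∈ ccell y w k ∧ selMap y w l x = y k := by
  induction l with
  | nil =>
    obtain ⟨k, hk, -⟩ := h
    simp at hk
  | cons j l ih =>
    unfold selMap
    by_cases hx : x ∈ ccell y w j
    · exact ⟨j, hx, by rw [if_pos hx]⟩
    · rw [if_neg hx]
      obtain ⟨k, hk, hxk⟩ := h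
      rcases List.mem_cons.1 hk with rfl | hk'
      · exact absurd hxk hx
      · exact ih ⟨k, hk', hxk⟩

/-- the map sending (almost every point of) the cell `k` to the site `y k` -/
noncomputable def cellMap (y : ι → E d) (w : ι → ℝ) : E d → E d :=
  selMap y w Finset.univ.toList

theorem measurable_cellMap (y : ι → E d) (w : ι → ℝ) : Measurable (cellMap y w) :=
  measurable_selMap y w _

theorem cellMap_spec (y : ι → E d) (w : ι → ℝ) (x : E d) :
    ∃ k, x ∈ ccell y w k ∧ cellMap y w x = y k := by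
  obtain ⟨k, hk⟩ := exists_mem_ccell y w x
  exact selMap_spec y w _ x ⟨k, by simp, hk⟩

theorem cellMap_subgradient (y : ι → E d) (w : ι → ℝ) (x z : E d) :
    pmax y w x + ⟪cellMap y w x, z - x⟫_ℝ ≤ pmax y w z := by
  obtain ⟨k, hk, hT⟩ := cellMap_spec y w x
  rw [hT]
  exact pmax_subgradient hk z

theorem cellMap_of_mem_ocell {y : ι → E d} {w : ι → ℝ} {x : E d} {k : ι}
    (hx : x ∈ ocell y w k) : cellMap y w x = y k := by
  obtain ⟨l, hl, hT⟩ := cellMap_spec y w x
  rw [hT, eq_of_mem_ocell_of_mem_ccell hx hl]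

/-- the push-forward of `ρ` under the cell map, when the open cells have the masses `m k` -/
theorem map_cellMap (y : ι → E d) (w : ι → ℝ) (m : ι → ℝ) (hm : ∀ k, 0 ≤ m k)
    (hsum : ∑ k, m k = 1) (hcell : ∀ k, ρ (ocell y w k) = ENNReal.ofReal (m k)) :
    ρ.map (cellMap y w) = ∑ k, ENNReal.ofReal (m k) • Measure.dirac (y k) := by
  classical
  have hdisj : (↑(Finset.univ : Finset ι) : Set ι).PairwiseDisjoint (ocell y w) :=
    fun k _ l _ hkl => ocell_disjoint y w hkl
  have hU : ρ (⋃ k ∈ (Finset.univ : Finset ι), ocell y w k) = 1 := by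
    rw [measure_biUnion_finset hdisj fun k _ => measurableSet_ocell y w k]
    simp only [hcell]
    rw [← ENNReal.ofReal_sum_of_nonneg fun k _ => hm k, hsum, ENNReal.ofReal_one]
  have hUm : MeasurableSet (⋃ k ∈ (Finset.univ : Finset ι), ocell y w k) :=
    Finset.measurableSet_biUnion _ fun k _ => measurableSet_ocell y w k
  have hUc : ρ (⋃ k ∈ (Finset.univ : Finset ι), ocell y w k)ᶜ = 0 :=
    (prob_compl_eq_zero_iff hUm).2 hU
  ext A hA
  rw [Measure.map_apply (measurable_cellMap y w) hA, ← measure_inter_conull hUc,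
    Set.inter_iUnion₂, measure_biUnion_finset
      (fun k hk l hl hkl => (hdisj hk hl hkl).mono inter_subset_right inter_subset_right)
      fun k _ => ((measurable_cellMap y w) hA).inter (measurableSet_ocell y w k)]
  rw [Measure.finsetSum_apply]
  refine Finset.sum_congr rfl fun k _ => ?_
  rw [Measure.smul_apply, Measure.dirac_apply' _ hA, smul_eq_mul]
  by_cases hk : y k ∈ A
  · rw [indicator_of_mem hk, Pi.one_apply, mul_one, ← hcell k]
    congr 1
    ext x
    constructor
    · exact fun h => h.2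
    · intro hx
      refine ⟨?_, hx⟩
      rw [mem_preimage, cellMap_of_mem_ocell hx]
      exact hk
  · rw [indicator_of_notMem hk, mul_zero]
    convert measure_empty (μ := ρ)
    ext x
    simp only [mem_inter_iff, mem_preimage, mem_empty_iff_false, iff_false, not_and]
    intro h hx
    rw [cellMap_of_mem_ocell hx] at h
    exact hk h

/-- **Existence of a semi-discrete Brenier map.** -/
theorem exists_semidiscrete (hρ : ρ (closedBall 0 r)ᶜ = 0)
    (hhyp : ∀ (a : E d) (c : ℝ), a ≠ 0 → ρ {x | ⟪a, x⟫_ℝ = c} = 0)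
    (y : ι → E d) (hy : Function.Injective y) (m : ι → ℝ) (hm : ∀ k, 0 < m k)
    (hsum : ∑ k, m k = 1) :
    ∃ w : ι → ℝ, (∀ k, ρ (ccell y w k) = ENNReal.ofReal (m k)) ∧
      (∀ k, ρ (ocell y w k) = ENNReal.ofReal (m k)) ∧
      ρ.map (cellMap y w) = ∑ k, ENNReal.ofReal (m k) • Measure.dirac (y k) := by
  obtain ⟨w, h1, h2⟩ := exists_weights_pos ρ r hρ hhyp y hy m hm hsum
  exact ⟨w, h1, h2, map_cellMap ρ y w m (fun k => (hm k).le) hsum h2⟩

end functional

/-! ### the uniform measure -/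

theorem volume_hyperplane (a : E d) (c : ℝ) (ha : a ≠ 0) :
    volume {x : E d | ⟪a, x⟫_ℝ = c} = 0 := by
  set W : Submodule ℝ (E d) := (ℝ ∙ a)ᗮ with hW
  have hWtop : W ≠ ⊤ := by
    intro h
    have : a ∈ W := h ▸ Submodule.mem_top
    rw [hW, Submodule.mem_orthogonal_singleton_iff_inner_right] at this
    exact ha (inner_self_eq_zero.1 this)
  set p : E d := (c / ⟪a, a⟫_ℝ) • a with hp
  have hap : ⟪a, p⟫_ℝ = c := by
    rw [hp, inner_smul_right]
    have : ⟪a, a⟫_ℝ ≠ 0 := fun h => ha (inner_self_eq_zero.1 h)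
    field_simp
  have hset : {x : E d | ⟪a, x⟫_ℝ = c} = (fun x => x + (-p)) ⁻¹' (W : Set (E d)) := by
    ext x
    simp only [mem_preimage, SetLike.mem_coe]
    rw [hW, Submodule.mem_orthogonal_singleton_iff_inner_right, inner_add_right, inner_neg_right,
      hap]
    constructor
    · intro h
      have h' : ⟪a, x⟫_ℝ = c := h
      linarith
    · intro h
      show ⟪a, x⟫_ℝ = c
      linarith
  rw [hset, measure_preimage_add_right]
  exact Measure.addHaar_submodule volume W hWtop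

theorem unif_hyperplane (K : Set (E d)) (a : E d) (c : ℝ) (ha : a ≠ 0) :
    unif K {x : E d | ⟪a, x⟫_ℝ = c} = 0 := by
  unfold unif
  rw [Measure.smul_apply, smul_eq_mul]
  have : volume.restrict K {x : E d | ⟪a, x⟫_ℝ = c} = 0 :=
    le_antisymm ((Measure.restrict_apply_le _ _).trans (volume_hyperplane a c ha).le) zero_le
  rw [this, mul_zero]

theorem unif_compl_ball (K : Set (E d)) (r : ℝ) (hKr : K ⊆ closedBall 0 r) :
    unif K (closedBall 0 r)ᶜ = 0 := by
  unfold unif
  rw [Measure.smul_apply, smul_eq_mul,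
    Measure.restrict_apply (measurableSet_closedBall.compl)]
  have : (closedBall (0 : E d) r)ᶜ ∩ K = ∅ := by
    ext x
    simp only [mem_inter_iff, mem_compl_iff, mem_empty_iff_false, iff_false, not_and]
    intro h hx
    exact absurd (hKr hx) h
  rw [this, measure_empty, mul_zero]

end Vale.Agent.Lib.P074
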