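import Vale.Agent.Lib.P074.Wasserstein

/-!
# P074: the three-atom gadget (upper bound `1/3` for the stability exponent)

Source: the cube `K = [-1/2,1/2]^(n+2)`.  Targets: the atoms `-e₀`, `e₀` and a light atom `δ e₁`.
-/

open MeasureTheory Set Metric
open scoped InnerProductSpace ENNReal

namespace Vale.Agent.Lib.P074.Gadget

open Vale.Agent.Lib.P074

variable {n : ℕ}

/-- the box `[a0,b0] × [a1,b1] × [-1/2,1/2]^n` -/
def box (n : ℕ) (a0 b0 a1 b1 : ℝ) : Set (E (n + 2)) :=
  {x | (a0 ≤ x 0 ∧ x 0 ≤ b0) ∧ (a1 ≤ x 1 ∧ x 1 ≤ b1) ∧ ∀ i, -(1/2) ≤ x i ∧ x i ≤ 1/2}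

noncomputable def lo (n : ℕ) (a0 a1 : ℝ) : Fin (n + 2) → ℝ :=
  fun i => if i = 0 then a0 else if i = 1 then a1 else -(1/2)

noncomputable def hi (n : ℕ) (b0 b1 : ℝ) : Fin (n + 2) → ℝ :=
  fun i => if i = 0 then b0 else if i = 1 then b1 else 1/2

theorem box_eq (a0 b0 a1 b1 : ℝ) (ha0 : -(1/2) ≤ a0) (hb0 : b0 ≤ 1/2) (ha1 : -(1/2) ≤ a1)
    (hb1 : b1 ≤ 1/2) :
    box n a0 b0 a1 b1 = (MeasurableEquiv.toLp 2 (Fin (n + 2) → ℝ)).symm ⁻¹'
      (Icc (lo n a0 a1) (hi n b0 b1)) := by
  ext x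
  simp only [box, mem_ofPred_eq, mem_preimage, mem_Icc, Pi.le_def]
  constructor
  · rintro ⟨h0, h1, h⟩
    constructor
    · intro i
      by_cases hi0 : i = 0
      · subst hi0; simpa [lo] using h0.1
      · by_cases hi1 : i = 1
        · subst hi1; simpa [lo] using h1.1
        · simpa [lo, hi0, hi1] using (h i).1
    · intro i
      by_cases hi0 : i = 0
      · subst hi0; simpa [hi] using h0.2
      · by_cases hi1 : i = 1
        · subst hi1; simpa [hi] using h1.2
        · simpa [hi, hi0, hi1] using (h i).2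
  · rintro ⟨hl, hu⟩
    have l0 : a0 ≤ x 0 := by simpa [lo] using hl 0
    have u0 : x 0 ≤ b0 := by simpa [hi] using hu 0
    have l1 : a1 ≤ x 1 := by simpa [lo] using hl 1
    have u1 : x 1 ≤ b1 := by simpa [hi] using hu 1
    refine ⟨⟨l0, u0⟩, ⟨l1, u1⟩, fun i => ?_⟩
    by_cases hi0 : i = 0
    · subst hi0; constructor <;> linarith
    · by_cases hi1 : i = 1
      · subst hi1; constructor <;> linarith
      · constructor
        · simpa [lo, hi0, hi1] using hl i
        · simpa [hi, hi0, hi1] using hu i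

theorem volume_box (a0 b0 a1 b1 : ℝ) (ha0 : -(1/2) ≤ a0) (hb0 : b0 ≤ 1/2) (ha1 : -(1/2) ≤ a1)
    (hb1 : b1 ≤ 1/2) (h0 : a0 ≤ b0) :
    volume (box n a0 b0 a1 b1) = ENNReal.ofReal ((b0 - a0) * (b1 - a1)) := by
  rw [box_eq a0 b0 a1 b1 ha0 hb0 ha1 hb1,
    (EuclideanSpace.volume_preserving_symm_measurableEquiv_toLp (Fin (n + 2))).measure_preimage
      measurableSet_Icc.nullMeasurableSet, Real.volume_Icc_pi, Fin.prod_univ_succ,
    Fin.prod_univ_succ]
  have e0 : hi n b0 b1 0 - lo n a0 a1 0 = b0 - a0 := by simp [hi, lo]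
  have e1 : hi n b0 b1 (Fin.succ 0) - lo n a0 a1 (Fin.succ 0) = b1 - a1 := by
    have : (Fin.succ 0 : Fin (n + 2)) = 1 := rfl
    rw [this]; simp [hi, lo]
  have e2 : ∀ i : Fin n, hi n b0 b1 i.succ.succ - lo n a0 a1 i.succ.succ = 1 := by
    intro i
    have a : (i.succ.succ : Fin (n + 2)) ≠ 0 := Fin.succ_ne_zero _
    have b : (i.succ.succ : Fin (n + 2)) ≠ 1 := Fin.succ_succ_ne_one i
    simp only [hi, lo, a, b, if_false]; norm_num
  rw [e0, e1]
  simp only [e2, ENNReal.ofReal_one, Finset.prod_const_one, mul_one]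
  rw [ENNReal.ofReal_mul (by linarith)]

theorem measurableSet_box (a0 b0 a1 b1 : ℝ) : MeasurableSet (box n a0 b0 a1 b1) := by
  have m : ∀ i : Fin (n + 2), Measurable fun x : E (n + 2) => x i := fun i => by fun_prop
  have : box n a0 b0 a1 b1 = ({x | a0 ≤ x 0} ∩ {x | x 0 ≤ b0}) ∩ (({x | a1 ≤ x 1} ∩ {x | x 1 ≤ b1}) ∩
      ⋂ i, ({x | -(1/2) ≤ x i} ∩ {x | x i ≤ 1/2})) := by
    ext x; simp [box]
  rw [this]
  refine MeasurableSet.inter (MeasurableSet.inter ?_ ?_) (MeasurableSet.inter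
    (MeasurableSet.inter ?_ ?_) ?_)
  · exact measurableSet_le measurable_const (m 0)
  · exact measurableSet_le (m 0) measurable_const
  · exact measurableSet_le measurable_const (m 1)
  · exact measurableSet_le (m 1) measurable_const
  · exact MeasurableSet.iInter fun i => MeasurableSet.inter
      (measurableSet_le measurable_const (m i)) (measurableSet_le (m i) measurable_const)

/-- the cube -/
def K (n : ℕ) : Set (E (n + 2)) := box n (-(1/2)) (1/2) (-(1/2)) (1/2)

theorem mem_K {x : E (n + 2)} : x ∈ K n ↔ ∀ i, -(1/2) ≤ x i ∧ x i ≤ 1/2 := by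
  constructor
  · intro h; exact h.2.2
  · intro h; exact ⟨h 0, h 1, h⟩

theorem volume_K : volume (K n) = 1 := by
  unfold K
  rw [volume_box _ _ _ _ le_rfl le_rfl le_rfl le_rfl (by norm_num)]
  norm_num

theorem box_subset_K (a0 b0 a1 b1 : ℝ) : box n a0 b0 a1 b1 ⊆ K n :=
  fun _ hx => mem_K.2 hx.2.2

theorem convex_K : Convex ℝ (K n) := by
  intro x hx y hy a b ha hb hab
  rw [mem_K] at *
  intro i
  have := (convex_Icc (-(1/2) : ℝ) (1/2)) (hx i) (hy i) ha hb hab
  simpa using this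

theorem isCompact_K : IsCompact (K n) := by
  have h : K n = (WithLp.toLp 2) '' (Icc (fun _ => -(1/2)) (fun _ => 1/2) : Set (Fin (n+2) → ℝ)) := by
    ext x
    rw [mem_K]
    constructor
    · intro h
      exact ⟨x.ofLp, ⟨fun i => (h i).1, fun i => (h i).2⟩, rfl⟩
    · rintro ⟨y, hy, rfl⟩ i
      exact ⟨hy.1 i, hy.2 i⟩
  rw [h]
  exact isCompact_Icc.image (PiLp.continuous_toLp 2 _)

theorem interior_K_nonempty : (interior (K n)).Nonempty := by
  refine ⟨0, mem_interior.2 ⟨ball 0 (1/2), ?_, isOpen_ball, by simp⟩⟩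
  intro x hx
  rw [mem_ball_zero_iff] at hx
  rw [mem_K]
  intro i
  have := PiLp.norm_apply_le x i
  rw [Real.norm_eq_abs] at this
  have h2 := abs_le.1 (this.trans hx.le)
  exact h2


/-- A map with explicit dual certificate is a quadratic optimal transport map. -/
theorem isOTMap_of_dual {d : ℕ} (ρ : Measure (E d)) [IsFiniteMeasure ρ] (S : E d → E d)
    (hS : Measurable S) (A : Set (E d)) (hA : MeasurableSet A) (hSA : ∀ x, S x ∈ A)
    (a b : E d → ℝ) (ha : Integrable a ρ) (hb : Measurable b) (Mb : ℝ) (hbM : ∀ y, |b y| ≤ Mb)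
    (M : ℝ) (hM : ∀ᵐ x ∂ρ, ∀ y ∈ A, ‖x - y‖ ^ 2 ≤ M)
    (hle : ∀ x, ∀ y ∈ A, a x + b y ≤ ‖x - y‖ ^ 2) (heq : ∀ x, ‖x - S x‖ ^ 2 = a x + b (S x)) :
    IsOTMap ρ (ρ.map S) S := by
  refine ⟨hS, rfl, fun T' hT' hmap => ?_⟩
  have hT'A : ∀ᵐ x ∂ρ, T' x ∈ A := by
    have h0 : (ρ.map S) Aᶜ = 0 := by
      rw [Measure.map_apply hS hA.compl]
      have : S ⁻¹' Aᶜ = ∅ := by
        ext x; simp [hSA x]
      rw [this]; simp
    rw [← hmap, Measure.map_apply hT' hA.compl] at h0
    filter_upwards [measure_eq_zero_iff_ae_notMem.1 h0] with x hx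
    simpa using hx
  have ibS : Integrable (fun x => b (S x)) ρ :=
    Integrable.of_bound (hb.comp hS).aestronglyMeasurable Mb
      (Filter.Eventually.of_forall fun x => by simpa using hbM (S x))
  have ibT : Integrable (fun x => b (T' x)) ρ :=
    Integrable.of_bound (hb.comp hT').aestronglyMeasurable Mb
      (Filter.Eventually.of_forall fun x => by simpa using hbM (T' x))
  have e : ∫ x, b (T' x) ∂ρ = ∫ x, b (S x) ∂ρ := by
    rw [← integral_map hT'.aemeasurable hb.aestronglyMeasurable, hmap,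
      integral_map hS.aemeasurable hb.aestronglyMeasurable]
  have iT : Integrable (fun x => ‖x - T' x‖ ^ 2) ρ := by
    refine Integrable.of_bound ((measurable_id.sub hT').norm.pow_const 2).aestronglyMeasurable M ?_
    filter_upwards [hM, hT'A] with x h1 h2
    rw [Real.norm_of_nonneg (by positivity)]
    exact h1 _ h2
  calc ∫ x, ‖x - S x‖ ^ 2 ∂ρ = ∫ x, (a x + b (S x)) ∂ρ := by simp_rw [heq]
    _ = ∫ x, a x ∂ρ + ∫ x, b (S x) ∂ρ := integral_add ha ibS
    _ = ∫ x, a x ∂ρ + ∫ x, b (T' x) ∂ρ := by rw [e]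
    _ = ∫ x, (a x + b (T' x)) ∂ρ := (integral_add ha ibT).symm
    _ ≤ ∫ x, ‖x - T' x‖ ^ 2 ∂ρ := by
      refine integral_mono_ae (ha.add ibT) iT ?_
      filter_upwards [hT'A] with x hx using hle x _ hx

noncomputable def e0 (n : ℕ) : E (n + 2) := EuclideanSpace.single 0 1
noncomputable def e1 (n : ℕ) : E (n + 2) := EuclideanSpace.single 1 1

/-- the gradient of `max |x₀| (h/2 + δ x₁)` -/
noncomputable def S (n : ℕ) (h δ : ℝ) (x : E (n + 2)) : E (n + 2) :=
  if |x 0| ≤ h / 2 + δ * x 1 then δ • e1 n else if x 0 < 0 then -e0 n else e0 n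

theorem measurable_S (h δ : ℝ) : Measurable (S n h δ) := by
  unfold S
  refine Measurable.ite (measurableSet_le (by fun_prop) (by fun_prop)) measurable_const
    (Measurable.ite (measurableSet_lt (by fun_prop) measurable_const) measurable_const
      measurable_const)

theorem norm_sub_e1 (x : E (n + 2)) (δ : ℝ) :
    ‖x - δ • e1 n‖ ^ 2 = ‖x‖ ^ 2 - 2 * (δ * x 1) + δ ^ 2 := by
  rw [norm_sub_sq_real, inner_smul_right, norm_smul]
  simp [e1, EuclideanSpace.inner_single_right]

theorem norm_sub_e0 (x : E (n + 2)) : ‖x - e0 n‖ ^ 2 = ‖x‖ ^ 2 - 2 * x 0 + 1 := by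
  rw [norm_sub_sq_real]
  simp [e0, EuclideanSpace.inner_single_right]

theorem norm_sub_neg_e0 (x : E (n + 2)) : ‖x - -e0 n‖ ^ 2 = ‖x‖ ^ 2 + 2 * x 0 + 1 := by
  rw [norm_sub_sq_real]
  simp [e0, EuclideanSpace.inner_single_right]

theorem ae_mem_K : ∀ᵐ x ∂(unif (K n)), x ∈ K n := by
  rw [ae_unif_iff _ (by rw [volume_K]; simp)]
  exact ae_restrict_mem (measurableSet_box _ _ _ _)

instance : IsProbabilityMeasure (unif (K n)) :=
  isProbabilityMeasure_unif _ (by rw [volume_K]; simp) (by rw [volume_K]; simp)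

theorem isOTMap_S (h δ : ℝ) : IsOTMap (unif (K n)) ((unif (K n)).map (S n h δ)) (S n h δ) := by
  obtain ⟨r, hr⟩ := (isCompact_K (n := n)).isBounded.subset_closedBall 0
  refine isOTMap_of_dual (unif (K n)) (S n h δ) (measurable_S h δ) {δ • e1 n, e0 n, -e0 n}
    (Set.toFinite _).measurableSet ?_
    (fun x => ‖x‖ ^ 2 - 2 * max |x 0| (h / 2 + δ * x 1))
    (fun y => if y 0 = 0 then δ ^ 2 + h else 1) ?_ ?_ (|δ ^ 2 + h| + 1) ?_
    ((r + (|δ| + 1)) ^ 2) ?_ ?_ ?_
  · intro x
    unfold S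
    split_ifs <;> simp
  · have hc : Continuous fun x : E (n + 2) => ‖x‖ ^ 2 - 2 * max |x 0| (h / 2 + δ * x 1) := by
      fun_prop
    have := hc.continuousOn.integrableOn_compact (μ := volume) (isCompact_K (n := n))
    unfold unif
    exact Integrable.smul_measure this (by rw [volume_K]; simp)
  · exact Measurable.ite (measurableSet_eq_fun (by fun_prop) measurable_const) measurable_const
      measurable_const
  · intro y
    split_ifs
    · linarith [abs_nonneg (δ ^ 2 + h)]
    · simp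
  · filter_upwards [ae_mem_K] with x hx y hy
    have hx' : ‖x‖ ≤ r := by simpa using hr hx
    have hy' : ‖y‖ ≤ |δ| + 1 := by
      rcases hy with rfl | rfl | rfl
      · rw [norm_smul]; simp [e1]
      · simp [e0]
      · simp [e0]
    have h0 : 0 ≤ ‖x - y‖ := norm_nonneg _
    have h1 : ‖x - y‖ ≤ r + (|δ| + 1) := (norm_sub_le _ _).trans (by linarith)
    exact pow_le_pow_left₀ h0 h1 2
  · intro x y hy
    have m1 := le_max_left |x 0| (h / 2 + δ * x 1)
    have m2 := le_max_right |x 0| (h / 2 + δ * x 1)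
    rcases hy with rfl | rfl | rfl
    · rw [norm_sub_e1]
      simp [e1]
      linarith
    · rw [norm_sub_e0]
      simp [e0]
      linarith [le_abs_self (x 0)]
    · rw [norm_sub_neg_e0]
      simp [e0]
      linarith [neg_abs_le (x 0)]
  · intro x
    by_cases c1 : |x 0| ≤ h / 2 + δ * x 1
    · have hS : S n h δ x = δ • e1 n := by simp [S, c1]
      rw [hS, norm_sub_e1, max_eq_right c1]
      simp [e1]
      ring
    · by_cases c2 : x 0 < 0
      · have hS : S n h δ x = -e0 n := by simp [S, c1, c2]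
        rw [hS, norm_sub_neg_e0, max_eq_left (not_le.1 c1).le, abs_of_neg c2]
        simp [e0]
      · have hS : S n h δ x = e0 n := by simp [S, c1, c2]
        rw [hS, norm_sub_e0, max_eq_left (not_le.1 c1).le, abs_of_nonneg (not_lt.1 c2)]
        simp [e0]

/-- the reflection `x₁ ↦ -x₁` -/
noncomputable def R (n : ℕ) : E (n + 2) ≃ₗᵢ[ℝ] E (n + 2) :=
  LinearIsometryEquiv.piLpCongrRight 2
    (fun i => if i = 1 then LinearIsometryEquiv.neg ℝ else LinearIsometryEquiv.refl ℝ ℝ)

theorem R_apply (x : E (n + 2)) (i : Fin (n + 2)) : (R n x) i = if i = 1 then -x i else x i := by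
  simp only [R, LinearIsometryEquiv.piLpCongrRight_apply]
  split_ifs <;> simp

theorem R_e0 : R n (e0 n) = e0 n := by
  ext i
  rw [R_apply]
  by_cases hi : i = 1
  · subst hi; simp [e0]
  · simp [hi]

theorem R_e1 (δ : ℝ) : R n (δ • e1 n) = (-δ) • e1 n := by
  ext i
  rw [R_apply]
  by_cases hi : i = 1
  · subst hi; simp [e1]
  · simp [hi, e1]

theorem R_preimage_K : (R n) ⁻¹' (K n) = K n := by
  ext x
  simp only [mem_preimage, mem_K, R_apply]
  constructor
  · intro h i
    have := h i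
    split_ifs at this
    · constructor <;> linarith [this.1, this.2]
    · exact this
  · intro h i
    have := h i
    split_ifs
    · constructor <;> linarith [this.1, this.2]
    · exact this

theorem map_R : (unif (K n)).map (R n) = unif (K n) := by
  have := ((R n).measurePreserving.restrict_preimage (measurableSet_box (n := n) (-(1/2)) (1/2)
    (-(1/2)) (1/2))).map_eq
  change (volume.restrict ((R n) ⁻¹' (K n))).map (R n) = volume.restrict (K n) at this
  rw [R_preimage_K] at this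
  unfold unif
  rw [Measure.map_smul, this]

theorem S_neg (h δ : ℝ) (x : E (n + 2)) : S n h (-δ) x = R n (S n h δ (R n x)) := by
  have r0 : (R n x) 0 = x 0 := by rw [R_apply]; simp
  have r1 : (R n x) 1 = -x 1 := by rw [R_apply]; simp
  unfold S
  rw [r0, r1]
  have : h / 2 + -δ * x 1 = h / 2 + δ * -x 1 := by ring
  rw [this]
  split_ifs
  · rw [R_e1]
  · rw [map_neg, R_e0]
  · rw [R_e0]

theorem map_S_neg (h δ : ℝ) :
    (unif (K n)).map (S n h (-δ)) = (unif (K n)).map (fun x => R n (S n h δ x)) := by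
  have hm : Measurable fun x => R n (S n h δ x) :=
    (R n).continuous.measurable.comp (measurable_S h δ)
  have : S n h (-δ) = (fun x => R n (S n h δ x)) ∘ (R n) := by
    ext1 x; exact S_neg h δ x
  rw [this, ← Measure.map_map hm (R n).continuous.measurable, map_R]

theorem integral_unif_K (g : E (n + 2) → ℝ) : ∫ x, g x ∂(unif (K n)) = ∫ x in K n, g x := by
  rw [integral_unif, volume_K]; simp

theorem measurableSet_K : MeasurableSet (K n) := measurableSet_box _ _ _ _

theorem integrableOn_K_of_bounded (g : E (n + 2) → ℝ) (hg : Measurable g) (M : ℝ)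
    (hM : ∀ x, |g x| ≤ M) : IntegrableOn g (K n) volume :=
  Measure.integrableOn_of_bounded (by rw [volume_K]; simp) hg.aestronglyMeasurable (M := M)
    (Filter.Eventually.of_forall fun x => by simpa using hM x)

theorem setIntegral_indicator_box (a0 b0 a1 b1 c : ℝ) (ha0 : -(1/2) ≤ a0) (hb0 : b0 ≤ 1/2)
    (ha1 : -(1/2) ≤ a1) (hb1 : b1 ≤ 1/2) (h0 : a0 ≤ b0) (h1 : a1 ≤ b1) :
    ∫ x in K n, (box n a0 b0 a1 b1).indicator (fun _ => c) x = (b0 - a0) * (b1 - a1) * c := by
  rw [setIntegral_indicator (measurableSet_box _ _ _ _),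
    inter_eq_self_of_subset_right (box_subset_K _ _ _ _), setIntegral_const, Measure.real,
    volume_box _ _ _ _ ha0 hb0 ha1 hb1 h0,
    ENNReal.toReal_ofReal (mul_nonneg (by linarith) (by linarith)), smul_eq_mul]

theorem W_le (h : ℝ) (hh0 : 0 < h) (hh : h ≤ 1/2) :
    W 2 ((unif (K n)).map (S n h h)) ((unif (K n)).map (S n h (-h))) ≤
      (8 * h ^ 3) ^ (1 / 2 : ℝ) := by
  rw [map_S_neg]
  have mS := measurable_S (n := n) h h
  have mRS : Measurable fun x => R n (S n h h x) := (R n).continuous.measurable.comp mS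
  have hπ := isCoupling_map_prod (unif (K n)) (S n h h) (fun x => R n (S n h h x)) mS mRS
  have hbdd : BddBelow (range fun π : {π : Measure (E (n + 2) × E (n + 2)) //
      IsCoupling π ((unif (K n)).map (S n h h)) ((unif (K n)).map fun x => R n (S n h h x))} =>
      (∫ z, ‖z.1 - z.2‖ ^ (2 : ℝ) ∂π.1) ^ (1 / (2 : ℝ))) := by
    refine ⟨0, ?_⟩
    rintro _ ⟨π, rfl⟩
    positivity
  refine (ciInf_le hbdd ⟨_, hπ⟩).trans ?_
  refine Real.rpow_le_rpow (integral_nonneg fun z => by positivity) ?_ (by norm_num)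
  simp only [Real.rpow_two]
  rw [integral_map (mS.prodMk mRS).aemeasurable
    (by fun_prop : Continuous fun z : E (n + 2) × E (n + 2) => ‖z.1 - z.2‖ ^ 2).aestronglyMeasurable,
    integral_unif_K]
  have hval : ∀ x : E (n + 2), ‖S n h h x - R n (S n h h x)‖ ^ 2 =
      if |x 0| ≤ h / 2 + h * x 1 then 4 * h ^ 2 else 0 := by
    intro x
    unfold S
    split_ifs
    · rw [R_e1, ← sub_smul, norm_smul]
      simp [e1]
      ring
    · rw [map_neg, R_e0]; simp
    · rw [R_e0]; simp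
  have hle : ∀ x ∈ K n, ‖S n h h x - R n (S n h h x)‖ ^ 2 ≤
      (box n (-h) h (-(1/2)) (1/2)).indicator (fun _ => 4 * h ^ 2) x := by
    intro x hx
    rw [hval]
    split_ifs with c
    · have hx1 := (mem_K.1 hx 1).2
      have : |x 0| ≤ h := by nlinarith
      have hmem : x ∈ box n (-h) h (-(1/2)) (1/2) := ⟨abs_le.1 this, mem_K.1 hx 1, mem_K.1 hx⟩
      rw [indicator_of_mem hmem]
    · exact indicator_nonneg (fun _ _ => by positivity) _
  have i1 : IntegrableOn (fun x => ‖S n h h x - R n (S n h h x)‖ ^ 2) (K n) volume := by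
    refine integrableOn_K_of_bounded _ ((mS.sub mRS).norm.pow_const 2) (4 * h ^ 2) fun x => ?_
    rw [hval, abs_of_nonneg (by split_ifs <;> positivity)]
    split_ifs
    · exact le_rfl
    · positivity
  have i2 : IntegrableOn ((box n (-h) h (-(1/2)) (1/2)).indicator (fun _ => 4 * h ^ 2)) (K n)
      volume := by
    refine integrableOn_K_of_bounded _ (measurable_const.indicator (measurableSet_box _ _ _ _))
      (4 * h ^ 2) fun x => ?_
    by_cases hx : x ∈ box n (-h) h (-(1/2)) (1/2)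
    · rw [indicator_of_mem hx, abs_of_nonneg (by positivity)]
    · rw [indicator_of_notMem hx]; simp; positivity
  refine (setIntegral_mono_on i1 i2 measurableSet_K hle).trans ?_
  rw [setIntegral_indicator_box _ _ _ _ _ (by linarith) hh le_rfl le_rfl (by linarith)
    (by norm_num)]
  apply le_of_eq
  ring

theorem L2dist_ge (h : ℝ) (hh0 : 0 < h) (hh : h ≤ 1/2) :
    Real.sqrt (h / 16) ≤ L2dist (unif (K n)) (S n h h) (S n h (-h)) := by
  unfold L2dist
  apply Real.sqrt_le_sqrt
  rw [integral_unif_K]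
  have mS := measurable_S (n := n) h h
  have mS' := measurable_S (n := n) h (-h)
  have hnorm : ∀ δ : ℝ, |δ| ≤ 1 → ∀ x : E (n + 2), ‖S n h δ x‖ ≤ 1 := by
    intro δ hδ x
    unfold S
    split_ifs
    · rw [norm_smul]; simpa [e1] using hδ
    · simp [e0]
    · simp [e0]
  have hle : ∀ x ∈ K n, (box n (h / 2) (3 * h / 4) (1/4) (1/2)).indicator (fun _ => (1 : ℝ)) x ≤
      ‖S n h h x - S n h (-h) x‖ ^ 2 := by
    intro x _
    by_cases hx : x ∈ box n (h / 2) (3 * h / 4) (1/4) (1/2)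
    · rw [indicator_of_mem hx]
      obtain ⟨⟨a0, b0⟩, ⟨a1, b1⟩, -⟩ := hx
      have p0 : 0 ≤ x 0 := by linarith
      have c1 : |x 0| ≤ h / 2 + h * x 1 := by rw [abs_of_nonneg p0]; nlinarith
      have c2 : ¬ |x 0| ≤ h / 2 + -h * x 1 := by rw [abs_of_nonneg p0, not_le]; nlinarith
      have c3 : ¬ x 0 < 0 := not_lt.2 p0
      have s1 : S n h h x = h • e1 n := by simp [S, c1]
      have s2 : S n h (-h) x = e0 n := by simp only [S, c2, c3, if_false]
      rw [s1, s2, norm_sub_e0, norm_smul]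
      simp [e1]
      positivity
    · rw [indicator_of_notMem hx]; positivity
  have i1 : IntegrableOn (fun x => ‖S n h h x - S n h (-h) x‖ ^ 2) (K n) volume := by
    refine integrableOn_K_of_bounded _ ((mS.sub mS').norm.pow_const 2) 4 fun x => ?_
    rw [abs_of_nonneg (by positivity)]
    have h1 := hnorm h (by rw [abs_of_pos hh0]; linarith) x
    have h2 := hnorm (-h) (by rw [abs_neg, abs_of_pos hh0]; linarith) x
    have h3 : ‖S n h h x - S n h (-h) x‖ ≤ 2 := (norm_sub_le _ _).trans (by linarith)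
    nlinarith [norm_nonneg (S n h h x - S n h (-h) x)]
  have i2 : IntegrableOn ((box n (h / 2) (3 * h / 4) (1/4) (1/2)).indicator (fun _ => (1 : ℝ)))
      (K n) volume := by
    refine integrableOn_K_of_bounded _ (measurable_const.indicator (measurableSet_box _ _ _ _))
      1 fun x => ?_
    by_cases hx : x ∈ box n (h / 2) (3 * h / 4) (1/4) (1/2)
    · rw [indicator_of_mem hx]; simp
    · rw [indicator_of_notMem hx]; simp
  refine le_trans (le_of_eq ?_) (setIntegral_mono_on i2 i1 measurableSet_K hle)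
  rw [setIntegral_indicator_box _ _ _ _ _ (by linarith) (by linarith) (by norm_num) le_rfl
    (by linarith) (by norm_num)]
  ring

theorem norm_S_le (h δ : ℝ) (hδ : |δ| ≤ 1) (x : E (n + 2)) : ‖S n h δ x‖ ≤ 1 := by
  unfold S
  split_ifs
  · rw [norm_smul]; simpa [e1] using hδ
  · simp [e0]
  · simp [e0]

theorem W1_le (h : ℝ) (hh0 : 0 < h) (hh : h ≤ 1/2) :
    W 1 ((unif (K n)).map (S n h h)) ((unif (K n)).map (S n h (-h))) ≤ 4 * h ^ 2 := by
  rw [map_S_neg]
  have mS := measurable_S (n := n) h h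
  have mRS : Measurable fun x => R n (S n h h x) := (R n).continuous.measurable.comp mS
  have hπ := isCoupling_map_prod (unif (K n)) (S n h h) (fun x => R n (S n h h x)) mS mRS
  have hbdd : BddBelow (range fun π : {π : Measure (E (n + 2) × E (n + 2)) //
      IsCoupling π ((unif (K n)).map (S n h h)) ((unif (K n)).map fun x => R n (S n h h x))} =>
      (∫ z, ‖z.1 - z.2‖ ^ (1 : ℝ) ∂π.1) ^ (1 / (1 : ℝ))) := by
    refine ⟨0, ?_⟩
    rintro _ ⟨π, rfl⟩
    positivity
  refine (ciInf_le hbdd ⟨_, hπ⟩).trans ?_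
  simp only [Real.rpow_one, div_one]
  rw [integral_map (mS.prodMk mRS).aemeasurable
    (by fun_prop : Continuous fun z : E (n + 2) × E (n + 2) => ‖z.1 - z.2‖).aestronglyMeasurable,
    integral_unif_K]
  have hval : ∀ x : E (n + 2), ‖S n h h x - R n (S n h h x)‖ =
      if |x 0| ≤ h / 2 + h * x 1 then 2 * h else 0 := by
    intro x
    unfold S
    split_ifs
    · rw [R_e1, ← sub_smul, norm_smul]
      simp [e1]
      rw [abs_of_pos (by linarith)]
      ring
    · rw [map_neg, R_e0]; simp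
    · rw [R_e0]; simp
  have hle : ∀ x ∈ K n, ‖S n h h x - R n (S n h h x)‖ ≤
      (box n (-h) h (-(1/2)) (1/2)).indicator (fun _ => 2 * h) x := by
    intro x hx
    rw [hval]
    split_ifs with c
    · have hx1 := (mem_K.1 hx 1).2
      have : |x 0| ≤ h := by nlinarith
      have hmem : x ∈ box n (-h) h (-(1/2)) (1/2) := ⟨abs_le.1 this, mem_K.1 hx 1, mem_K.1 hx⟩
      rw [indicator_of_mem hmem]
    · exact indicator_nonneg (fun _ _ => by positivity) _
  have i1 : IntegrableOn (fun x => ‖S n h h x - R n (S n h h x)‖) (K n) volume := by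
    refine integrableOn_K_of_bounded _ (mS.sub mRS).norm (2 * h) fun x => ?_
    rw [hval, abs_of_nonneg (by split_ifs <;> positivity)]
    split_ifs
    · exact le_rfl
    · positivity
  have i2 : IntegrableOn ((box n (-h) h (-(1/2)) (1/2)).indicator (fun _ => 2 * h)) (K n)
      volume := by
    refine integrableOn_K_of_bounded _ (measurable_const.indicator (measurableSet_box _ _ _ _))
      (2 * h) fun x => ?_
    by_cases hx : x ∈ box n (-h) h (-(1/2)) (1/2)
    · rw [indicator_of_mem hx, abs_of_nonneg (by positivity)]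
    · rw [indicator_of_notMem hx]; simp; positivity
  refine (setIntegral_mono_on i1 i2 measurableSet_K hle).trans ?_
  rw [setIntegral_indicator_box _ _ _ _ _ (by linarith) hh le_rfl le_rfl (by linarith)
    (by norm_num)]
  apply le_of_eq
  ring

theorem W_nonneg {d : ℕ} (p : ℝ) (μ ν : Measure (E d)) : 0 ≤ W p μ ν :=
  Real.iInf_nonneg fun π => by positivity

/-- the numerical contradiction -/
theorem contra (C A κ α : ℝ) (hA : 0 < A) (hα : 0 < α) (hκα : 1 / 2 < κ * α)
    (H : ∀ h : ℝ, 0 < h → h ≤ 1 / 2 → ∃ w : ℝ, 0 ≤ w ∧ w ≤ A * h ^ κ ∧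
      Real.sqrt (h / 16) ≤ C * w ^ α) : False := by
  set D : ℝ := 4 * |C| * A ^ α with hD
  have hD0 : 0 ≤ D := by positivity
  set β : ℝ := κ * α - 1 / 2 with hβ
  have hβ0 : 0 < β := by linarith
  set h : ℝ := min (1 / 2) ((1 / (D + 1)) ^ (1 / β)) with hh
  have hpos : 0 < h := lt_min (by norm_num) (by positivity)
  have hle : h ≤ 1 / 2 := min_le_left _ _
  have hhβ : h ^ β ≤ 1 / (D + 1) := by
    calc h ^ β ≤ ((1 / (D + 1)) ^ (1 / β)) ^ β :=
          Real.rpow_le_rpow hpos.le (min_le_right _ _) hβ0.le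
      _ = 1 / (D + 1) := by
          rw [← Real.rpow_mul (by positivity), one_div_mul_cancel hβ0.ne', Real.rpow_one]
  obtain ⟨w, hw0, hw, hineq⟩ := H h hpos hle
  have h1 : Real.sqrt (h / 16) = h ^ (1 / 2 : ℝ) / 4 := by
    rw [Real.sqrt_div hpos.le, Real.sqrt_eq_rpow,
      show (16 : ℝ) = 4 ^ 2 by norm_num, Real.sqrt_sq (by norm_num)]
  have h2 : w ^ α ≤ A ^ α * h ^ (κ * α) := by
    calc w ^ α ≤ (A * h ^ κ) ^ α := Real.rpow_le_rpow hw0 hw hα.le
      _ = A ^ α * h ^ (κ * α) := by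
          rw [Real.mul_rpow hA.le (by positivity), ← Real.rpow_mul hpos.le]
  have h3 : C * w ^ α ≤ |C| * (A ^ α * h ^ (κ * α)) := by
    calc C * w ^ α ≤ |C| * w ^ α :=
          mul_le_mul_of_nonneg_right (le_abs_self C) (by positivity)
      _ ≤ |C| * (A ^ α * h ^ (κ * α)) := mul_le_mul_of_nonneg_left h2 (abs_nonneg C)
  have h4 : h ^ (κ * α) = h ^ (1 / 2 : ℝ) * h ^ β := by
    rw [← Real.rpow_add hpos]; congr 1; rw [hβ]; ring
  have hp : 0 < h ^ (1 / 2 : ℝ) := by positivity
  have h5 : h ^ (1 / 2 : ℝ) / 4 ≤ |C| * (A ^ α * (h ^ (1 / 2 : ℝ) * h ^ β)) := by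
    rw [← h1, ← h4]; exact hineq.trans h3
  have h6 : 1 ≤ D * h ^ β := by
    have : h ^ (1 / 2 : ℝ) * 1 ≤ h ^ (1 / 2 : ℝ) * (D * h ^ β) := by
      rw [hD]; nlinarith
    exact le_of_mul_le_mul_left this hp
  have h7 : D * h ^ β ≤ D * (1 / (D + 1)) := mul_le_mul_of_nonneg_left hhβ hD0
  have h8 : D * (1 / (D + 1)) < 1 := by
    rw [mul_one_div, div_lt_one (by linarith)]; linarith
  linarith

end Vale.Agent.Lib.P074.Gadget
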