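import Vale.Agent.Lib.P074.Pointwise

/-!
# P074, Part A4: the integral of a second difference of a Lipschitz convex function is `O(|h|²)`
-/

open MeasureTheory Set Metric
open scoped InnerProductSpace ENNReal

namespace Vale.Agent.Lib.P074

theorem abs_sub_le_of_lip {F : Type*} [SeminormedAddCommGroup F] (ψ : F → ℝ) (R : ℝ)
    (hLip : ∀ x y, ψ x - ψ y ≤ R * ‖x - y‖) (x y : F) : |ψ x - ψ y| ≤ R * ‖x - y‖ := by
  rw [abs_le]
  constructor
  · have := hLip y x
    rw [norm_sub_rev] at this
    linarith
  · exact hLip x y

theorem continuous_of_lip {F : Type*} [SeminormedAddCommGroup F] (ψ : F → ℝ) (R : ℝ)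
    (hLip : ∀ x y, ψ x - ψ y ≤ R * ‖x - y‖) : Continuous ψ := by
  have : LipschitzWith (Real.toNNReal R) ψ := by
    refine LipschitzWith.of_dist_le_mul fun x y => ?_
    rw [Real.dist_eq, dist_eq_norm]
    refine (abs_sub_le_of_lip ψ R hLip x y).trans ?_
    exact mul_le_mul_of_nonneg_right (Real.le_coe_toNNReal R) (norm_nonneg _)
  exact this.continuous

/-- the cut-off function -/
noncomputable def cutoff {F : Type*} [SeminormedAddCommGroup F] (r : ℝ) (x : F) : ℝ :=
  max 0 (min 1 (r + 1 - ‖x‖))

section cutoff
variable {F : Type*} [SeminormedAddCommGroup F] (r : ℝ)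

theorem cutoff_nonneg (x : F) : 0 ≤ cutoff r x := le_max_left _ _

theorem cutoff_eq_one {x : F} (hx : ‖x‖ ≤ r) : cutoff r x = 1 := by
  unfold cutoff
  rw [min_eq_left (by linarith), max_eq_right zero_le_one]

theorem cutoff_eq_zero {x : F} (hx : r + 1 ≤ ‖x‖) : cutoff r x = 0 := by
  unfold cutoff
  exact max_eq_left ((min_le_right _ _).trans (by linarith))

theorem cutoff_continuous : Continuous (cutoff r : F → ℝ) := by
  unfold cutoff
  fun_prop

theorem cutoff_lip (x y : F) : |cutoff r x - cutoff r y| ≤ ‖x - y‖ := by
  unfold cutoff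
  have h1 : |max (0 : ℝ) (min 1 (r + 1 - ‖x‖)) - max 0 (min 1 (r + 1 - ‖y‖))| ≤
      |min 1 (r + 1 - ‖x‖) - min 1 (r + 1 - ‖y‖)| := by
    rw [max_comm (0 : ℝ), max_comm (0 : ℝ)]
    exact abs_max_sub_max_le_abs _ _ _
  have h2 : |min (1 : ℝ) (r + 1 - ‖x‖) - min 1 (r + 1 - ‖y‖)| ≤
      max |(1 : ℝ) - 1| |r + 1 - ‖x‖ - (r + 1 - ‖y‖)| := abs_min_sub_min_le_max _ _ _ _
  refine h1.trans (h2.trans ?_)
  simp only [sub_self, abs_zero]
  refine max_le (norm_nonneg _) ?_
  have : r + 1 - ‖x‖ - (r + 1 - ‖y‖) = ‖y‖ - ‖x‖ := by ring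
  rw [this, norm_sub_rev]
  exact abs_norm_sub_norm_le y x

end cutoff

theorem integral_second_diff_le {d : ℕ} (ψ : E d → ℝ) (hψ : ConvexOn ℝ univ ψ) (R : ℝ)
    (hLip : ∀ x y, ψ x - ψ y ≤ R * ‖x - y‖)
    (K : Set (E d)) (hK : MeasurableSet K) (r : ℝ) (hKr : K ⊆ closedBall 0 r) (h : E d)
    (hh : ‖h‖ ≤ 1) :
    ∫ x in K, (ψ (x + h) + ψ (x - h) - 2 * ψ x) ≤
      R * ‖h‖ ^ 2 * (volume (closedBall (0 : E d) (r + 2))).toReal := by
  have hc : Continuous ψ := continuous_of_lip ψ R hLip
  let χ : E d → ℝ := cutoff r
  have hχc : Continuous χ := cutoff_continuous r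
  let g : E d → ℝ := fun x => ψ (x + h) - ψ x
  have hgc : Continuous g := by fun_prop
  have hgb : ∀ x, |g x| ≤ R * ‖h‖ := by
    intro x
    have := abs_sub_le_of_lip ψ R hLip (x + h) x
    simpa using this
  -- compact supports
  have hsupp : HasCompactSupport χ := by
    refine HasCompactSupport.intro (isCompact_closedBall (0 : E d) (r + 1)) fun x hx => ?_
    rw [mem_closedBall_zero_iff, not_le] at hx
    exact cutoff_eq_zero r hx.le
  have hsupp' : HasCompactSupport (fun x => χ (x + h)) := by
    refine HasCompactSupport.intro (isCompact_closedBall (0 : E d) (r + 2)) fun x hx => ?_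
    rw [mem_closedBall_zero_iff, not_le] at hx
    refine cutoff_eq_zero r ?_
    have : ‖x‖ ≤ ‖x + h‖ + ‖h‖ := by
      have := norm_sub_le (x + h) h
      simpa using this
    linarith
  have i1 : Integrable (fun x => χ x * g x) :=
    (hχc.mul hgc).integrable_of_hasCompactSupport hsupp.mul_right
  have i2 : Integrable (fun x => χ (x + h) * g x) :=
    ((hχc.comp (continuous_add_const h)).mul hgc).integrable_of_hasCompactSupport hsupp'.mul_right
  have i3 : Integrable (fun x => χ x * g (x - h)) := by
    have := i2.comp_sub_right h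
    simpa using this
  have e3 : ∫ x, χ x * g (x - h) = ∫ x, χ (x + h) * g x := by
    have := integral_sub_right_eq_self (μ := (volume : Measure (E d)))
      (fun x => χ (x + h) * g x) h
    simpa using this
  have hΔ : ∀ x, ψ (x + h) + ψ (x - h) - 2 * ψ x = g x - g (x - h) := by
    intro x
    simp only [g, sub_add_cancel]
    ring
  calc ∫ x in K, (ψ (x + h) + ψ (x - h) - 2 * ψ x)
      = ∫ x, K.indicator (fun x => ψ (x + h) + ψ (x - h) - 2 * ψ x) x :=
        (integral_indicator hK).symm
    _ ≤ ∫ x, (χ x * g x - χ x * g (x - h)) := by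
        refine integral_mono_of_nonneg ?_ (i1.sub i3) ?_
        · exact Filter.Eventually.of_forall fun x =>
            indicator_nonneg (fun y _ => second_diff_nonneg ψ hψ y h) x
        · refine Filter.Eventually.of_forall fun x => ?_
          have hnn := second_diff_nonneg ψ hψ x h
          simp only
          rw [← mul_sub, ← hΔ]
          by_cases hx : x ∈ K
          · rw [indicator_of_mem hx]
            have : χ x = 1 := cutoff_eq_one r (mem_closedBall_zero_iff.1 (hKr hx))
            rw [this, one_mul]
          · rw [indicator_of_notMem hx]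
            exact mul_nonneg (cutoff_nonneg r x) hnn
    _ = ∫ x, (χ x - χ (x + h)) * g x := by
        rw [integral_sub i1 i3, e3, ← integral_sub i1 i2]
        congr 1
        ext x
        ring
    _ ≤ ∫ x, (closedBall (0 : E d) (r + 2)).indicator (fun _ => R * ‖h‖ ^ 2) x := by
        refine integral_mono ?_ ?_ ?_
        · have : (fun x => (χ x - χ (x + h)) * g x) = fun x => χ x * g x - χ (x + h) * g x := by
            ext x; ring
          rw [this]
          exact i1.sub i2
        · rw [integrable_indicator_iff measurableSet_closedBall]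
          exact integrableOn_const (by exact (isCompact_closedBall _ _).measure_lt_top.ne)
        · intro x
          simp only
          by_cases hx : x ∈ closedBall (0 : E d) (r + 2)
          · rw [indicator_of_mem hx]
            have h1 : |χ x - χ (x + h)| ≤ ‖h‖ := by
              have := cutoff_lip r x (x + h)
              simpa [norm_neg] using this
            calc (χ x - χ (x + h)) * g x ≤ |(χ x - χ (x + h)) * g x| := le_abs_self _
              _ = |χ x - χ (x + h)| * |g x| := abs_mul _ _
              _ ≤ ‖h‖ * (R * ‖h‖) :=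
                mul_le_mul h1 (hgb x) (abs_nonneg _) (norm_nonneg _)
              _ = R * ‖h‖ ^ 2 := by ring
          · rw [indicator_of_notMem hx]
            rw [mem_closedBall_zero_iff, not_le] at hx
            have h1 : χ x = 0 := cutoff_eq_zero r (by linarith)
            have h2 : χ (x + h) = 0 := by
              refine cutoff_eq_zero r ?_
              have : ‖x‖ ≤ ‖x + h‖ + ‖h‖ := by
                have := norm_sub_le (x + h) h
                simpa using this
              linarith
            rw [h1, h2]
            simp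
    _ = R * ‖h‖ ^ 2 * (volume (closedBall (0 : E d) (r + 2))).toReal := by
        rw [integral_indicator measurableSet_closedBall, setIntegral_const]
        simp [Measure.real, mul_comm]

end Vale.Agent.Lib.P074
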