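import Vale.Agent.Lib.P074.Potential
import Vale.Agent.Lib.P074.SecondDiff

/-!
# P074, Part A5: the `L¹` estimate `‖T - S‖_{L¹(K)}² ≤ C ∫_K (f∘T - f∘S)`
-/

open MeasureTheory Set Metric
open scoped InnerProductSpace ENNReal

namespace Vale.Agent.Lib.P074

theorem L1_sq_le {d : ℕ} (K : Set (E d)) (hK : MeasurableSet K) (r : ℝ) (hr : 0 ≤ r)
    (hKr : K ⊆ closedBall 0 r) (R : ℝ) (hR : 0 < R) (T S : E d → E d) (hT : Measurable T)
    (hS : Measurable S) (φ ψ : E d → ℝ)
    (hTb : ∀ᵐ x ∂(volume.restrict K), ‖T x‖ ≤ R) (hSb : ∀ᵐ x ∂(volume.restrict K), ‖S x‖ ≤ R)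
    (hφ : ∀ᵐ x ∂(volume.restrict K), ∀ y, φ x + ⟪T x, y - x⟫_ℝ ≤ φ y)
    (hψ : ∀ᵐ x ∂(volume.restrict K), ∀ y, ψ x + ⟪S x, y - x⟫_ℝ ≤ ψ y) :
    ∃ f : E d → ℝ, (∀ p q, f p - f q ≤ 2 * (r + 1) * ‖p - q‖) ∧
      (∫ x in K, ‖T x - S x‖) ^ 2 ≤
        4 * (d : ℝ) ^ 3 * R * (volume (closedBall (0 : E d) (r + 2))).toReal *
          ∫ x in K, (f (T x) - f (S x)) := by
  classical
  set V : ℝ := (volume (closedBall (0 : E d) (r + 2))).toReal with hV
  let K0 : Set (E d) := {x | x ∈ K ∧ ‖T x‖ ≤ R ∧ ‖S x‖ ≤ R ∧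
    (∀ y, φ x + ⟪T x, y - x⟫_ℝ ≤ φ y) ∧ (∀ y, ψ x + ⟪S x, y - x⟫_ℝ ≤ ψ y)}
  have hK0 : ∀ᵐ x ∂(volume.restrict K), x ∈ K0 := by
    filter_upwards [ae_restrict_mem hK, hTb, hSb, hφ, hψ] with x h1 h2 h3 h4 h5
      using ⟨h1, h2, h3, h4, h5⟩
  by_cases hne : K0.Nonempty
  swap
  · have h0 : volume.restrict K = 0 := by
      have : ∀ᵐ x ∂(volume.restrict K), False := hK0.mono (fun x hx => hne ⟨x, hx⟩)
      rwa [Filter.eventually_false_iff_eq_bot, ae_eq_bot] at this
    refine ⟨fun _ => 0, ?_, ?_⟩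
    · intro p q
      simp only [sub_self]
      positivity
    · simp [h0]
  obtain ⟨φ', hφc, hφL, hφs⟩ := exists_lipschitz_potential K0 hne T φ R (fun x hx => hx.2.1)
    (fun x hx => hx.2.2.2.1)
  obtain ⟨ψ', hψc, hψL, hψs⟩ := exists_lipschitz_potential K0 hne S ψ R (fun x hx => hx.2.2.1)
    (fun x hx => hx.2.2.2.2)
  obtain ⟨φs, hφs1, hφs2, hφs3⟩ := exists_conj φ' R (r + 1) (by linarith) hφL
  obtain ⟨ψs, hψs1, hψs2, hψs3⟩ := exists_conj ψ' R (r + 1) (by linarith) hψL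
  let f : E d → ℝ := fun p => ψs p - φs p
  have hfL : ∀ p q, f p - f q ≤ 2 * (r + 1) * ‖p - q‖ := by
    intro p q
    have h1 := hψs1 p q
    have h2 := hφs1 q p
    rw [norm_sub_rev] at h2
    simp only [f]
    linarith
  refine ⟨f, hfL, ?_⟩
  let u : Fin d → E d := fun i => EuclideanSpace.single i (1 : ℝ)
  let Δ : ℝ → Fin d → E d → ℝ := fun τ i x => ψ' (x + τ • u i) + ψ' (x - τ • u i) - 2 * ψ' x
  -- pointwise facts
  have hpt0 : ∀ x ∈ K0, 0 ≤ f (T x) - f (S x) ∧
      ψ' x + ψs (T x) - ⟪x, T x⟫_ℝ ≤ f (T x) - f (S x) := by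
    intro x hx
    have hxr : ‖x‖ ≤ r + 1 := by
      have := mem_closedBall_zero_iff.1 (hKr hx.1)
      linarith
    have e1 := hψs3 x (S x) hxr (hψs x hx)
    have e2 := hφs3 x (T x) hxr (hφs x hx)
    have n1 := hφs2 x (S x) hxr
    have n2 := hψs2 x (T x) hxr
    simp only [f]
    constructor <;> linarith
  have hpt : ∀ x ∈ K0, ∀ τ : ℝ, 0 ≤ τ → τ ≤ 1 →
      τ * ‖T x - S x‖ ≤ d * (f (T x) - f (S x) + ∑ i, Δ τ i x) := by
    intro x hx τ hτ0 hτ1
    have hsum : 0 ≤ ∑ i, Δ τ i x :=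
      Finset.sum_nonneg fun i _ => second_diff_nonneg ψ' hψc x _
    obtain ⟨h0, h1⟩ := hpt0 x hx
    by_cases hw : T x - S x = 0
    · rw [hw, norm_zero, mul_zero]
      positivity
    obtain ⟨v, hv1, hv2, hv3⟩ := second_diff_le ψ' hψc x (T x - S x) hw τ hτ0
    have hxv : ‖x + v‖ ≤ r + 1 := by
      have := mem_closedBall_zero_iff.1 (hKr hx.1)
      have := norm_add_le x v
      linarith
    have a1 := hψs2 (x + v) (T x) hxv
    have a2 := hψs x hx (x - v)
    have e1 : ⟪x + v, T x⟫_ℝ = ⟪x, T x⟫_ℝ + ⟪T x, v⟫_ℝ := by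
      rw [inner_add_left, real_inner_comm (T x) v]
    have e2 : ⟪S x, x - v - x⟫_ℝ = - ⟪S x, v⟫_ℝ := by
      have : x - v - x = -v := by abel
      rw [this, inner_neg_right]
    have e3 : ⟪T x - S x, v⟫_ℝ = ⟪T x, v⟫_ℝ - ⟪S x, v⟫_ℝ := inner_sub_left _ _ _
    have key : ⟪T x - S x, v⟫_ℝ ≤ f (T x) - f (S x) + ∑ i, Δ τ i x := by
      have : ψ' (x + v) + ψ' (x - v) - 2 * ψ' x ≤ ∑ i, Δ τ i x := hv3
      rw [e1] at a1
      rw [e2] at a2
      rw [e3]
      linarith
    exact hv2.trans (mul_le_mul_of_nonneg_left key (Nat.cast_nonneg d))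
  -- integrability
  have hKfin : volume K ≠ ∞ :=
    ((measure_mono hKr).trans_lt (isCompact_closedBall _ _).measure_lt_top).ne
  have hfc : Continuous f := continuous_of_lip f _ hfL
  have hψc' : Continuous ψ' := continuous_of_lip ψ' R hψL
  have iA : IntegrableOn (fun x => ‖T x - S x‖) K := by
    refine Measure.integrableOn_of_bounded (M := 2 * R) hKfin
      (hT.sub hS).norm.aestronglyMeasurable ?_
    filter_upwards [hK0] with x hx
    rw [norm_norm]
    have := norm_sub_le (T x) (S x)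
    have := hx.2.1
    have := hx.2.2.1
    linarith
  have iG : IntegrableOn (fun x => f (T x) - f (S x)) K := by
    refine Measure.integrableOn_of_bounded (M := 2 * (r + 1) * (2 * R)) hKfin
      ((hfc.measurable.comp hT).sub (hfc.measurable.comp hS)).aestronglyMeasurable ?_
    filter_upwards [hK0] with x hx
    rw [Real.norm_eq_abs]
    refine (abs_sub_le_of_lip f _ hfL (T x) (S x)).trans ?_
    refine mul_le_mul_of_nonneg_left ?_ (by positivity)
    have := norm_sub_le (T x) (S x)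
    have := hx.2.1
    have := hx.2.2.1
    linarith
  have iΔ : ∀ τ i, IntegrableOn (Δ τ i) K := by
    intro τ i
    have hc : Continuous (Δ τ i) := by
      simp only [Δ]
      fun_prop
    exact (hc.continuousOn.integrableOn_compact (isCompact_closedBall (0 : E d) r)).mono_set hKr
  set A : ℝ := ∫ x in K, ‖T x - S x‖ with hA
  set G : ℝ := ∫ x in K, (f (T x) - f (S x)) with hG
  have hA0 : 0 ≤ A := integral_nonneg fun x => norm_nonneg _
  have hG0 : 0 ≤ G := by
    refine integral_nonneg_of_ae ?_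
    filter_upwards [hK0] with x hx using (hpt0 x hx).1
  have hV0 : 0 ≤ V := ENNReal.toReal_nonneg
  have hmain : ∀ τ : ℝ, 0 ≤ τ → τ ≤ 1 → τ * A ≤ d * (G + d * (R * τ ^ 2 * V)) := by
    intro τ hτ0 hτ1
    have h1 : τ * A ≤ ∫ x in K, (d * (f (T x) - f (S x) + ∑ i, Δ τ i x)) := by
      rw [hA, ← integral_const_mul]
      refine integral_mono_ae (iA.const_mul τ) ?_ ?_
      · exact (iG.add (integrable_finsetSum _ fun i _ => iΔ τ i)).const_mul _
      · filter_upwards [hK0] with x hx using hpt x hx τ hτ0 hτ1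
    have h2 : ∫ x in K, (d * (f (T x) - f (S x) + ∑ i, Δ τ i x)) =
        d * (G + ∑ i, ∫ x in K, Δ τ i x) := by
      rw [integral_const_mul, integral_add iG (integrable_finsetSum _ fun i _ => iΔ τ i),
        integral_finsetSum _ fun i _ => iΔ τ i]
    have h3 : ∀ i, ∫ x in K, Δ τ i x ≤ R * τ ^ 2 * V := by
      intro i
      have hn : ‖τ • u i‖ = τ := by
        simp [u, norm_smul, abs_of_nonneg hτ0]
      have := integral_second_diff_le ψ' hψc R hψL K hK r hKr (τ • u i) (by rw [hn]; exact hτ1)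
      rw [hn] at this
      exact this
    have h4 : ∑ i, ∫ x in K, Δ τ i x ≤ d * (R * τ ^ 2 * V) := by
      calc ∑ i, ∫ x in K, Δ τ i x ≤ ∑ _i : Fin d, R * τ ^ 2 * V :=
            Finset.sum_le_sum fun i _ => h3 i
        _ = d * (R * τ ^ 2 * V) := by simp
    rw [h2] at h1
    refine h1.trans (mul_le_mul_of_nonneg_left ?_ (Nat.cast_nonneg d))
    linarith
  -- optimisation
  rcases hA0.eq_or_lt with hA00 | hApos
  · rw [← hA00]
    have : 0 ≤ 4 * (d : ℝ) ^ 3 * R * V * G := by positivity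
    simpa using this
  have hd : 1 ≤ (d : ℝ) := by
    rcases Nat.eq_zero_or_pos d with h | h
    · have := hmain 1 zero_le_one le_rfl
      rw [h] at this
      simp at this
      linarith
    · exact_mod_cast h
  have hAle : A ≤ 2 * R * V := by
    have h1 : A ≤ ∫ _x in K, 2 * R := by
      refine integral_mono_ae iA (integrableOn_const hKfin) ?_
      filter_upwards [hK0] with x hx
      have := norm_sub_le (T x) (S x)
      have := hx.2.1
      have := hx.2.2.1
      linarith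
    have h2 : ∫ _x in K, 2 * R = (volume K).toReal * (2 * R) := by
      rw [setIntegral_const]
      simp [Measure.real]
    have h3 : (volume K).toReal ≤ V := by
      refine ENNReal.toReal_mono (isCompact_closedBall _ _).measure_lt_top.ne ?_
      exact measure_mono (hKr.trans (closedBall_subset_closedBall (by linarith)))
    rw [h2] at h1
    nlinarith
  have hVpos : 0 < V := by
    by_contra hcon
    have : V = 0 := le_antisymm (not_lt.1 hcon) hV0
    rw [this] at hAle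
    linarith
  set c : ℝ := 2 * (d : ℝ) ^ 2 * R * V with hc
  have hcpos : 0 < c := by positivity
  have hτ1 : A / c ≤ 1 := by
    rw [div_le_one hcpos]
    have : 2 * R * V ≤ c := by
      rw [hc]
      have : (1 : ℝ) ≤ (d : ℝ) ^ 2 := one_le_pow₀ hd
      nlinarith [mul_pos hR hVpos]
    linarith
  have := hmain (A / c) (by positivity) hτ1
  have e : (d : ℝ) * (G + d * (R * (A / c) ^ 2 * V)) = d * G + A ^ 2 / (2 * c) := by
    rw [hc]
    field_simp
  rw [e] at this
  have e2 : A / c * A = A ^ 2 / c := by ring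
  rw [e2] at this
  have e3 : A ^ 2 / c - A ^ 2 / (2 * c) = A ^ 2 / (2 * c) := by
    field_simp
    ring
  have h5 : A ^ 2 / (2 * c) ≤ d * G := by linarith
  rw [div_le_iff₀ (by positivity)] at h5
  calc A ^ 2 ≤ d * G * (2 * c) := h5
    _ = 4 * (d : ℝ) ^ 3 * R * V * G := by rw [hc]; ring

end Vale.Agent.Lib.P074
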