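import Vale.Agent.Lib.P074.Swap

/-!
# P074, Part B: a Monge-optimal map for the uniform measure on a convex body is a.e. a subgradient
of a convex function (self-contained proof: swap small balls along a cycle, Lebesgue
differentiation, Rockafellar).
-/

open MeasureTheory Set Metric Filter Topology
open scoped InnerProductSpace ENNReal

namespace Vale.Agent.Lib.P074

variable {d : ℕ}

/-- B-Rockafellar: a bounded cyclically monotone map is a selection of the subdifferential of a
convex function. -/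
theorem rockafellar {F : Type*} [NormedAddCommGroup F] [InnerProductSpace ℝ F]
    (L : Set F) (R : ℝ) (T : F → F) (hTb : ∀ x ∈ L, ‖T x‖ ≤ R)
    (hcyc : ∀ (n : ℕ) (x : ℕ → F), (∀ j, x j ∈ L) →
        ∑ j ∈ Finset.range n, ⟪T (x j), x (j + 1) - x j⟫_ℝ + ⟪T (x n), x 0 - x n⟫_ℝ ≤ 0) :
    ∃ φ : F → ℝ, ConvexOn ℝ univ φ ∧ ∀ x ∈ L, ∀ y, φ x + ⟪T x, y - x⟫_ℝ ≤ φ y := by
  classical
  rcases L.eq_empty_or_nonempty with hL | ⟨x0, hx0⟩
  · refine ⟨fun _ => 0, convexOn_const 0 convex_univ, ?_⟩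
    intro x hx
    rw [hL] at hx
    exact absurd hx (notMem_empty x)
  let I := {p : ℕ × (ℕ → F) // p.2 0 = x0 ∧ ∀ j, p.2 j ∈ L}
  let val : I → F → ℝ := fun p y =>
    ∑ j ∈ Finset.range p.1.1, ⟪T (p.1.2 j), p.1.2 (j + 1) - p.1.2 j⟫_ℝ
      + ⟪T (p.1.2 p.1.1), y - p.1.2 p.1.1⟫_ℝ
  have hne : Nonempty I := ⟨⟨(0, fun _ => x0), rfl, fun _ => hx0⟩⟩
  have hbdd : ∀ y, BddAbove (range fun p : I => val p y) := by
    intro y
    refine ⟨R * ‖y - x0‖, ?_⟩
    rintro _ ⟨p, rfl⟩
    have h1 := hcyc p.1.1 p.1.2 p.2.2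
    rw [p.2.1] at h1
    have h2 : ⟪T (p.1.2 p.1.1), y - p.1.2 p.1.1⟫_ℝ
        = ⟪T (p.1.2 p.1.1), x0 - p.1.2 p.1.1⟫_ℝ + ⟪T (p.1.2 p.1.1), y - x0⟫_ℝ := by
      rw [← inner_add_right]; congr 1; abel
    have h3 : ⟪T (p.1.2 p.1.1), y - x0⟫_ℝ ≤ R * ‖y - x0‖ :=
      (real_inner_le_norm _ _).trans
        (mul_le_mul_of_nonneg_right (hTb _ (p.2.2 _)) (norm_nonneg _))
    simp only [val]
    rw [h2]
    linarith
  refine ⟨fun y => ⨆ p : I, val p y, ⟨convex_univ, ?_⟩, ?_⟩
  · intro y1 _ y2 _ a b ha hb hab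
    apply ciSup_le
    intro p
    have h1 : val p (a • y1 + b • y2) = a * val p y1 + b * val p y2 := by
      simp only [val]
      have h2 : a • y1 + b • y2 - p.1.2 p.1.1
          = a • (y1 - p.1.2 p.1.1) + b • (y2 - p.1.2 p.1.1) := by
        have : p.1.2 p.1.1 = a • p.1.2 p.1.1 + b • p.1.2 p.1.1 := by
          rw [← add_smul, hab, one_smul]
        rw [smul_sub, smul_sub]
        nth_rewrite 1 [this]
        abel
      rw [h2, inner_add_right, inner_smul_right, inner_smul_right]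
      have h3 : ∀ s : ℝ, s = a * s + b * s := fun s => by rw [← add_mul, hab, one_mul]
      nth_rewrite 1 [h3 (∑ j ∈ Finset.range p.1.1, ⟪T (p.1.2 j), p.1.2 (j + 1) - p.1.2 j⟫_ℝ)]
      ring
    rw [h1]
    simp only [smul_eq_mul]
    exact add_le_add (mul_le_mul_of_nonneg_left (le_ciSup (hbdd y1) p) ha)
      (mul_le_mul_of_nonneg_left (le_ciSup (hbdd y2) p) hb)
  · intro x' hx' y
    have key : (⨆ p : I, val p x') ≤ (⨆ p : I, val p y) - ⟪T x', y - x'⟫_ℝ := by
      apply ciSup_le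
      intro p
      let q : I := ⟨(p.1.1 + 1, Function.update p.1.2 (p.1.1 + 1) x'), by
        refine ⟨?_, ?_⟩
        · simp only
          rw [Function.update_of_ne (by omega)]
          exact p.2.1
        · intro j
          simp only
          by_cases hj : j = p.1.1 + 1
          · rw [hj, Function.update_self]; exact hx'
          · rw [Function.update_of_ne hj]; exact p.2.2 j⟩
      have h1 : val q y = val p x' + ⟪T x', y - x'⟫_ℝ := by
        simp only [val, q]
        rw [Finset.sum_range_succ, Function.update_self,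
          Function.update_of_ne (show p.1.1 ≠ p.1.1 + 1 by omega)]
        congr 2
        apply Finset.sum_congr rfl
        intro j hj
        rw [Finset.mem_range] at hj
        rw [Function.update_of_ne (show j ≠ p.1.1 + 1 by omega),
          Function.update_of_ne (show j + 1 ≠ p.1.1 + 1 by omega)]
      have h2 : val q y ≤ ⨆ p : I, val p y := le_ciSup (hbdd y) q
      linarith
    simp only
    linarith

/-- Part B, final form. -/
theorem isBrenierMap_of_isOTMap (K : Set (E d)) (hK : IsCompact K) (hKc : Convex ℝ K)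
    (hKi : (interior K).Nonempty) (Y : Set (E d)) (hY : IsCompact Y)
    (μ : Measure (E d)) (hμY : μ Yᶜ = 0) (T : E d → E d) (hT : IsOTMap (unif K) μ T) :
    IsBrenierMap (unif K) T := by
  obtain ⟨hTm, hmap, hopt⟩ := hT
  obtain ⟨R, hR⟩ := hY.isBounded.exists_norm_le
  have hKm : MeasurableSet K := hK.isClosed.measurableSet
  have hK0 : volume K ≠ 0 :=
    ((isOpen_interior.measure_pos volume hKi).trans_le (measure_mono interior_subset)).ne'
  have hKfin : volume K ≠ ∞ := hK.measure_lt_top.ne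
  have hc0 : (volume K)⁻¹ ≠ 0 := ENNReal.inv_ne_zero.2 hKfin
  have hae : ∀ {p : E d → Prop}, (∀ᵐ x ∂(unif K), p x) ↔ ∀ᵐ x ∂(volume.restrict K), p x := by
    intro p
    unfold unif
    exact Measure.ae_ennreal_smul_measure_iff hc0
  have hTY : ∀ᵐ x ∂(unif K), T x ∈ Y := by
    have h1 : (unif K) (T ⁻¹' Yᶜ) = 0 := by
      rw [← Measure.map_apply hTm hY.isClosed.measurableSet.compl, hmap, hμY]
    have h2 := measure_eq_zero_iff_ae_notMem.1 h1
    filter_upwards [h2] with x hx
    by_contra hcon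
    exact hx hcon
  have hTb : ∀ᵐ x ∂(volume.restrict K), ‖T x‖ ≤ R := by
    rw [← hae]
    filter_upwards [hTY] with x hx using hR _ hx
  have hswap : SwapProp K T := by
    refine swap_ineq K hKm hK.isBounded hK0 R T hTm hTb ?_
    intro T' hT' hmap'
    exact hopt T' hT' (hmap'.trans hmap)
  obtain ⟨L, hL1, hL2, hL3⟩ := exists_cyclically_monotone_of_swap K hK hKc R T hTm hTb hswap
  obtain ⟨φ, hφ1, hφ2⟩ := rockafellar L R T hL2 hL3
  refine ⟨hTm, φ, hφ1, ?_⟩
  rw [hae]
  filter_upwards [hL1] with x hx using hφ2 x hx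

end Vale.Agent.Lib.P074
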