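import Vale.Agent.Lib.P074.Stability

/-!
# P074: a bounded Borel map which is a subgradient of a function is a quadratic optimal transport map
(the easy half of Brenier's theorem / Knott–Smith criterion)
-/

open MeasureTheory Set Metric
open scoped InnerProductSpace ENNReal

namespace Vale.Agent.Lib.P074

variable {d : ℕ}

theorem isOTMap_of_subgradient (K : Set (E d)) (hK : MeasurableSet K) (hK0 : volume K ≠ 0)
    (r : ℝ) (hr : 0 ≤ r) (hKr : K ⊆ closedBall 0 r) (R : ℝ)
    (T : E d → E d) (hT : Measurable T) (φ : E d → ℝ) (hTb : ∀ x, ‖T x‖ ≤ R)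
    (hφ : ∀ x y, φ x + ⟪T x, y - x⟫_ℝ ≤ φ y) :
    IsOTMap (unif K) ((unif K).map T) T := by
  have hKfin : volume K ≠ ∞ :=
    ((measure_mono hKr).trans_lt (isCompact_closedBall _ _).measure_lt_top).ne
  have hprob := isProbabilityMeasure_unif K hKfin hK0
  refine ⟨hT, rfl, fun T' hT' hmap => ?_⟩
  -- φ is Lipschitz
  have hLip : ∀ x y, φ x - φ y ≤ R * ‖x - y‖ := by
    intro x y
    have h1 := hφ x y
    have h2 : ⟪T x, x - y⟫_ℝ ≤ R * ‖x - y‖ :=
      (real_inner_le_norm _ _).trans (mul_le_mul_of_nonneg_right (hTb x) (norm_nonneg _))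
    have h3 : ⟪T x, y - x⟫_ℝ = - ⟪T x, x - y⟫_ℝ := by
      rw [← inner_neg_right, neg_sub]
    linarith
  have hφc : Continuous φ := continuous_of_lip φ R hLip
  obtain ⟨h, hh1, hh2, hh3⟩ := exists_conj φ R r hr hLip
  have hhc : Continuous h := continuous_of_lip h r hh1
  let F : E d → ℝ := fun y => ‖y‖ ^ 2 - 2 * h y
  have hFc : Continuous F := by fun_prop
  let g : E d → ℝ := fun x => ‖x‖ ^ 2 - 2 * φ x
  have hgc : Continuous g := by fun_prop
  have hmem : ∀ᵐ x ∂(unif K), x ∈ K := by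
    rw [ae_unif_iff K hKfin]
    exact ae_restrict_mem hK
  have hid : ∀ᵐ x ∂(unif K), ‖(id x : E d)‖ ≤ r := by
    filter_upwards [hmem] with x hx using mem_closedBall_zero_iff.1 (hKr hx)
  have ig : Integrable g (unif K) :=
    integrable_comp_of_bounded (unif K) id measurable_id r hid g hgc
  have iFT : Integrable (fun x => F (T x)) (unif K) :=
    integrable_comp_of_bounded (unif K) T hT R (Filter.Eventually.of_forall hTb) F hFc
  obtain ⟨iFT', eF⟩ := integrable_and_integral_of_map_eq (unif K) (unif K) T T' hT hT' hmap F hFc iFT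
  have e1 : ∀ᵐ x ∂(unif K), ‖x - T x‖ ^ 2 = g x + F (T x) := by
    filter_upwards [hmem] with x hx
    have hx' : ‖x‖ ≤ r := mem_closedBall_zero_iff.1 (hKr hx)
    have := hh3 x (T x) hx' (hφ x)
    simp only [g, F]
    rw [norm_sub_sq_real, this]
    ring
  have e2 : ∀ᵐ x ∂(unif K), g x + F (T' x) ≤ ‖x - T' x‖ ^ 2 := by
    filter_upwards [hmem] with x hx
    have hx' : ‖x‖ ≤ r := mem_closedBall_zero_iff.1 (hKr hx)
    have := hh2 x (T' x) hx'
    simp only [g, F]
    rw [norm_sub_sq_real]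
    linarith
  -- integrability of the competitor's cost
  have iN : Integrable (fun x => ‖T x‖ ^ 2) (unif K) :=
    integrable_comp_of_bounded (unif K) T hT R (Filter.Eventually.of_forall hTb)
      (fun y => ‖y‖ ^ 2) (by fun_prop)
  obtain ⟨iN', -⟩ := integrable_and_integral_of_map_eq (unif K) (unif K) T T' hT hT' hmap
    (fun y => ‖y‖ ^ 2) (by fun_prop) iN
  have iX : Integrable (fun x : E d => ‖x‖ ^ 2) (unif K) :=
    integrable_comp_of_bounded (unif K) id measurable_id r hid (fun y => ‖y‖ ^ 2) (by fun_prop)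
  have iC' : Integrable (fun x => ‖x - T' x‖ ^ 2) (unif K) := by
    refine ((iX.add iN').const_mul 2).mono'
      ((measurable_id.sub hT').norm.pow_const 2).aestronglyMeasurable ?_
    refine Filter.Eventually.of_forall fun x => ?_
    rw [Real.norm_eq_abs, abs_of_nonneg (by positivity)]
    have h3 := norm_sub_le x (T' x)
    have h4 : ‖x - T' x‖ ^ 2 ≤ (‖x‖ + ‖T' x‖) ^ 2 := pow_le_pow_left₀ (norm_nonneg _) h3 2
    simp only [Pi.add_apply]
    nlinarith [sq_nonneg (‖x‖ - ‖T' x‖)]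
  calc ∫ x, ‖x - T x‖ ^ 2 ∂(unif K) = ∫ x, (g x + F (T x)) ∂(unif K) := integral_congr_ae e1
    _ = ∫ x, g x ∂(unif K) + ∫ x, F (T x) ∂(unif K) := integral_add ig iFT
    _ = ∫ x, g x ∂(unif K) + ∫ x, F (T' x) ∂(unif K) := by rw [eF]
    _ = ∫ x, (g x + F (T' x)) ∂(unif K) := (integral_add ig iFT').symm
    _ ≤ ∫ x, ‖x - T' x‖ ^ 2 ∂(unif K) := integral_mono_ae (ig.add iFT') iC' e2

end Vale.Agent.Lib.P074
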