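import Vale.Agent.Lib.P074.Defs

/-!
# P074, Part A3: second differences of a convex function in an arbitrary direction are controlled
by the coordinate second differences
-/

open MeasureTheory Set Metric
open scoped InnerProductSpace ENNReal

namespace Vale.Agent.Lib.P074

/-- second differences of a convex function are nonnegative -/
theorem second_diff_nonneg {F : Type*} [AddCommGroup F] [Module ℝ F] (ψ : F → ℝ)
    (hψ : ConvexOn ℝ univ ψ) (x h : F) : 0 ≤ ψ (x + h) + ψ (x - h) - 2 * ψ x := by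
  have := hψ.2 (mem_univ (x + h)) (mem_univ (x - h)) (by norm_num : (0 : ℝ) ≤ 1 / 2)
    (by norm_num : (0 : ℝ) ≤ 1 / 2) (by norm_num)
  have e : (1 / 2 : ℝ) • (x + h) + (1 / 2 : ℝ) • (x - h) = x := by
    rw [← smul_add]
    have : x + h + (x - h) = (2 : ℝ) • x := by rw [two_smul]; abel
    rw [this, smul_smul]; norm_num
  rw [e] at this
  simp only [smul_eq_mul] at this
  linarith

theorem second_diff_le {d : ℕ} (ψ : E d → ℝ) (hψ : ConvexOn ℝ univ ψ) (x w : E d) (hw : w ≠ 0)
    (τ : ℝ) (hτ : 0 ≤ τ) :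
    ∃ v : E d, ‖v‖ ≤ τ ∧ τ * ‖w‖ ≤ d * ⟪w, v⟫_ℝ ∧
      ψ (x + v) + ψ (x - v) - 2 * ψ x ≤
        ∑ i, (ψ (x + τ • EuclideanSpace.single i (1 : ℝ)) +
          ψ (x - τ • EuclideanSpace.single i (1 : ℝ)) - 2 * ψ x) := by
  classical
  set N : ℝ := ∑ i, |w i| with hN
  have hNpos : 0 < N := by
    have : ∃ i, w i ≠ 0 := by
      by_contra hcon
      push_neg at hcon
      exact hw (by ext i; simpa using hcon i)
    obtain ⟨i, hi⟩ := this
    exact Finset.sum_pos' (fun j _ => abs_nonneg _) ⟨i, Finset.mem_univ _, abs_pos.2 hi⟩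
  let lam : Fin d → ℝ := fun i => |w i| / N
  let s : Fin d → ℝ := fun i => if 0 ≤ w i then 1 else -1
  let u : Fin d → E d := fun i => EuclideanSpace.single i (1 : ℝ)
  let p : Fin d → E d := fun i => (τ * s i) • u i
  have hlam0 : ∀ i, 0 ≤ lam i := fun i => div_nonneg (abs_nonneg _) hNpos.le
  have hlam1 : ∑ i, lam i = 1 := by
    simp only [lam]
    rw [← Finset.sum_div, ← hN, div_self hNpos.ne']
  have hlamle : ∀ i, lam i ≤ 1 := by
    intro i
    rw [← hlam1]
    exact Finset.single_le_sum (fun j _ => hlam0 j) (Finset.mem_univ i)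
  have hs : ∀ i, s i * w i = |w i| := by
    intro i
    simp only [s]
    split_ifs with h
    · rw [one_mul, abs_of_nonneg h]
    · rw [abs_of_neg (not_le.1 h)]; ring
  have hsabs : ∀ i, |s i| = 1 := by
    intro i
    simp only [s]
    split_ifs <;> simp
  have hu : ∀ i, ‖u i‖ = 1 := by
    intro i
    simp [u]
  let v : E d := ∑ i, lam i • p i
  have hxv : x + v = ∑ i, lam i • (x + p i) := by
    simp only [smul_add, Finset.sum_add_distrib, ← Finset.sum_smul, hlam1, one_smul, v]
  have hxv' : x - v = ∑ i, lam i • (x - p i) := by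
    simp only [smul_sub, Finset.sum_sub_distrib, ← Finset.sum_smul, hlam1, one_smul, v]
  refine ⟨v, ?_, ?_, ?_⟩
  · calc ‖v‖ ≤ ∑ i, ‖lam i • p i‖ := norm_sum_le _ _
      _ = ∑ i, lam i * τ := by
        refine Finset.sum_congr rfl fun i _ => ?_
        rw [norm_smul, norm_smul, hu, Real.norm_eq_abs, Real.norm_eq_abs, abs_mul, hsabs,
          abs_of_nonneg (hlam0 i), abs_of_nonneg hτ]
        ring
      _ = τ := by rw [← Finset.sum_mul, hlam1, one_mul]
  · have hin : ⟪w, v⟫_ℝ = τ / N * ‖w‖ ^ 2 := by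
      simp only [v, inner_sum, inner_smul_right, p, u]
      have : ∀ i, ⟪w, EuclideanSpace.single i (1 : ℝ)⟫_ℝ = w i := by
        intro i
        simp [EuclideanSpace.inner_single_right]
      simp only [this]
      rw [EuclideanSpace.norm_sq_eq, Finset.mul_sum]
      refine Finset.sum_congr rfl fun i _ => ?_
      simp only [lam]
      rw [mul_assoc τ, hs, Real.norm_eq_abs]
      field_simp
    have hNle : N ≤ d * ‖w‖ := by
      calc N ≤ ∑ _i : Fin d, ‖w‖ := by
            refine Finset.sum_le_sum fun i _ => ?_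
            simpa using PiLp.norm_apply_le w i
        _ = d * ‖w‖ := by simp
    rw [hin]
    have hwpos : 0 < ‖w‖ := norm_pos_iff.2 hw
    have : τ * ‖w‖ * N ≤ d * (τ * ‖w‖ ^ 2) := by
      have := mul_le_mul_of_nonneg_left hNle (mul_nonneg hτ hwpos.le)
      nlinarith
    rw [div_mul_eq_mul_div, mul_div_assoc', le_div_iff₀ hNpos]
    exact this
  · have h1 : ψ (x + v) ≤ ∑ i, lam i • ψ (x + p i) := by
      rw [hxv]
      exact hψ.map_sum_le (fun i _ => hlam0 i) hlam1 (fun i _ => mem_univ _)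
    have h2 : ψ (x - v) ≤ ∑ i, lam i • ψ (x - p i) := by
      rw [hxv']
      exact hψ.map_sum_le (fun i _ => hlam0 i) hlam1 (fun i _ => mem_univ _)
    have h3 : 2 * ψ x = ∑ i, lam i * (2 * ψ x) := by
      rw [← Finset.sum_mul, hlam1, one_mul]
    have h4 : ∀ i, ψ (x + p i) + ψ (x - p i) = ψ (x + τ • u i) + ψ (x - τ • u i) := by
      intro i
      simp only [p, s]
      split_ifs
      · simp
      · simp only [mul_neg, mul_one, neg_smul, sub_neg_eq_add, ← sub_eq_add_neg]
        ring
    calc ψ (x + v) + ψ (x - v) - 2 * ψ x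
        ≤ ∑ i, lam i • ψ (x + p i) + ∑ i, lam i • ψ (x - p i) - ∑ i, lam i * (2 * ψ x) := by
          rw [← h3]; linarith
      _ = ∑ i, lam i * (ψ (x + τ • u i) + ψ (x - τ • u i) - 2 * ψ x) := by
          rw [← Finset.sum_add_distrib, ← Finset.sum_sub_distrib]
          refine Finset.sum_congr rfl fun i _ => ?_
          rw [← h4 i]
          simp only [smul_eq_mul]
          ring
      _ ≤ ∑ i, (ψ (x + τ • u i) + ψ (x - τ • u i) - 2 * ψ x) := by
          refine Finset.sum_le_sum fun i _ => ?_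
          exact mul_le_of_le_one_left (second_diff_nonneg ψ hψ x _) (hlamle i)

end Vale.Agent.Lib.P074
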