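import Vale.Agent.Lib.P074.Defs

/-!
# P074, Part A1/A2: Lipschitz regularisation of a potential and truncated conjugates
-/

open MeasureTheory Set Metric
open scoped InnerProductSpace ENNReal

namespace Vale.Agent.Lib.P074

variable {F : Type*} [NormedAddCommGroup F] [InnerProductSpace ℝ F]

/-- A1.  From subgradient inequalities on `K0` with bounded slopes we get a globally
`R`-Lipschitz convex potential with the same subgradients on `K0`. -/
theorem exists_lipschitz_potential (K0 : Set F) (hne : K0.Nonempty) (S : F → F) (ψ : F → ℝ)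
    (R : ℝ) (hS : ∀ x ∈ K0, ‖S x‖ ≤ R)
    (hsub : ∀ x ∈ K0, ∀ y, ψ x + ⟪S x, y - x⟫_ℝ ≤ ψ y) :
    ∃ ψ' : F → ℝ, ConvexOn ℝ univ ψ' ∧ (∀ x y, ψ' x - ψ' y ≤ R * ‖x - y‖) ∧
      ∀ x ∈ K0, ∀ y, ψ' x + ⟪S x, y - x⟫_ℝ ≤ ψ' y := by
  classical
  have : Nonempty K0 := hne.to_subtype
  let g : F → K0 → ℝ := fun y x => ψ x + ⟪S x, y - x⟫_ℝ
  have hbdd : ∀ y, BddAbove (range (g y)) := by
    intro y
    refine ⟨ψ y, ?_⟩
    rintro _ ⟨x, rfl⟩
    exact hsub x x.2 y
  let ψ' : F → ℝ := fun y => ⨆ x : K0, g y x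
  have hle : ∀ y (x : K0), g y x ≤ ψ' y := fun y x => le_ciSup (hbdd y) x
  have hup : ∀ y, ψ' y ≤ ψ y := fun y => ciSup_le fun x => hsub x x.2 y
  have heq : ∀ x ∈ K0, ψ' x = ψ x := by
    intro x hx
    refine le_antisymm (hup x) ?_
    have := hle x ⟨x, hx⟩
    simpa [g] using this
  refine ⟨ψ', ⟨convex_univ, ?_⟩, ?_, ?_⟩
  · intro x _ y _ a b ha hb hab
    refine ciSup_le fun z => ?_
    have h1 := hle x z
    have h2 := hle y z
    have : g (a • x + b • y) z = a * g x z + b * g y z := by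
      simp only [g]
      have e : a • x + b • y - (z : F) = a • (x - z) + b • (y - z) := by
        have : (z : F) = a • (z : F) + b • (z : F) := by rw [← add_smul, hab, one_smul]
        rw [smul_sub, smul_sub]
        nth_rewrite 1 [this]
        abel
      rw [e, inner_add_right, inner_smul_right, inner_smul_right]
      have : ψ z = a * ψ z + b * ψ z := by rw [← add_mul, hab, one_mul]
      nth_rewrite 1 [this]
      ring
    rw [this]
    simp only [smul_eq_mul]
    exact add_le_add (mul_le_mul_of_nonneg_left h1 ha) (mul_le_mul_of_nonneg_left h2 hb)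
  · intro x y
    have : ψ' x ≤ ψ' y + R * ‖x - y‖ := by
      refine ciSup_le fun z => ?_
      have h2 := hle y z
      have e : g x z = g y z + ⟪S z, x - y⟫_ℝ := by
        simp only [g]
        have : x - (z : F) = (y - z) + (x - y) := by abel
        rw [this, inner_add_right]
        ring
      have h3 : ⟪S z, x - y⟫_ℝ ≤ R * ‖x - y‖ :=
        (real_inner_le_norm _ _).trans (mul_le_mul_of_nonneg_right (hS z z.2) (norm_nonneg _))
      linarith
    linarith
  · intro x hx y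
    rw [heq x hx]
    exact hle y ⟨x, hx⟩

/-- A2.  Truncated Legendre conjugate on the ball of radius `r`. -/
theorem exists_conj (ψ : F → ℝ) (R r : ℝ) (hr : 0 ≤ r)
    (hLip : ∀ x y, ψ x - ψ y ≤ R * ‖x - y‖) :
    ∃ ψs : F → ℝ, (∀ p q, ψs p - ψs q ≤ r * ‖p - q‖) ∧
      (∀ y p, ‖y‖ ≤ r → ⟪y, p⟫_ℝ - ψ y ≤ ψs p) ∧
      (∀ x s, ‖x‖ ≤ r → (∀ y, ψ x + ⟪s, y - x⟫_ℝ ≤ ψ y) → ψs s = ⟪x, s⟫_ℝ - ψ x) := by
  classical
  have : Nonempty (closedBall (0 : F) r) := ⟨⟨0, by simpa using hr⟩⟩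
  let g : F → closedBall (0 : F) r → ℝ := fun p y => ⟪(y : F), p⟫_ℝ - ψ y
  have hnorm : ∀ y : closedBall (0 : F) r, ‖(y : F)‖ ≤ r := fun y => mem_closedBall_zero_iff.1 y.2
  have hbdd : ∀ p, BddAbove (range (g p)) := by
    intro p
    refine ⟨r * ‖p‖ + (|R| * r - ψ 0), ?_⟩
    rintro _ ⟨y, rfl⟩
    have h1 : ⟪(y : F), p⟫_ℝ ≤ r * ‖p‖ :=
      (real_inner_le_norm _ _).trans (mul_le_mul_of_nonneg_right (hnorm y) (norm_nonneg _))
    have h2 : ψ 0 - ψ y ≤ |R| * r := by
      have := hLip 0 y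
      have h3 : R * ‖(0 : F) - y‖ ≤ |R| * r := by
        rw [zero_sub, norm_neg]
        exact mul_le_mul (le_abs_self R) (hnorm y) (norm_nonneg _) (abs_nonneg R)
      linarith
    simp only [g]
    linarith
  let ψs : F → ℝ := fun p => ⨆ y, g p y
  have hle : ∀ p y, g p y ≤ ψs p := fun p y => le_ciSup (hbdd p) y
  refine ⟨ψs, ?_, ?_, ?_⟩
  · intro p q
    have : ψs p ≤ ψs q + r * ‖p - q‖ := by
      refine ciSup_le fun y => ?_
      have h2 := hle q y
      have e : g p y = g q y + ⟪(y : F), p - q⟫_ℝ := by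
        simp only [g]
        rw [inner_sub_right]
        ring
      have h3 : ⟪(y : F), p - q⟫_ℝ ≤ r * ‖p - q‖ :=
        (real_inner_le_norm _ _).trans (mul_le_mul_of_nonneg_right (hnorm y) (norm_nonneg _))
      linarith
    linarith
  · intro y p hy
    exact hle p ⟨y, by simpa using hy⟩
  · intro x s hx hsub
    refine le_antisymm (ciSup_le fun y => ?_) (hle s ⟨x, by simpa using hx⟩)
    have := hsub y
    simp only [g]
    rw [inner_sub_right, real_inner_comm, real_inner_comm (x) (s)] at this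
    linarith

end Vale.Agent.Lib.P074
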