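import Vale.Agent.Lib.P074.Main

/-!
# P074, Part A6/A7: couplings and the stability estimate for Brenier maps
-/

open MeasureTheory Set Metric
open scoped InnerProductSpace ENNReal

namespace Vale.Agent.Lib.P074

variable {d : ℕ}

/-- transfer of integrals through equal push-forwards -/
theorem integrable_and_integral_of_map_eq {α β : Type*} [MeasurableSpace α] [MeasurableSpace β]
    (ρ : Measure α) (π : Measure β) (T : α → E d) (p : β → E d) (hT : Measurable T)
    (hp : Measurable p) (h : π.map p = ρ.map T) (g : E d → ℝ) (hg : Continuous g)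
    (hi : Integrable (fun x => g (T x)) ρ) :
    Integrable (fun z => g (p z)) π ∧ ∫ z, g (p z) ∂π = ∫ x, g (T x) ∂ρ := by
  have hgm : ∀ μ : Measure (E d), AEStronglyMeasurable g μ := fun μ =>
    hg.aestronglyMeasurable
  have h1 : Integrable g (ρ.map T) := (integrable_map_measure (hgm _) hT.aemeasurable).2 hi
  rw [← h] at h1
  refine ⟨(integrable_map_measure (hgm _) hp.aemeasurable).1 h1, ?_⟩
  rw [← integral_map hp.aemeasurable (hgm _), h, integral_map hT.aemeasurable (hgm _)]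

theorem integrable_comp_of_bounded (ρ : Measure (E d)) [IsFiniteMeasure ρ] (T : E d → E d)
    (hT : Measurable T) (R : ℝ) (hTb : ∀ᵐ x ∂ρ, ‖T x‖ ≤ R) (g : E d → ℝ) (hg : Continuous g) :
    Integrable (fun x => g (T x)) ρ := by
  obtain ⟨M, hM⟩ := (isCompact_closedBall (0 : E d) R).exists_bound_of_continuousOn hg.continuousOn
  refine Integrable.of_bound (hg.measurable.comp hT).aestronglyMeasurable M ?_
  filter_upwards [hTb] with x hx using hM _ (mem_closedBall_zero_iff.2 hx)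

/-- A6 -/
theorem integral_sub_le_of_coupling (ρ : Measure (E d)) [IsFiniteMeasure ρ] (T S : E d → E d)
    (hT : Measurable T) (hS : Measurable S) (R : ℝ) (hTb : ∀ᵐ x ∂ρ, ‖T x‖ ≤ R)
    (hSb : ∀ᵐ x ∂ρ, ‖S x‖ ≤ R) (f : E d → ℝ) (L : ℝ)
    (hf : ∀ p q, f p - f q ≤ L * ‖p - q‖) (π : Measure (E d × E d))
    (hπ : IsCoupling π (ρ.map T) (ρ.map S)) :
    Integrable (fun z : E d × E d => ‖z.1 - z.2‖) π ∧
    ∫ x, (f (T x) - f (S x)) ∂ρ ≤ L * ∫ z, ‖z.1 - z.2‖ ∂π := by
  have hfc : Continuous f := continuous_of_lip f L hf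
  obtain ⟨i1, e1⟩ := integrable_and_integral_of_map_eq ρ π T Prod.fst hT measurable_fst hπ.1 f hfc
    (integrable_comp_of_bounded ρ T hT R hTb f hfc)
  obtain ⟨i2, e2⟩ := integrable_and_integral_of_map_eq ρ π S Prod.snd hS measurable_snd hπ.2 f hfc
    (integrable_comp_of_bounded ρ S hS R hSb f hfc)
  obtain ⟨j1, -⟩ := integrable_and_integral_of_map_eq ρ π T Prod.fst hT measurable_fst hπ.1
    (fun y => ‖y‖) continuous_norm (integrable_comp_of_bounded ρ T hT R hTb _ continuous_norm)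
  obtain ⟨j2, -⟩ := integrable_and_integral_of_map_eq ρ π S Prod.snd hS measurable_snd hπ.2
    (fun y => ‖y‖) continuous_norm (integrable_comp_of_bounded ρ S hS R hSb _ continuous_norm)
  have j : Integrable (fun z : E d × E d => ‖z.1 - z.2‖) π := by
    refine (j1.add j2).mono' (by fun_prop) ?_
    refine Filter.Eventually.of_forall fun z => ?_
    rw [norm_norm]
    exact norm_sub_le _ _
  refine ⟨j, ?_⟩
  rw [integral_sub (integrable_comp_of_bounded ρ T hT R hTb f hfc)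
    (integrable_comp_of_bounded ρ S hS R hSb f hfc), ← e1, ← e2, ← integral_sub i1 i2,
    ← integral_const_mul]
  exact integral_mono (i1.sub i2) (j.const_mul L) fun z => hf _ _

theorem ae_unif_iff (K : Set (E d)) (hKfin : volume K ≠ ∞) (p : E d → Prop) :
    (∀ᵐ x ∂(unif K), p x) ↔ ∀ᵐ x ∂(volume.restrict K), p x := by
  unfold unif
  exact Measure.ae_ennreal_smul_measure_iff (ENNReal.inv_ne_zero.2 hKfin)

theorem integral_unif (K : Set (E d)) (g : E d → ℝ) :
    ∫ x, g x ∂(unif K) = (volume K).toReal⁻¹ * ∫ x in K, g x := by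
  unfold unif
  rw [integral_smul_measure, ENNReal.toReal_inv, smul_eq_mul]

theorem isProbabilityMeasure_unif (K : Set (E d)) (hKfin : volume K ≠ ∞) (hK0 : volume K ≠ 0) :
    IsProbabilityMeasure (unif K) := by
  constructor
  unfold unif
  rw [Measure.smul_apply, Measure.restrict_apply_univ, smul_eq_mul]
  exact ENNReal.inv_mul_cancel hK0 hKfin

/-- A7.  The stability estimate for Brenier maps against an arbitrary coupling. -/
theorem stability_of_potentials (K : Set (E d)) (hK : MeasurableSet K) (hK0 : volume K ≠ 0)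
    (r : ℝ) (hr : 0 ≤ r) (hKr : K ⊆ closedBall 0 r) (R : ℝ) (hR : 0 < R)
    (T S : E d → E d) (hT : Measurable T) (hS : Measurable S) (φ ψ : E d → ℝ)
    (hTb : ∀ᵐ x ∂(unif K), ‖T x‖ ≤ R) (hSb : ∀ᵐ x ∂(unif K), ‖S x‖ ≤ R)
    (hφ : ∀ᵐ x ∂(unif K), ∀ y, φ x + ⟪T x, y - x⟫_ℝ ≤ φ y)
    (hψ : ∀ᵐ x ∂(unif K), ∀ y, ψ x + ⟪S x, y - x⟫_ℝ ≤ ψ y)
    (π : Measure (E d × E d)) (hπ : IsCoupling π ((unif K).map T) ((unif K).map S)) :
    (∫ x, ‖T x - S x‖ ^ 2 ∂(unif K)) ^ 2 ≤
      (32 * (d : ℝ) ^ 3 * R ^ 3 * (r + 1) * (volume (closedBall (0 : E d) (r + 2))).toReal /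
        (volume K).toReal) * ∫ z, ‖z.1 - z.2‖ ∂π := by
  have hKfin : volume K ≠ ∞ :=
    ((measure_mono hKr).trans_lt (isCompact_closedBall _ _).measure_lt_top).ne
  have := isProbabilityMeasure_unif K hKfin hK0
  set V : ℝ := (volume (closedBall (0 : E d) (r + 2))).toReal with hV
  set m : ℝ := (volume K).toReal with hm
  have hmpos : 0 < m := ENNReal.toReal_pos hK0 hKfin
  have hV0 : 0 ≤ V := ENNReal.toReal_nonneg
  have hTb' := (ae_unif_iff K hKfin _).1 hTb
  have hSb' := (ae_unif_iff K hKfin _).1 hSb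
  obtain ⟨f, hfL, hf⟩ := L1_sq_le K hK r hr hKr R hR T S hT hS φ ψ hTb' hSb'
    ((ae_unif_iff K hKfin _).1 hφ) ((ae_unif_iff K hKfin _).1 hψ)
  obtain ⟨-, hc⟩ := integral_sub_le_of_coupling (unif K) T S hT hS R hTb hSb f _ hfL π hπ
  rw [integral_unif] at hc
  set A : ℝ := ∫ x in K, ‖T x - S x‖ with hA
  set G : ℝ := ∫ x in K, (f (T x) - f (S x)) with hG
  set Wπ : ℝ := ∫ z, ‖z.1 - z.2‖ ∂π with hW
  have hA0 : 0 ≤ A := integral_nonneg fun x => norm_nonneg _
  have hGle : G ≤ m * (2 * (r + 1) * Wπ) := by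
    rwa [inv_mul_le_iff₀ hmpos] at hc
  have hQ : ∫ x in K, ‖T x - S x‖ ^ 2 ≤ 2 * R * A := by
    rw [hA, ← integral_const_mul]
    have iA : IntegrableOn (fun x => ‖T x - S x‖) K := by
      refine Measure.integrableOn_of_bounded (M := 2 * R) hKfin
        (hT.sub hS).norm.aestronglyMeasurable ?_
      filter_upwards [hTb', hSb'] with x h1 h2
      rw [norm_norm]
      have := norm_sub_le (T x) (S x)
      linarith
    refine integral_mono_of_nonneg (Filter.Eventually.of_forall fun x => by positivity)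
      (iA.const_mul _) ?_
    filter_upwards [hTb', hSb'] with x h1 h2
    have h3 : ‖T x - S x‖ ≤ 2 * R := by
      have := norm_sub_le (T x) (S x)
      linarith
    rw [sq]
    exact mul_le_mul_of_nonneg_right h3 (norm_nonneg _)
  have hQ0 : 0 ≤ ∫ x in K, ‖T x - S x‖ ^ 2 := integral_nonneg fun x => by positivity
  rw [integral_unif, ← hm]
  have h1 : (∫ x in K, ‖T x - S x‖ ^ 2) ^ 2 ≤ (2 * R * A) ^ 2 := by
    exact pow_le_pow_left₀ hQ0 hQ 2
  have h2 : (2 * R * A) ^ 2 ≤ 4 * R ^ 2 * (4 * (d : ℝ) ^ 3 * R * V * (m * (2 * (r + 1) * Wπ))) := by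
    have : A ^ 2 ≤ 4 * (d : ℝ) ^ 3 * R * V * (m * (2 * (r + 1) * Wπ)) :=
      hf.trans (mul_le_mul_of_nonneg_left hGle (by positivity))
    calc (2 * R * A) ^ 2 = 4 * R ^ 2 * A ^ 2 := by ring
      _ ≤ _ := mul_le_mul_of_nonneg_left this (by positivity)
  calc (m⁻¹ * ∫ x in K, ‖T x - S x‖ ^ 2) ^ 2 = (m⁻¹) ^ 2 * (∫ x in K, ‖T x - S x‖ ^ 2) ^ 2 := by
        ring
    _ ≤ (m⁻¹) ^ 2 * (4 * R ^ 2 * (4 * (d : ℝ) ^ 3 * R * V * (m * (2 * (r + 1) * Wπ)))) :=
        mul_le_mul_of_nonneg_left (h1.trans h2) (by positivity)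
    _ = 32 * (d : ℝ) ^ 3 * R ^ 3 * (r + 1) * V / m * Wπ := by
        field_simp
        ring

end Vale.Agent.Lib.P074
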