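import Vale.Agent.Lib.P074.Stability

/-!
# P074, package (C): a sup bound on the difference of two potentials gives an `L²` bound on the
difference of their subgradient maps:  `∫_K |T - S|² ≤ C · osc_K (φ - ψ)`.
-/

open MeasureTheory Set Metric
open scoped InnerProductSpace ENNReal

namespace Vale.Agent.Lib.P074

variable {d : ℕ}

theorem cutoff_le_one {F : Type*} [SeminormedAddCommGroup F] (r : ℝ) (x : F) : cutoff r x ≤ 1 := by
  unfold cutoff
  exact max_le zero_le_one (min_le_left _ _)

/-- pointwise comparison of `⟪p - s, v⟫` with the difference quotient of `φ - ψ` -/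
theorem inner_sq_le {F : Type*} [NormedAddCommGroup F] [InnerProductSpace ℝ F]
    (φ ψ : F → ℝ) (R : ℝ) (hφL : ∀ x y, φ x - φ y ≤ R * ‖x - y‖)
    (hψL : ∀ x y, ψ x - ψ y ≤ R * ‖x - y‖) (x p s v : F)
    (hp : ∀ y, φ x + ⟪p, y - x⟫_ℝ ≤ φ y) (hs : ∀ y, ψ x + ⟪s, y - x⟫_ℝ ≤ ψ y) :
    ⟪p - s, v⟫_ℝ ^ 2 ≤ 2 * ((φ (x + v) - ψ (x + v)) - (φ x - ψ x)) ^ 2 +
      8 * R * ‖v‖ * ((φ (x + v) + φ (x - v) - 2 * φ x) + (ψ (x + v) + ψ (x - v) - 2 * ψ x)) := by
  have e1 : x + v - x = v := by abel
  have e2 : x - v - x = -v := by abel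
  have p1 := hp (x + v)
  have p2 := hp (x - v)
  have s1 := hs (x + v)
  have s2 := hs (x - v)
  rw [e1] at p1 s1
  rw [e2, inner_neg_right] at p2 s2
  have l1 := hφL (x + v) x
  have l2 := hφL (x - v) x
  have l3 := hψL (x + v) x
  have l4 := hψL (x - v) x
  rw [e1] at l1 l3
  rw [e2, norm_neg] at l2 l4
  rw [inner_sub_left]
  set a := ⟪p, v⟫_ℝ
  set b := ⟪s, v⟫_ℝ
  set q := (φ (x + v) + φ (x - v) - 2 * φ x) + (ψ (x + v) + ψ (x - v) - 2 * ψ x) with hq
  set D := (φ (x + v) - ψ (x + v)) - (φ x - ψ x) with hD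
  have hq0 : 0 ≤ q := by rw [hq]; linarith
  have hq1 : q ≤ 4 * (R * ‖v‖) := by rw [hq]; linarith
  have h1 : |a - b - D| ≤ q := by
    rw [abs_le, hq, hD]
    constructor <;> linarith
  have h2 : (a - b - D) ^ 2 ≤ q ^ 2 := by
    rw [← sq_abs (a - b - D)]
    exact pow_le_pow_left₀ (abs_nonneg _) h1 2
  have h3 : q ^ 2 ≤ 4 * (R * ‖v‖) * q := by
    rw [sq]
    exact mul_le_mul_of_nonneg_right hq1 hq0
  nlinarith [sq_nonneg (a - b - 2 * D)]

/-- summation by parts against the cut-off -/
theorem integral_cutoff_diff_sq_le (φ ψ : E d → ℝ) (hφ : ConvexOn ℝ univ φ)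
    (hψ : ConvexOn ℝ univ ψ) (R : ℝ) (hφL : ∀ x y, φ x - φ y ≤ R * ‖x - y‖)
    (hψL : ∀ x y, ψ x - ψ y ≤ R * ‖x - y‖) (c w : ℝ) (hw : ∀ x, |φ x - ψ x - c| ≤ w)
    (r : ℝ) (v : E d) (hv : ‖v‖ ≤ 1) :
    ∫ x, cutoff r x * ((φ (x + v) - ψ (x + v)) - (φ x - ψ x)) ^ 2 ≤
      4 * w * R * ‖v‖ ^ 2 * (volume (closedBall (0 : E d) (r + 4))).toReal := by
  have hφc : Continuous φ := continuous_of_lip φ R hφL
  have hψc : Continuous ψ := continuous_of_lip ψ R hψL
  have hw0 : 0 ≤ w := (abs_nonneg _).trans (hw 0)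
  let χ : E d → ℝ := cutoff r
  have hχc : Continuous χ := cutoff_continuous r
  let h : E d → ℝ := fun x => φ x - ψ x - c
  have hhc : Continuous h := by fun_prop
  let g : E d → ℝ := fun x => h (x + v) - h x
  have hgc : Continuous g := by fun_prop
  have hgb : ∀ x, |g x| ≤ 2 * (R * ‖v‖) := by
    intro x
    have h1 := abs_sub_le_of_lip φ R hφL (x + v) x
    have h2 := abs_sub_le_of_lip ψ R hψL (x + v) x
    have e1 : x + v - x = v := by abel
    rw [e1] at h1 h2
    have e : g x = (φ (x + v) - φ x) - (ψ (x + v) - ψ x) := by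
      simp only [g, h]; ring
    rw [e]
    have := abs_sub (φ (x + v) - φ x) (ψ (x + v) - ψ x)
    linarith
  have hsupp : HasCompactSupport χ := by
    refine HasCompactSupport.intro (isCompact_closedBall (0 : E d) (r + 1)) fun x hx => ?_
    rw [mem_closedBall_zero_iff, not_le] at hx
    exact cutoff_eq_zero r hx.le
  have iF : Integrable (fun x => χ x * (g x * h (x + v))) :=
    (hχc.mul (hgc.mul (by fun_prop))).integrable_of_hasCompactSupport hsupp.mul_right
  have iG : Integrable (fun x => χ x * (g x * h x)) :=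
    (hχc.mul (hgc.mul hhc)).integrable_of_hasCompactSupport hsupp.mul_right
  have iF' : Integrable (fun x => χ (x - v) * (g (x - v) * h x)) := by
    have := iF.comp_sub_right v
    simpa using this
  have eF : ∫ x, χ (x - v) * (g (x - v) * h x) = ∫ x, χ x * (g x * h (x + v)) := by
    have := integral_sub_right_eq_self (μ := (volume : Measure (E d)))
      (fun x => χ x * (g x * h (x + v))) v
    simpa using this
  set B : Set (E d) := closedBall (0 : E d) (r + 2) with hB
  have hBm : MeasurableSet B := measurableSet_closedBall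
  have hBfin : volume B ≠ ∞ := (isCompact_closedBall _ _).measure_lt_top.ne
  let Δφ : E d → ℝ := fun x => φ (x + v) + φ (x - v) - 2 * φ x
  let Δψ : E d → ℝ := fun x => ψ (x + v) + ψ (x - v) - 2 * ψ x
  have hΔφc : Continuous Δφ := by fun_prop
  have hΔψc : Continuous Δψ := by fun_prop
  have iΔφ : IntegrableOn Δφ B := hΔφc.continuousOn.integrableOn_compact (isCompact_closedBall _ _)
  have iΔψ : IntegrableOn Δψ B := hΔψc.continuousOn.integrableOn_compact (isCompact_closedBall _ _)
  set V : ℝ := (volume (closedBall (0 : E d) (r + 4))).toReal with hV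
  have e4 : r + 2 + 2 = r + 4 := by ring
  have bφ : ∫ x in B, Δφ x ≤ R * ‖v‖ ^ 2 * V := by
    have := integral_second_diff_le φ hφ R hφL B hBm (r + 2) le_rfl v hv
    rwa [e4] at this
  have bψ : ∫ x in B, Δψ x ≤ R * ‖v‖ ^ 2 * V := by
    have := integral_second_diff_le ψ hψ R hψL B hBm (r + 2) le_rfl v hv
    rwa [e4] at this
  have hBV : (volume B).toReal ≤ V := by
    refine ENNReal.toReal_mono (isCompact_closedBall _ _).measure_lt_top.ne ?_
    exact measure_mono (closedBall_subset_closedBall (by linarith))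
  have hR0 : 0 ≤ R * ‖v‖ := by
    have := hgb 0
    have := abs_nonneg (g 0)
    linarith
  calc ∫ x, cutoff r x * ((φ (x + v) - ψ (x + v)) - (φ x - ψ x)) ^ 2
      = ∫ x, (χ x * (g x * h (x + v)) - χ x * (g x * h x)) := by
        congr 1
        ext x
        simp only [χ, g, h]
        ring
    _ = ∫ x, (χ (x - v) * (g (x - v) * h x) - χ x * (g x * h x)) := by
        rw [integral_sub iF iG, ← eF, ← integral_sub iF' iG]
    _ ≤ ∫ x, B.indicator (fun x => 2 * (R * ‖v‖) * ‖v‖ * w + w * (Δφ x + Δψ x)) x := by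
        refine integral_mono (iF'.sub iG) ?_ ?_
        · rw [integrable_indicator_iff hBm]
          exact (integrableOn_const hBfin).add ((iΔφ.add iΔψ).const_mul w)
        · intro x
          simp only
          by_cases hx : x ∈ B
          · rw [indicator_of_mem hx]
            have e : χ (x - v) * (g (x - v) * h x) - χ x * (g x * h x) =
                (χ (x - v) - χ x) * g (x - v) * h x + χ x * ((Δψ x - Δφ x) * h x) := by
              simp only [g, h, Δφ, Δψ, sub_add_cancel]
              ring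
            rw [e]
            have h1 : |χ (x - v) - χ x| ≤ ‖v‖ := by
              have := cutoff_lip r (x - v) x
              simpa [norm_neg] using this
            have n1 : 0 ≤ Δφ x := second_diff_nonneg φ hφ x v
            have n2 : 0 ≤ Δψ x := second_diff_nonneg ψ hψ x v
            have t1 : (χ (x - v) - χ x) * g (x - v) * h x ≤ 2 * (R * ‖v‖) * ‖v‖ * w := by
              calc (χ (x - v) - χ x) * g (x - v) * h x
                  ≤ |(χ (x - v) - χ x) * g (x - v) * h x| := le_abs_self _
                _ = |χ (x - v) - χ x| * |g (x - v)| * |h x| := by rw [abs_mul, abs_mul]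
                _ ≤ ‖v‖ * (2 * (R * ‖v‖)) * w := by
                    refine mul_le_mul (mul_le_mul h1 (hgb _) (abs_nonneg _) (norm_nonneg _))
                      (hw x) (abs_nonneg _) (by positivity)
                _ = 2 * (R * ‖v‖) * ‖v‖ * w := by ring
            have t2 : χ x * ((Δψ x - Δφ x) * h x) ≤ w * (Δφ x + Δψ x) := by
              have a1 : (Δψ x - Δφ x) * h x ≤ (Δφ x + Δψ x) * w := by
                calc (Δψ x - Δφ x) * h x ≤ |(Δψ x - Δφ x) * h x| := le_abs_self _
                  _ = |Δψ x - Δφ x| * |h x| := abs_mul _ _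
                  _ ≤ (Δφ x + Δψ x) * w := by
                      refine mul_le_mul ?_ (hw x) (abs_nonneg _) (by positivity)
                      rw [abs_le]
                      constructor <;> linarith
              have a2 : 0 ≤ (Δφ x + Δψ x) * w := by positivity
              have c0 : 0 ≤ χ x := cutoff_nonneg r x
              have c1 : χ x ≤ 1 := cutoff_le_one r x
              calc χ x * ((Δψ x - Δφ x) * h x) ≤ χ x * ((Δφ x + Δψ x) * w) :=
                    mul_le_mul_of_nonneg_left a1 c0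
                _ ≤ 1 * ((Δφ x + Δψ x) * w) := mul_le_mul_of_nonneg_right c1 a2
                _ = w * (Δφ x + Δψ x) := by ring
            linarith
          · rw [indicator_of_notMem hx]
            rw [hB, mem_closedBall_zero_iff, not_le] at hx
            have h1 : χ x = 0 := cutoff_eq_zero r (by linarith)
            have h2 : χ (x - v) = 0 := by
              refine cutoff_eq_zero r ?_
              have : ‖x‖ ≤ ‖x - v‖ + ‖v‖ := by
                have := norm_add_le (x - v) v
                simpa using this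
              linarith
            rw [h1, h2]
            simp
    _ = 2 * (R * ‖v‖) * ‖v‖ * w * (volume B).toReal +
          w * ((∫ x in B, Δφ x) + ∫ x in B, Δψ x) := by
        have ic : IntegrableOn (fun _ : E d => 2 * (R * ‖v‖) * ‖v‖ * w) B :=
          integrableOn_const hBfin
        have ia : IntegrableOn (fun x => w * (Δφ x + Δψ x)) B := (iΔφ.add iΔψ).const_mul w
        have e5 : ∫ x in B, w * (Δφ x + Δψ x) = w * ((∫ x in B, Δφ x) + ∫ x in B, Δψ x) := by
          rw [integral_const_mul, integral_add iΔφ iΔψ]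
        rw [integral_indicator hBm, integral_add ic ia, e5, setIntegral_const]
        simp [Measure.real, mul_comm]
    _ ≤ 2 * (R * ‖v‖) * ‖v‖ * w * V + w * (R * ‖v‖ ^ 2 * V + R * ‖v‖ ^ 2 * V) := by
        refine add_le_add (mul_le_mul_of_nonneg_left hBV (by positivity))
          (mul_le_mul_of_nonneg_left (add_le_add bφ bψ) hw0)
    _ = 4 * w * R * ‖v‖ ^ 2 * V := by ring

/-- (C), global form: if `|φ - ψ - c| ≤ w` everywhere then `∫_K |T - S|² ≤ C w`. -/
theorem sq_le_of_global (K : Set (E d)) (hK : MeasurableSet K) (r : ℝ)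
    (hKr : K ⊆ closedBall 0 r) (R : ℝ) (hR : 0 ≤ R) (T S : E d → E d) (φ ψ : E d → ℝ)
    (hφ : ConvexOn ℝ univ φ) (hψ : ConvexOn ℝ univ ψ)
    (hφL : ∀ x y, φ x - φ y ≤ R * ‖x - y‖) (hψL : ∀ x y, ψ x - ψ y ≤ R * ‖x - y‖)
    (hT : ∀ᵐ x ∂(volume.restrict K), ∀ y, φ x + ⟪T x, y - x⟫_ℝ ≤ φ y)
    (hS : ∀ᵐ x ∂(volume.restrict K), ∀ y, ψ x + ⟪S x, y - x⟫_ℝ ≤ ψ y)
    (c w : ℝ) (hw : ∀ x, |φ x - ψ x - c| ≤ w) :
    ∫ x in K, ‖T x - S x‖ ^ 2 ≤
      8 * d * w * R * (volume (closedBall (0 : E d) (r + 4))).toReal := by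
  set V : ℝ := (volume (closedBall (0 : E d) (r + 4))).toReal with hV
  have hV0 : 0 ≤ V := ENNReal.toReal_nonneg
  have hw0 : 0 ≤ w := (abs_nonneg _).trans (hw 0)
  have hφc : Continuous φ := continuous_of_lip φ R hφL
  have hψc : Continuous ψ := continuous_of_lip ψ R hψL
  set A : ℝ := ∫ x in K, ‖T x - S x‖ ^ 2 with hA
  have iOn : ∀ f : E d → ℝ, Continuous f → IntegrableOn f K := fun f hf =>
    (hf.continuousOn.integrableOn_compact (isCompact_closedBall (0 : E d) r)).mono_set hKr
  have hV2 : (volume (closedBall (0 : E d) (r + 2))).toReal ≤ V := by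
    refine ENNReal.toReal_mono (isCompact_closedBall _ _).measure_lt_top.ne ?_
    exact measure_mono (closedBall_subset_closedBall (by linarith))
  have key : ∀ t : ℝ, 0 < t → t ≤ 1 →
      t ^ 2 * A ≤ d * (8 * w * R * t ^ 2 * V + 16 * R ^ 2 * t ^ 3 * V) := by
    intro t ht0 ht1
    let u : Fin d → E d := fun i => EuclideanSpace.single i t
    have hu : ∀ i, ‖u i‖ = t := by
      intro i
      simp [u, abs_of_pos ht0]
    let D : Fin d → E d → ℝ := fun i x => ((φ (x + u i) - ψ (x + u i)) - (φ x - ψ x)) ^ 2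
    let Δφ : Fin d → E d → ℝ := fun i x => φ (x + u i) + φ (x - u i) - 2 * φ x
    let Δψ : Fin d → E d → ℝ := fun i x => ψ (x + u i) + ψ (x - u i) - 2 * ψ x
    have hDc : ∀ i, Continuous (D i) := fun i => by simp only [D]; fun_prop
    have hΔφc : ∀ i, Continuous (Δφ i) := fun i => by simp only [Δφ]; fun_prop
    have hΔψc : ∀ i, Continuous (Δψ i) := fun i => by simp only [Δψ]; fun_prop
    have iP : ∀ i, IntegrableOn (fun x => 2 * D i x + 8 * R * t * (Δφ i x + Δψ i x)) K :=
      fun i => iOn _ (by have := hDc i; have := hΔφc i; have := hΔψc i; fun_prop)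
    have h1 : t ^ 2 * A ≤ ∫ x in K, ∑ i, (2 * D i x + 8 * R * t * (Δφ i x + Δψ i x)) := by
      rw [hA, ← integral_const_mul]
      refine integral_mono_of_nonneg (Filter.Eventually.of_forall fun x => by positivity)
        (integrable_finsetSum _ fun i _ => iP i) ?_
      filter_upwards [hT, hS] with x hx1 hx2
      have e : t ^ 2 * ‖T x - S x‖ ^ 2 = ∑ i, ⟪T x - S x, u i⟫_ℝ ^ 2 := by
        rw [EuclideanSpace.norm_sq_eq, Finset.mul_sum]
        refine Finset.sum_congr rfl fun i _ => ?_
        simp only [u, EuclideanSpace.inner_single_right, Real.norm_eq_abs, sq_abs]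
        simp
        ring
      rw [e]
      refine Finset.sum_le_sum fun i _ => ?_
      have := inner_sq_le φ ψ R hφL hψL x (T x) (S x) (u i) hx1 hx2
      rw [hu i] at this
      exact this
    have h2 : ∀ i, ∫ x in K, (2 * D i x + 8 * R * t * (Δφ i x + Δψ i x)) ≤
        8 * w * R * t ^ 2 * V + 16 * R ^ 2 * t ^ 3 * V := by
      intro i
      have hui : ‖u i‖ ≤ 1 := by rw [hu i]; exact ht1
      have a1 : ∫ x in K, D i x ≤ 4 * w * R * t ^ 2 * V := by
        have b1 := integral_cutoff_diff_sq_le φ ψ hφ hψ R hφL hψL c w hw r (u i) hui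
        rw [hu i] at b1
        refine le_trans ?_ b1
        rw [← integral_indicator hK]
        have hsupp : HasCompactSupport (cutoff r : E d → ℝ) := by
          refine HasCompactSupport.intro (isCompact_closedBall (0 : E d) (r + 1)) fun x hx => ?_
          rw [mem_closedBall_zero_iff, not_le] at hx
          exact cutoff_eq_zero r hx.le
        refine integral_mono_of_nonneg ?_
          (((cutoff_continuous r).mul (hDc i)).integrable_of_hasCompactSupport hsupp.mul_right) ?_
        · exact Filter.Eventually.of_forall fun x =>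
            indicator_nonneg (fun y _ => sq_nonneg _) x
        · refine Filter.Eventually.of_forall fun x => ?_
          have hnn : 0 ≤ D i x := sq_nonneg _
          by_cases hx : x ∈ K
          · rw [indicator_of_mem hx]
            have : cutoff r x = 1 := cutoff_eq_one r (mem_closedBall_zero_iff.1 (hKr hx))
            simp only
            rw [this, one_mul]
          · rw [indicator_of_notMem hx]
            exact mul_nonneg (cutoff_nonneg r x) hnn
      have a2 : ∫ x in K, Δφ i x ≤ R * t ^ 2 * V := by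
        have := integral_second_diff_le φ hφ R hφL K hK r hKr (u i) hui
        rw [hu i] at this
        exact this.trans (mul_le_mul_of_nonneg_left hV2 (by positivity))
      have a3 : ∫ x in K, Δψ i x ≤ R * t ^ 2 * V := by
        have := integral_second_diff_le ψ hψ R hψL K hK r hKr (u i) hui
        rw [hu i] at this
        exact this.trans (mul_le_mul_of_nonneg_left hV2 (by positivity))
      have e : ∫ x in K, (2 * D i x + 8 * R * t * (Δφ i x + Δψ i x)) =
          2 * (∫ x in K, D i x) + 8 * R * t * ((∫ x in K, Δφ i x) + ∫ x in K, Δψ i x) := by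
        have i1 : IntegrableOn (fun x => 2 * D i x) K := (iOn _ (hDc i)).const_mul 2
        have i2 : IntegrableOn (fun x => 8 * R * t * (Δφ i x + Δψ i x)) K :=
          ((iOn _ (hΔφc i)).add (iOn _ (hΔψc i))).const_mul _
        rw [integral_add i1 i2, integral_const_mul, integral_const_mul,
          integral_add (iOn _ (hΔφc i)) (iOn _ (hΔψc i))]
      rw [e]
      have c1 : 0 ≤ 8 * R * t := by positivity
      have := mul_le_mul_of_nonneg_left (add_le_add a2 a3) c1
      nlinarith
    calc t ^ 2 * A ≤ ∫ x in K, ∑ i, (2 * D i x + 8 * R * t * (Δφ i x + Δψ i x)) := h1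
      _ = ∑ i, ∫ x in K, (2 * D i x + 8 * R * t * (Δφ i x + Δψ i x)) :=
          integral_finsetSum _ fun i _ => iP i
      _ ≤ ∑ _i : Fin d, (8 * w * R * t ^ 2 * V + 16 * R ^ 2 * t ^ 3 * V) :=
          Finset.sum_le_sum fun i _ => h2 i
      _ = d * (8 * w * R * t ^ 2 * V + 16 * R ^ 2 * t ^ 3 * V) := by
          rw [Finset.sum_const, Finset.card_univ, Fintype.card_fin, nsmul_eq_mul]
  refine le_of_forall_pos_le_add fun ε hε => ?_
  set M : ℝ := d * (16 * R ^ 2 * V) + 1 with hM
  have hMpos : 0 < M := by positivity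
  set t : ℝ := min 1 (ε / M) with ht
  have ht0 : 0 < t := lt_min one_pos (by positivity)
  have ht1 : t ≤ 1 := min_le_left _ _
  have ht2 : t * M ≤ ε := by
    have : t ≤ ε / M := min_le_right _ _
    rwa [le_div_iff₀ hMpos] at this
  have h := key t ht0 ht1
  have e : (d : ℝ) * (8 * w * R * t ^ 2 * V + 16 * R ^ 2 * t ^ 3 * V) =
      t ^ 2 * (8 * d * w * R * V + t * (d * (16 * R ^ 2 * V))) := by ring
  rw [e] at h
  have h' := le_of_mul_le_mul_left h (by positivity)
  have : t * (d * (16 * R ^ 2 * V)) ≤ t * M := by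
    refine mul_le_mul_of_nonneg_left ?_ ht0.le
    rw [hM]; linarith
  linarith

/-- (C): if `|φ - ψ - c| ≤ w` on `K` then `∫_K |T - S|² ≤ C w` (clamping the potentials makes the
bound global). -/
theorem sq_le_of_osc (K : Set (E d)) (hK : MeasurableSet K) (r : ℝ)
    (hKr : K ⊆ closedBall 0 r) (R : ℝ) (hR : 0 ≤ R) (T S : E d → E d) (φ ψ : E d → ℝ)
    (hφ : ConvexOn ℝ univ φ) (hψ : ConvexOn ℝ univ ψ)
    (hφL : ∀ x y, φ x - φ y ≤ R * ‖x - y‖) (hψL : ∀ x y, ψ x - ψ y ≤ R * ‖x - y‖)
    (hT : ∀ᵐ x ∂(volume.restrict K), ∀ y, φ x + ⟪T x, y - x⟫_ℝ ≤ φ y)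
    (hS : ∀ᵐ x ∂(volume.restrict K), ∀ y, ψ x + ⟪S x, y - x⟫_ℝ ≤ ψ y)
    (c w : ℝ) (hw0 : 0 ≤ w) (hw : ∀ x ∈ K, |φ x - ψ x - c| ≤ w) :
    ∫ x in K, ‖T x - S x‖ ^ 2 ≤
      8 * d * w * R * (volume (closedBall (0 : E d) (r + 4))).toReal := by
  let ψ' : E d → ℝ := fun x => max (ψ x) (φ x - (c + w))
  let φ' : E d → ℝ := fun x => max (φ x) (ψ' x + (c - w))
  have hψ' : ConvexOn ℝ univ ψ' := by
    have h1 : ConvexOn ℝ univ (fun x => φ x - (c + w)) := by
      have := hφ.add_const (-(c + w))
      exact this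
    exact hψ.sup h1
  have hφ' : ConvexOn ℝ univ φ' := hφ.sup (hψ'.add_const _)
  have hψL' : ∀ x y, ψ' x - ψ' y ≤ R * ‖x - y‖ := by
    intro x y
    have h1 := hψL x y
    have h2 := hφL x y
    have : ψ' x ≤ ψ' y + R * ‖x - y‖ := by
      refine max_le ?_ ?_
      · have := le_max_left (ψ y) (φ y - (c + w))
        simp only [ψ']
        linarith
      · have := le_max_right (ψ y) (φ y - (c + w))
        simp only [ψ']
        linarith
    linarith
  have hφL' : ∀ x y, φ' x - φ' y ≤ R * ‖x - y‖ := by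
    intro x y
    have h1 := hψL' x y
    have h2 := hφL x y
    have : φ' x ≤ φ' y + R * ‖x - y‖ := by
      refine max_le ?_ ?_
      · have := le_max_left (φ y) (ψ' y + (c - w))
        simp only [φ']
        linarith
      · have := le_max_right (φ y) (ψ' y + (c - w))
        simp only [φ']
        linarith
    linarith
  have hglob : ∀ x, |φ' x - ψ' x - c| ≤ w := by
    intro x
    simp only [φ', ψ']
    rw [abs_le]
    rcases le_total (ψ x) (φ x - (c + w)) with h1 | h1
    · rw [max_eq_right h1, max_eq_left (by linarith)]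
      constructor <;> linarith
    · rw [max_eq_left h1]
      rcases le_total (φ x) (ψ x + (c - w)) with h2 | h2
      · rw [max_eq_right h2]
        constructor <;> linarith
      · rw [max_eq_left h2]
        constructor <;> linarith
  have hψeq : ∀ x ∈ K, ψ' x = ψ x := by
    intro x hx
    have := abs_le.1 (hw x hx)
    exact max_eq_left (by linarith [this.2])
  have hφeq : ∀ x ∈ K, φ' x = φ x := by
    intro x hx
    have := abs_le.1 (hw x hx)
    simp only [φ']
    rw [hψeq x hx]
    exact max_eq_left (by linarith [this.1])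
  refine sq_le_of_global K hK r hKr R hR T S φ' ψ' hφ' hψ' hφL' hψL' ?_ ?_ c w hglob
  · filter_upwards [hT, ae_restrict_mem hK] with x hx hxK y
    rw [hφeq x hxK]
    exact (hx y).trans (le_max_left _ _)
  · filter_upwards [hS, ae_restrict_mem hK] with x hx hxK y
    rw [hψeq x hxK]
    exact (hx y).trans (le_max_left _ _)

end Vale.Agent.Lib.P074
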