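import Vale.Agent.Lib.P074.Cyc

/-!
# P074, Part B, step swap: optimality of `T` among Borel maps with the same image measure gives
the swap inequality for finitely many disjoint balls permuted by translations.
-/

open MeasureTheory Set Metric Filter Topology
open scoped InnerProductSpace ENNReal

namespace Vale.Agent.Lib.P074

variable {d : ℕ}

section swap

variable {n : ℕ} (c : Fin n → E d) (δ : ℝ) (σ : Equiv.Perm (Fin n))

/-- the displacement as a function of the source point -/
noncomputable def shiftS : E d → E d := fun x =>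
  ∑ i, (closedBall (c i) δ).indicator (fun _ => c (σ i) - c i) x

/-- the displacement as a function of the image point -/
noncomputable def shiftI : E d → E d := fun z =>
  ∑ i, (closedBall (c (σ i)) δ).indicator (fun _ => c (σ i) - c i) z

/-- the piecewise translation -/
noncomputable def swapMap : E d → E d := fun x => x + shiftS c δ σ x

theorem shiftS_measurable : Measurable (shiftS c δ σ) := by
  unfold shiftS
  refine Finset.measurable_sum _ fun i _ => ?_
  exact measurable_const.indicator measurableSet_closedBall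

theorem shiftI_measurable : Measurable (shiftI c δ σ) := by
  unfold shiftI
  refine Finset.measurable_sum _ fun i _ => ?_
  exact measurable_const.indicator measurableSet_closedBall

theorem swapMap_measurable : Measurable (swapMap c δ σ) :=
  measurable_id.add (shiftS_measurable c δ σ)

variable (hdisj : Pairwise fun i j => Disjoint (closedBall (c i) δ) (closedBall (c j) δ))

include hdisj in
theorem shiftS_of_mem {x : E d} {i : Fin n} (hx : x ∈ closedBall (c i) δ) :
    shiftS c δ σ x = c (σ i) - c i := by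
  unfold shiftS
  rw [Finset.sum_eq_single i]
  · rw [indicator_of_mem hx]
  · intro j _ hj
    rw [indicator_of_notMem]
    intro hxj
    exact (disjoint_left.1 (hdisj hj) hxj) hx
  · intro h; exact absurd (Finset.mem_univ i) h

theorem shiftS_of_notMem {x : E d} (hx : ∀ i, x ∉ closedBall (c i) δ) :
    shiftS c δ σ x = 0 := by
  unfold shiftS
  apply Finset.sum_eq_zero
  intro i _
  rw [indicator_of_notMem (hx i)]

include hdisj in
theorem shiftI_of_mem {z : E d} {i : Fin n} (hz : z ∈ closedBall (c (σ i)) δ) :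
    shiftI c δ σ z = c (σ i) - c i := by
  unfold shiftI
  rw [Finset.sum_eq_single i]
  · rw [indicator_of_mem hz]
  · intro j _ hj
    rw [indicator_of_notMem]
    intro hzj
    have : σ j ≠ σ i := fun h => hj (σ.injective h)
    exact (disjoint_left.1 (hdisj this) hzj) hz
  · intro h; exact absurd (Finset.mem_univ i) h

theorem shiftI_of_notMem {z : E d} (hz : ∀ i, z ∉ closedBall (c i) δ) :
    shiftI c δ σ z = 0 := by
  unfold shiftI
  apply Finset.sum_eq_zero
  intro i _
  rw [indicator_of_notMem (hz (σ i))]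

theorem mem_translate {x : E d} {i : Fin n} :
    x + (c (σ i) - c i) ∈ closedBall (c (σ i)) δ ↔ x ∈ closedBall (c i) δ := by
  rw [mem_closedBall, mem_closedBall, dist_eq_norm, dist_eq_norm]
  have : x + (c (σ i) - c i) - c (σ i) = x - c i := by abel
  rw [this]

include hdisj in
theorem shiftI_swapMap (x : E d) : shiftI c δ σ (swapMap c δ σ x) = shiftS c δ σ x := by
  by_cases h : ∃ i, x ∈ closedBall (c i) δ
  · obtain ⟨i, hi⟩ := h
    have h1 := shiftS_of_mem c δ σ hdisj hi
    unfold swapMap
    rw [h1]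
    exact shiftI_of_mem c δ σ hdisj ((mem_translate c δ σ).2 hi)
  · push Not at h
    have h1 := shiftS_of_notMem c δ σ h
    unfold swapMap
    rw [h1, add_zero]
    exact shiftI_of_notMem c δ σ h

include hdisj in
theorem measure_inter_decomp (K : Set (E d)) (_hK : MeasurableSet K)
    (hsub : ∀ i, closedBall (c i) δ ⊆ K) (S : Set (E d)) (hS : MeasurableSet S) :
    volume (S ∩ K) = volume (S ∩ (K \ ⋃ i, closedBall (c i) δ))
      + ∑ i, volume (S ∩ closedBall (c i) δ) := by
  have h1 : S ∩ K = (S ∩ (K \ ⋃ i, closedBall (c i) δ)) ∪ ⋃ i, (S ∩ closedBall (c i) δ) := by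
    ext x
    simp only [mem_inter_iff, mem_union, Set.mem_sdiff, mem_iUnion, not_exists]
    constructor
    · rintro ⟨hxS, hxK⟩
      by_cases h : ∃ i, x ∈ closedBall (c i) δ
      · obtain ⟨i, hi⟩ := h
        exact Or.inr ⟨i, hxS, hi⟩
      · push Not at h
        exact Or.inl ⟨hxS, hxK, h⟩
    · rintro (⟨hxS, hxK, -⟩ | ⟨i, hxS, hi⟩)
      · exact ⟨hxS, hxK⟩
      · exact ⟨hxS, hsub i hi⟩
  have hm : ∀ i, MeasurableSet (S ∩ closedBall (c i) δ) := fun i =>
    hS.inter measurableSet_closedBall
  rw [h1, measure_union _ (MeasurableSet.iUnion hm), measure_iUnion _ hm, tsum_fintype]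
  · intro i j hij
    exact (hdisj hij).mono inter_subset_right inter_subset_right
  · rw [disjoint_left]
    intro x hx hx2
    simp only [mem_inter_iff, Set.mem_sdiff, mem_iUnion, not_exists] at hx hx2
    obtain ⟨i, -, hi⟩ := hx2
    exact hx.2.2 i hi

include hdisj in
theorem swapMap_measurePreserving (K : Set (E d)) (hK : MeasurableSet K)
    (hsub : ∀ i, closedBall (c i) δ ⊆ K) :
    MeasurePreserving (swapMap c δ σ) (volume.restrict K) (volume.restrict K) := by
  have hm := swapMap_measurable c δ σ
  refine ⟨hm, Measure.ext fun A hA => ?_⟩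
  rw [Measure.map_apply hm hA, Measure.restrict_apply hA, Measure.restrict_apply (hm hA),
    measure_inter_decomp c δ hdisj K hK hsub _ hA,
    measure_inter_decomp c δ hdisj K hK hsub _ (hm hA)]
  congr 1
  · congr 1
    ext x
    simp only [mem_inter_iff, mem_preimage, Set.mem_sdiff, mem_iUnion, not_exists]
    constructor
    · rintro ⟨h1, h2, h3⟩
      have : swapMap c δ σ x = x := by
        unfold swapMap; rw [shiftS_of_notMem c δ σ h3, add_zero]
      rw [this] at h1
      exact ⟨h1, h2, h3⟩
    · rintro ⟨h1, h2, h3⟩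
      have : swapMap c δ σ x = x := by
        unfold swapMap; rw [shiftS_of_notMem c δ σ h3, add_zero]
      rw [this]
      exact ⟨h1, h2, h3⟩
  · rw [← Equiv.sum_comp σ (fun j => volume (A ∩ closedBall (c j) δ))]
    apply Finset.sum_congr rfl
    intro i _
    rw [← measure_preimage_add_right volume (c (σ i) - c i) (A ∩ closedBall (c (σ i)) δ)]
    congr 1
    ext x
    simp only [mem_inter_iff, mem_preimage]
    rw [mem_translate]
    constructor
    · rintro ⟨h1, h2⟩
      have : swapMap c δ σ x = x + (c (σ i) - c i) := by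
        unfold swapMap; rw [shiftS_of_mem c δ σ hdisj h2]
      rw [this] at h1
      exact ⟨h1, h2⟩
    · rintro ⟨h1, h2⟩
      have : swapMap c δ σ x = x + (c (σ i) - c i) := by
        unfold swapMap; rw [shiftS_of_mem c δ σ hdisj h2]
      rw [this]
      exact ⟨h1, h2⟩

theorem shiftI_norm_le (z : E d) : ‖shiftI c δ σ z‖ ≤ ∑ i, ‖c (σ i) - c i‖ := by
  unfold shiftI
  refine (norm_sum_le _ _).trans (Finset.sum_le_sum fun i _ => ?_)
  by_cases h : z ∈ closedBall (c (σ i)) δ
  · rw [indicator_of_mem h]
  · rw [indicator_of_notMem h, norm_zero]; exact norm_nonneg _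

end swap

/-- B-swap.  Pairwise disjoint closed balls `closedBall (c i) δ ⊆ K`, a permutation `σ`.
Optimality of `T` gives `0 ≤ ∑ i ⟪c (σ i) - c i, ∫_{closedBall (c (σ i)) δ} T⟫`. -/
theorem swap_ineq (K : Set (E d)) (hK : MeasurableSet K) (hKb : Bornology.IsBounded K)
    (hK0 : volume K ≠ 0)
    (R : ℝ) (T : E d → E d) (hT : Measurable T) (hTb : ∀ᵐ x ∂(volume.restrict K), ‖T x‖ ≤ R)
    (hopt : ∀ T' : E d → E d, Measurable T' → (unif K).map T' = (unif K).map T →
      ∫ x, ‖x - T x‖ ^ 2 ∂(unif K) ≤ ∫ x, ‖x - T' x‖ ^ 2 ∂(unif K)) :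
    SwapProp K T := by
  intro n c δ hsub hdisj σ
  have hΦ := swapMap_measurePreserving c δ σ hdisj K hK hsub
  set Φ := swapMap c δ σ with hΦdef
  have hΦm := hΦ.measurable
  have hfin : volume K ≠ ∞ := hKb.measure_lt_top.ne
  have : IsFiniteMeasure (volume.restrict K) :=
    ⟨by rw [Measure.restrict_apply_univ]; exact hKb.measure_lt_top⟩
  have hmap : (unif K).map (T ∘ Φ) = (unif K).map T := by
    rw [← Measure.map_map hT hΦm]
    congr 1
    unfold unif
    rw [Measure.map_smul, hΦ.map_eq]
  have h1 := hopt (T ∘ Φ) (hT.comp hΦm) hmap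
  unfold unif at h1
  rw [integral_smul_measure, integral_smul_measure] at h1
  have hcpos : 0 < ((volume K)⁻¹).toReal :=
    ENNReal.toReal_pos (ENNReal.inv_ne_zero.2 hfin) (ENNReal.inv_ne_top.2 hK0)
  have h2 : ∫ x in K, ‖x - T x‖ ^ 2 ≤ ∫ x in K, ‖x - (T ∘ Φ) x‖ ^ 2 :=
    le_of_mul_le_mul_left h1 hcpos
  obtain ⟨M, hM⟩ := hKb.exists_norm_le
  have hMae : ∀ᵐ x ∂(volume.restrict K), ‖x‖ ≤ M := by
    filter_upwards [ae_restrict_mem hK] with x hx using hM x hx
  -- the functions
  set F : E d → ℝ := fun z => ‖T z‖ ^ 2 - 2 * ⟪z, T z⟫_ℝ with hF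
  set kk : E d → ℝ := fun z => ⟪shiftI c δ σ z, T z⟫_ℝ with hkk
  have hFm : Measurable F := by
    apply Measurable.sub (hT.norm.pow_const 2)
    exact (measurable_id.inner hT).const_mul 2
  have hkm : Measurable kk := (shiftI_measurable c δ σ).inner hT
  have hNi : Integrable (fun x : E d => ‖x‖ ^ 2) (volume.restrict K) := by
    refine Integrable.of_bound (measurable_norm.pow_const 2).aestronglyMeasurable (M ^ 2) ?_
    filter_upwards [hMae] with x hx
    rw [Real.norm_eq_abs, abs_of_nonneg (by positivity)]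
    exact pow_le_pow_left₀ (norm_nonneg _) hx 2
  have hFi : Integrable F (volume.restrict K) := by
    refine Integrable.of_bound hFm.aestronglyMeasurable (R ^ 2 + 2 * (M * R)) ?_
    filter_upwards [hMae, hTb] with x hx hx2
    rw [Real.norm_eq_abs]
    have e1 : |⟪x, T x⟫_ℝ| ≤ M * R :=
      (abs_real_inner_le_norm _ _).trans (mul_le_mul hx hx2 (norm_nonneg _)
        ((norm_nonneg _).trans hx))
    have e2 : ‖T x‖ ^ 2 ≤ R ^ 2 := pow_le_pow_left₀ (norm_nonneg _) hx2 2
    have e3 : 0 ≤ ‖T x‖ ^ 2 := by positivity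
    rw [abs_le] at e1 ⊢
    simp only [hF]
    constructor <;> linarith [e1.1, e1.2]
  have hki : Integrable kk (volume.restrict K) := by
    refine Integrable.of_bound hkm.aestronglyMeasurable ((∑ i, ‖c (σ i) - c i‖) * R) ?_
    filter_upwards [hTb] with x hx2
    rw [Real.norm_eq_abs]
    exact (abs_real_inner_le_norm _ _).trans (mul_le_mul (shiftI_norm_le c δ σ x) hx2
      (norm_nonneg _) (Finset.sum_nonneg fun i _ => norm_nonneg _))
  have hTi : Integrable T (volume.restrict K) :=
    Integrable.of_bound hT.aestronglyMeasurable R hTb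
  -- expansions
  have e1 : ∀ x, ‖x - T x‖ ^ 2 = ‖x‖ ^ 2 + F x := by
    intro x
    rw [norm_sub_sq_real]
    simp only [hF]; ring
  have e2 : ∀ x, ‖x - (T ∘ Φ) x‖ ^ 2 = ‖x‖ ^ 2 + (F (Φ x) + 2 * kk (Φ x)) := by
    intro x
    rw [norm_sub_sq_real]
    simp only [hF, hkk, Function.comp]
    have : x = Φ x - shiftI c δ σ (Φ x) := by
      rw [hΦdef, shiftI_swapMap c δ σ hdisj]
      unfold swapMap
      abel
    have h3 : ⟪x, T (Φ x)⟫_ℝ = ⟪Φ x, T (Φ x)⟫_ℝ - ⟪shiftI c δ σ (Φ x), T (Φ x)⟫_ℝ := by
      rw [← inner_sub_left, ← this]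
    rw [h3]; ring
  have hG : Integrable (fun z => F z + 2 * kk z) (volume.restrict K) := hFi.add (hki.const_mul 2)
  have hGm : Measurable (fun z => F z + 2 * kk z) := hFm.add (hkm.const_mul 2)
  have hGc : Integrable (fun x => F (Φ x) + 2 * kk (Φ x)) (volume.restrict K) :=
    (hΦ.integrable_comp hGm.aestronglyMeasurable).2 hG
  have e3 : ∫ x in K, (F (Φ x) + 2 * kk (Φ x)) = ∫ z in K, (F z + 2 * kk z) := by
    have := integral_map (μ := volume.restrict K) hΦm.aemeasurable
      (f := fun z => F z + 2 * kk z) hGm.aestronglyMeasurable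
    rw [hΦ.map_eq] at this
    exact this.symm
  simp only [e1, e2] at h2
  rw [integral_add hNi hFi, integral_add hNi hGc, e3, integral_add hFi (hki.const_mul 2),
    integral_const_mul] at h2
  have h4 : 0 ≤ ∫ z in K, kk z := by linarith
  have h5 : ∫ z in K, kk z = ∑ i, ⟪c (σ i) - c i, ∫ y in closedBall (c (σ i)) δ, T y⟫_ℝ := by
    have h6 : ∀ z, kk z = ∑ i, (closedBall (c (σ i)) δ).indicator
        (fun y => ⟪c (σ i) - c i, T y⟫_ℝ) z := by
      intro z
      simp only [hkk, shiftI]
      rw [sum_inner]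
      apply Finset.sum_congr rfl
      intro i _
      by_cases h : z ∈ closedBall (c (σ i)) δ
      · rw [indicator_of_mem h, indicator_of_mem h]
      · rw [indicator_of_notMem h, indicator_of_notMem h, inner_zero_left]
    simp only [h6]
    rw [integral_finsetSum]
    · apply Finset.sum_congr rfl
      intro i _
      rw [setIntegral_indicator measurableSet_closedBall,
        inter_eq_self_of_subset_right (hsub (σ i))]
      exact integral_inner (hTi.mono_measure (Measure.restrict_mono (hsub (σ i)) le_rfl)) _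
    · intro i _
      apply Integrable.indicator _ measurableSet_closedBall
      exact hTi.const_inner _
  rw [← h5]
  exact h4

end Vale.Agent.Lib.P074
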