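import Vale.Agent.Lib.P074.Stability

/-!
# P074: from couplings to `W 1` and `W 2`
-/

open MeasureTheory Set Metric
open scoped InnerProductSpace ENNReal

namespace Vale.Agent.Lib.P074

variable {d : ℕ}

/-- the coupling induced by two maps -/
theorem isCoupling_map_prod (ρ : Measure (E d)) (T S : E d → E d) (hT : Measurable T)
    (hS : Measurable S) : IsCoupling (ρ.map fun x => (T x, S x)) (ρ.map T) (ρ.map S) := by
  constructor
  · rw [Measure.map_map measurable_fst (hT.prodMk hS)]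
    rfl
  · rw [Measure.map_map measurable_snd (hT.prodMk hS)]
    rfl

/-- Cauchy–Schwarz on a probability space -/
theorem integral_le_sqrt_integral_sq {α : Type*} [MeasurableSpace α] (π : Measure α)
    [IsProbabilityMeasure π] (g : α → ℝ) (hg : Integrable g π)
    (hg2 : Integrable (fun z => g z ^ 2) π) :
    ∫ z, g z ∂π ≤ Real.sqrt (∫ z, g z ^ 2 ∂π) := by
  set m : ℝ := ∫ z, g z ∂π with hm
  have h0 : 0 ≤ ∫ z, (g z - m) ^ 2 ∂π := integral_nonneg fun z => sq_nonneg _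
  have e : ∫ z, (g z - m) ^ 2 ∂π = ∫ z, g z ^ 2 ∂π - m ^ 2 := by
    have : (fun z => (g z - m) ^ 2) = fun z => g z ^ 2 - (2 * m) * g z + m ^ 2 := by
      ext z; ring
    rw [this]
    have a1 : ∫ z, (g z ^ 2 - (2 * m) * g z + m ^ 2) ∂π =
        ∫ z, (g z ^ 2 - (2 * m) * g z) ∂π + ∫ _z, m ^ 2 ∂π :=
      integral_add (hg2.sub (hg.const_mul _)) (integrable_const _)
    have a2 : ∫ z, (g z ^ 2 - (2 * m) * g z) ∂π = ∫ z, g z ^ 2 ∂π - ∫ z, (2 * m) * g z ∂π :=
      integral_sub hg2 (hg.const_mul _)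
    rw [a1, a2, integral_const_mul, integral_const, ← hm]
    simp
    ring
  rw [e] at h0
  exact Real.le_sqrt_of_sq_le (by linarith)

/-- the abstract passage from a bound for all couplings to a bound by `W p` -/
theorem le_W_of_forall_coupling (p : ℝ) (μ ν : Measure (E d))
    (hne : ∃ π, IsCoupling π μ ν) (a : ℝ)
    (h : ∀ π, IsCoupling π μ ν → a ≤ (∫ z, ‖z.1 - z.2‖ ^ p ∂π) ^ (1 / p)) : a ≤ W p μ ν := by
  obtain ⟨π0, hπ0⟩ := hne
  have : Nonempty {π : Measure (E d × E d) // IsCoupling π μ ν} := ⟨⟨π0, hπ0⟩⟩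
  exact le_ciInf fun π => h π.1 π.2

theorem le_mul_rpow_quarter (x C w : ℝ) (hx : 0 ≤ x) (hC : 0 ≤ C) (hw : 0 ≤ w)
    (h : x ^ 4 ≤ C * w) : x ≤ C ^ (1 / 4 : ℝ) * w ^ (1 / 4 : ℝ) := by
  rw [← Real.mul_rpow hC hw]
  have : x = (x ^ 4) ^ (1 / 4 : ℝ) := by
    rw [← Real.rpow_natCast, ← Real.rpow_mul hx]
    norm_num
  rw [this]
  exact Real.rpow_le_rpow (by positivity) h (by norm_num)

/-- Stability with respect to `W 1` and `W 2`, for maps with potentials. -/
theorem stability_W (K : Set (E d)) (hK : MeasurableSet K) (hK0 : volume K ≠ 0)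
    (r : ℝ) (hr : 0 ≤ r) (hKr : K ⊆ closedBall 0 r) (R : ℝ) (hR : 0 < R)
    (T S : E d → E d) (hT : Measurable T) (hS : Measurable S) (φ ψ : E d → ℝ)
    (hTb : ∀ᵐ x ∂(unif K), ‖T x‖ ≤ R) (hSb : ∀ᵐ x ∂(unif K), ‖S x‖ ≤ R)
    (hφ : ∀ᵐ x ∂(unif K), ∀ y, φ x + ⟪T x, y - x⟫_ℝ ≤ φ y)
    (hψ : ∀ᵐ x ∂(unif K), ∀ y, ψ x + ⟪S x, y - x⟫_ℝ ≤ ψ y) :
    L2dist (unif K) T S ≤
      (32 * (d : ℝ) ^ 3 * R ^ 3 * (r + 1) * (volume (closedBall (0 : E d) (r + 2))).toReal /
        (volume K).toReal + 1) ^ (1 / 4 : ℝ) * W 1 ((unif K).map T) ((unif K).map S) ^ (1 / 4 : ℝ) ∧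
    L2dist (unif K) T S ≤
      (32 * (d : ℝ) ^ 3 * R ^ 3 * (r + 1) * (volume (closedBall (0 : E d) (r + 2))).toReal /
        (volume K).toReal + 1) ^ (1 / 4 : ℝ) * W 2 ((unif K).map T) ((unif K).map S) ^ (1 / 4 : ℝ) := by
  have hKfin : volume K ≠ ∞ :=
    ((measure_mono hKr).trans_lt (isCompact_closedBall _ _).measure_lt_top).ne
  have hprob := isProbabilityMeasure_unif K hKfin hK0
  set C0 : ℝ := 32 * (d : ℝ) ^ 3 * R ^ 3 * (r + 1) *
    (volume (closedBall (0 : E d) (r + 2))).toReal / (volume K).toReal with hC0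
  have hC00 : 0 ≤ C0 := by positivity
  set C : ℝ := C0 + 1 with hC
  have hCpos : 0 < C := by positivity
  set Q : ℝ := ∫ x, ‖T x - S x‖ ^ 2 ∂(unif K) with hQ
  have hQ0 : 0 ≤ Q := integral_nonneg fun x => by positivity
  have hL4 : L2dist (unif K) T S ^ 4 = Q ^ 2 := by
    unfold L2dist
    rw [← hQ]
    have : Real.sqrt Q ^ 4 = (Real.sqrt Q ^ 2) ^ 2 := by ring
    rw [this, Real.sq_sqrt hQ0]
  have hL0 : 0 ≤ L2dist (unif K) T S := Real.sqrt_nonneg _
  have hne : ∃ π, IsCoupling π ((unif K).map T) ((unif K).map S) :=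
    ⟨_, isCoupling_map_prod (unif K) T S hT hS⟩
  have hbase : ∀ π, IsCoupling π ((unif K).map T) ((unif K).map S) →
      Q ^ 2 / C ≤ ∫ z, ‖z.1 - z.2‖ ∂π := by
    intro π hπ
    have h1 := stability_of_potentials K hK hK0 r hr hKr R hR T S hT hS φ ψ hTb hSb hφ hψ π hπ
    rw [← hQ, ← hC0] at h1
    have h2 : 0 ≤ ∫ z, ‖z.1 - z.2‖ ∂π := integral_nonneg fun z => norm_nonneg _
    rw [div_le_iff₀ hCpos]
    nlinarith
  have h1 : Q ^ 2 / C ≤ W 1 ((unif K).map T) ((unif K).map S) := by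
    refine le_W_of_forall_coupling 1 _ _ hne _ fun π hπ => ?_
    simpa using hbase π hπ
  have h2 : Q ^ 2 / C ≤ W 2 ((unif K).map T) ((unif K).map S) := by
    refine le_W_of_forall_coupling 2 _ _ hne _ fun π hπ => ?_
    refine (hbase π hπ).trans ?_
    have hπprob : IsProbabilityMeasure π := by
      constructor
      have : π univ = (π.map Prod.fst) univ := by
        rw [Measure.map_apply measurable_fst MeasurableSet.univ]
        rfl
      rw [this, hπ.1, Measure.map_apply hT MeasurableSet.univ]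
      simp
    obtain ⟨j, -⟩ := integral_sub_le_of_coupling (unif K) T S hT hS R hTb hSb (fun _ => 0) 0
      (by intro p q; simp) π hπ
    obtain ⟨k1, -⟩ := integrable_and_integral_of_map_eq (unif K) π T Prod.fst hT measurable_fst
      hπ.1 (fun y => ‖y‖ ^ 2) (by fun_prop)
      (integrable_comp_of_bounded (unif K) T hT R hTb (fun y => ‖y‖ ^ 2) (by fun_prop))
    obtain ⟨k2, -⟩ := integrable_and_integral_of_map_eq (unif K) π S Prod.snd hS measurable_snd
      hπ.2 (fun y => ‖y‖ ^ 2) (by fun_prop)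
      (integrable_comp_of_bounded (unif K) S hS R hSb (fun y => ‖y‖ ^ 2) (by fun_prop))
    have j2 : Integrable (fun z : E d × E d => ‖z.1 - z.2‖ ^ 2) π := by
      refine ((k1.add k2).const_mul 2).mono' (by fun_prop) ?_
      refine Filter.Eventually.of_forall fun z => ?_
      rw [Real.norm_eq_abs, abs_of_nonneg (by positivity)]
      have h3 := norm_sub_le z.1 z.2
      have h4 : ‖z.1 - z.2‖ ^ 2 ≤ (‖z.1‖ + ‖z.2‖) ^ 2 := pow_le_pow_left₀ (norm_nonneg _) h3 2
      simp only [Pi.add_apply]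
      nlinarith [sq_nonneg (‖z.1‖ - ‖z.2‖)]
    have := integral_le_sqrt_integral_sq π _ j j2
    rw [Real.sqrt_eq_rpow] at this
    simpa using this
  have hW1 : 0 ≤ W 1 ((unif K).map T) ((unif K).map S) := le_trans (by positivity) h1
  have hW2 : 0 ≤ W 2 ((unif K).map T) ((unif K).map S) := le_trans (by positivity) h2
  constructor
  · refine le_mul_rpow_quarter _ _ _ hL0 hCpos.le hW1 ?_
    rw [hL4]
    rwa [div_le_iff₀' hCpos] at h1
  · refine le_mul_rpow_quarter _ _ _ hL0 hCpos.le hW2 ?_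
    rw [hL4]
    rwa [div_le_iff₀' hCpos] at h2

end Vale.Agent.Lib.P074
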